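import Vale.Agent.Lib.P329.Proofs

/-! Towers of token-building rules: definitions and run calculus. -/

namespace Vale.Agent.Lib.P329.Tw

open Classical

noncomputable section

variable {S : Type}

/-- Tokens: leaves are letters; a node is a list of tokens, encoded by `nilT` and `consT`. -/
inductive Tok (S : Type) : Type
  | leaf (a : S) : Tok S
  | nilT : Tok S
  | consT (h t : Tok S) : Tok S

/-- The node with a given list of children. -/
def Tok.node : List (Tok S) → Tok S
  | [] => .nilT
  | x :: xs => .consT x (Tok.node xs)

/-- The children of a token. -/
def kids : Tok S → List (Tok S)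
  | .leaf _ => []
  | .nilT => []
  | .consT h t => h :: kids t

@[simp] lemma kids_node (l : List (Tok S)) : kids (.node l) = l := by
  induction l with
  | nil => rfl
  | cons x xs ih => simp only [Tok.node, kids, ih]
@[simp] lemma kids_leaf (a : S) : kids (.leaf a : Tok S) = [] := rfl

/-- Rules: tuple of size `p`; run-limit with capped memory; flush rule. -/
inductive Rule (S : Type) : Type
  | T : Rule S
  | L (Q : Tok S) (K : ℕ) : Rule S
  | R (U : Tok S) (K : ℕ → ℕ) (large : Bool) : Rule S

/-- Number of entries different from `U`. -/
def actives (U : Tok S) (a : List (Tok S)) : ℕ := a.countP (fun t => decide (t ≠ U))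

/-- Length of the trailing run of `U`. -/
def trail (U : Tok S) (a : List (Tok S)) : ℕ := (a.reverse.takeWhile (fun t => decide (t = U))).length

variable (p : ℕ)

/-- One step of a rule on a pending list: new pending list and possible output. -/
def next : Rule S → List (Tok S) → Tok S → List (Tok S) × Option (Tok S)
  | .T, a, t => if p ≤ a.length + 1 then ([], some (.node (a ++ [t]))) else (a ++ [t], none)
  | .L Q K, a, t =>
      if t = Q then (if a.length < K then (a ++ [t], none) else (a, none))
      else ([], some (.node (a ++ [t])))
  | .R U K _, a, t =>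
      if t = U then
        (if K (actives U a) ≤ trail U a + 1 then ([], some (.node (a ++ [t]))) else (a ++ [t], none))
      else (if p ≤ actives U a + 1 then ([], some (.node (a ++ [t]))) else (a ++ [t], none))

/-- A rule run on a list of tokens from a pending list: final pending list and outputs. -/
def runR (R : Rule S) : List (Tok S) → List (Tok S) → List (Tok S) × List (Tok S)
  | a, [] => (a, [])
  | a, t :: l =>
      ((runR R (next p R a t).1 l).1, (next p R a t).2.toList ++ (runR R (next p R a t).1 l).2)

/-- A tower run: states are lists of pending lists, one per rule. -/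
def runT : List (Rule S) → List (List (Tok S)) → List (Tok S) → List (List (Tok S)) × List (Tok S)
  | [], _, l => ([], l)
  | R :: Rs, s, l =>
      ((runR p R (s.headD []) l).1 :: (runT Rs s.tail (runR p R (s.headD []) l).2).1,
        (runT Rs s.tail (runR p R (s.headD []) l).2).2)

/-- The root state of a tower. -/
def root (spec : List (Rule S)) : List (List (Tok S)) := spec.map (fun _ => [])

/-- Expansion of a token down a tower. -/
def ex : List (Rule S) → Tok S → List (Tok S)
  | [], y => [y]
  | _ :: Rs, y => (ex Rs y).flatMap kids

/-- No overrun of a rule on a list. -/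
def noOverR (R : Rule S) : List (Tok S) → List (Tok S) → Prop
  | _, [] => True
  | a, t :: l =>
      (match R with
        | .L Q K => ¬ (t = Q ∧ K ≤ a.length)
        | _ => True) ∧ noOverR R (next p R a t).1 l

/-- No overrun in a tower run. -/
def NoOver : List (Rule S) → List (List (Tok S)) → List (Tok S) → Prop
  | [], _, _ => True
  | R :: Rs, s, l =>
      noOverR p R (s.headD []) l ∧ NoOver Rs s.tail (runR p R (s.headD []) l).2

/-- `u` read from the root emits exactly `t`, at its end, and returns to the root. -/
def Seg (spec : List (Rule S)) (u : List (Tok S)) (t : Tok S) : Prop :=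
  runT p spec (root spec) u = (root spec, [t])

section pw
variable {α : Type}

/-- Powers of lists. -/
def pw (n : ℕ) (x : List α) : List α := (List.replicate n x).flatten

@[simp] lemma pw_zero (x : List α) : pw 0 x = [] := rfl
lemma pw_succ (n : ℕ) (x : List α) : pw (n + 1) x = x ++ pw n x := by
  simp [pw, List.replicate_succ]
@[simp] lemma pw_one (x : List α) : pw 1 x = x := by simp [pw]
lemma pw_add (m n : ℕ) (x : List α) : pw (m + n) x = pw m x ++ pw n x := by
  induction m with
  | zero => simp
  | succ m ih => rw [show m + 1 + n = m + n + 1 by omega, pw_succ, pw_succ, ih, List.append_assoc]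
lemma pw_succ' (n : ℕ) (x : List α) : pw (n + 1) x = pw n x ++ x := by
  rw [pw_add, pw_one]
lemma pw_mul (m n : ℕ) (x : List α) : pw (m * n) x = pw m (pw n x) := by
  induction m with
  | zero => simp
  | succ m ih => rw [show (m + 1) * n = n + m * n by ring, pw_add, pw_succ, ih]
@[simp] lemma length_pw (n : ℕ) (x : List α) : (pw n x).length = n * x.length := by
  induction n with
  | zero => simp
  | succ n ih => rw [pw_succ, List.length_append, ih]; ring
lemma pw_flatMap {β : Type} (f : α → List β) (n : ℕ) (x : List α) :
    (pw n x).flatMap f = pw n (x.flatMap f) := by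
  induction n with
  | zero => simp
  | succ n ih => rw [pw_succ, pw_succ, List.flatMap_append, ih]
lemma pw_comm_append (n : ℕ) (x : List α) : pw n x ++ x = x ++ pw n x := by
  rw [← pw_succ, pw_succ']

/-- Primitive words. -/
def Prim (w : List α) : Prop := w ≠ [] ∧ ∀ (x : List α) (n : ℕ), w = pw n x → n = 1

/-- Two words with rotation-conjugate powers. -/
def PCong (x y : List α) : Prop := ∃ n m : ℕ, 1 ≤ n ∧ 1 ≤ m ∧ (pw n x) ~r (pw m y)

lemma PCong.symm {x y : List α} (h : PCong x y) : PCong y x := by
  obtain ⟨n, m, hn, hm, h⟩ := h
  exact ⟨m, n, hm, hn, h.symm⟩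

end pw

/-- The special token of a rule that creates an item. -/
def special : Rule S → Option (Tok S)
  | .L Q _ => some Q
  | .R U _ true => some U
  | _ => none

/-- The items of a tower: expansions of the special tokens of its rules. -/
def items : List (Rule S) → List (List (Tok S))
  | [] => []
  | R :: Rs => (special R).toList.map (fun Q => [Q]) ++ (items Rs).map (fun z => z.flatMap kids)

/-- Constants for the run-limit rule. -/
def Cc : ℕ → ℕ
  | 0 => 0
  | j + 1 => (2 * p + 2) * (Cc j + 3)

/-- The lower bound on caps. -/
def KB (H : ℕ) : ℕ := 2 * Cc p H + 1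

/-- The admissibility check of a rule above a tower. -/
def Check (H : ℕ) (pre : List (Rule S)) : Rule S → Prop
  | .T => True
  | .L Q K => Prim (ex pre Q) ∧ (∀ z ∈ items pre, ¬ PCong (ex pre Q) z ∧ z.length < K) ∧ KB p H ≤ K
  | .R _ K false => K = fun _ => 2
  | .R U _ true => ∀ z ∈ items pre, ¬ PCong (ex pre U) z

/-- Admissible towers of height at most `H`. The checks are required above every base level. -/
def Adm (H : ℕ) (spec : List (Rule S)) : Prop :=
  spec.length ≤ H ∧ ∀ base pre R post, spec = base ++ pre ++ R :: post → Check p H pre R

/-! ### Run calculus -/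

@[simp] lemma runR_nil (R : Rule S) (a : List (Tok S)) : runR p R a [] = (a, []) := by
  simp [runR]

lemma runR_cons (R : Rule S) (a : List (Tok S)) (t : Tok S) (l : List (Tok S)) :
    runR p R a (t :: l) =
      ((runR p R (next p R a t).1 l).1, (next p R a t).2.toList ++ (runR p R (next p R a t).1 l).2) := by
  simp [runR]

lemma runR_append (R : Rule S) (a : List (Tok S)) (l₁ l₂ : List (Tok S)) :
    runR p R a (l₁ ++ l₂) =
      ((runR p R (runR p R a l₁).1 l₂).1, (runR p R a l₁).2 ++ (runR p R (runR p R a l₁).1 l₂).2) := by
  induction l₁ generalizing a with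
  | nil => simp
  | cons t l ih =>
    rw [List.cons_append, runR_cons, runR_cons, ih]
    simp

@[simp] lemma runT_nil_spec (s : List (List (Tok S))) (l : List (Tok S)) :
    runT p [] s l = ([], l) := by simp [runT]

lemma runT_cons (R : Rule S) (Rs : List (Rule S)) (s : List (List (Tok S))) (l : List (Tok S)) :
    runT p (R :: Rs) s l =
      ((runR p R (s.headD []) l).1 :: (runT p Rs s.tail (runR p R (s.headD []) l).2).1,
        (runT p Rs s.tail (runR p R (s.headD []) l).2).2) := by
  simp [runT]

lemma length_runT (spec : List (Rule S)) (s : List (List (Tok S))) (l : List (Tok S)) :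
    (runT p spec s l).1.length = spec.length := by
  induction spec generalizing s l with
  | nil => simp
  | cons R Rs ih => simp [runT_cons, ih]

lemma runT_append (spec : List (Rule S)) (s : List (List (Tok S))) (l₁ l₂ : List (Tok S)) :
    runT p spec s (l₁ ++ l₂) =
      ((runT p spec (runT p spec s l₁).1 l₂).1, (runT p spec s l₁).2 ++ (runT p spec (runT p spec s l₁).1 l₂).2) := by
  induction spec generalizing s l₁ l₂ with
  | nil => simp
  | cons R Rs ih =>
    simp only [runT_cons, runR_append, List.headD_cons, List.tail_cons, ih]

lemma runT_nil_word (spec : List (Rule S)) (s : List (List (Tok S))) (h : s.length = spec.length) :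
    runT p spec s [] = (s, []) := by
  induction spec generalizing s with
  | nil =>
    have : s = [] := List.length_eq_zero_iff.1 (by simpa using h)
    simp [this]
  | cons R Rs ih =>
    cases s with
    | nil => simp at h
    | cons a s =>
      have h2 : s.length = Rs.length := by simpa using h
      simp [runT_cons, ih s h2]

@[simp] lemma length_root (spec : List (Rule S)) : (root spec).length = spec.length := by
  simp [root]

@[simp] lemma root_cons (R : Rule S) (Rs : List (Rule S)) : root (R :: Rs) = [] :: root Rs := rfl
@[simp] lemma root_nil : root ([] : List (Rule S)) = [] := rfl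

lemma root_append (A B : List (Rule S)) : root (A ++ B) = root A ++ root B := by simp [root]

lemma runT_split (A B : List (Rule S)) (s : List (List (Tok S))) (l : List (Tok S)) :
    runT p (A ++ B) s l =
      ((runT p A s l).1 ++ (runT p B (s.drop A.length) (runT p A s l).2).1,
        (runT p B (s.drop A.length) (runT p A s l).2).2) := by
  induction A generalizing s l with
  | nil => simp
  | cons R Rs ih =>
    simp only [List.cons_append, runT_cons, ih, List.length_cons]
    cases s <;> simp

lemma ex_append (A B : List (Rule S)) (y : Tok S) :
    ex (A ++ B) y = (ex B y).flatMap (fun t => ex A t) := by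
  induction A with
  | nil =>
    simp [ex]
  | cons R Rs ih =>
    simp only [List.cons_append, ex, ih, List.flatMap_assoc]

lemma ex_snoc (A : List (Rule S)) (R : Rule S) (y : Tok S) :
    ex (A ++ [R]) y = (kids y).flatMap (fun t => ex A t) := by
  rw [ex_append]; simp [ex]

lemma items_snoc (A : List (Rule S)) (R : Rule S) :
    items (A ++ [R]) = items A ++ (special R).toList.map (fun Q => ex A Q) := by
  induction A with
  | nil => simp [items, ex]
  | cons R' Rs ih =>
    simp only [List.cons_append, items, ih, List.append_assoc, List.map_append]
    simp [ex]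

end

end Vale.Agent.Lib.P329.Tw
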