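import Vale.Agent.Lib.P329.Tw.ChainB

/-! Labelled streams and potentials. -/

namespace Vale.Agent.Lib.P329.Tw

open Classical

noncomputable section

variable {S : Type} (p : ℕ)

/-- Labelled stream: each token with the pending list before it. -/
def lab (R : Rule S) : List (Tok S) → List (Tok S) → List (List (Tok S) × Tok S)
  | _, [] => []
  | a, t :: l => (a, t) :: lab R (next p R a t).1 l

/-- The labelled segment of a token. -/
def segL (R : Rule S) (y : Tok S) : List (List (Tok S) × Tok S) := lab p R [] (kids y)

/-- The potential of a rule. -/
def cc : Rule S → List (Tok S) → ZMod p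
  | .T, a => (a.length : ZMod p)
  | .L _ _, _ => 0
  | .R U _ _, a => (actives U a : ZMod p)

/-- The increment of the potential. -/
def gg (R : Rule S) (x : List (Tok S) × Tok S) : ZMod p := cc p R (next p R x.1 x.2).1 - cc p R x.1

/-- The characteristic function of a token. -/
def ind (U : Tok S) : Tok S → ZMod p := fun t => if t = U then 1 else 0

/-- The threshold mark of a flush rule. -/
def Jm (U : Tok S) (K : ℕ → ℕ) : List (Tok S) × Tok S → ZMod p :=
  fun x => if x.2 = U ∧ K (actives U x.1) ≤ trail U x.1 + 1 then (actives U x.1 : ZMod p) else 0

/-- Marks lifted to labelled tokens. -/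
def lift (f : Tok S → ZMod p) : List (Tok S) × Tok S → ZMod p := fun x => f x.2

/-- The last child of a token. -/
def lastKid (y : Tok S) : Tok S := (kids y).getLastD y

lemma lab_snd (R : Rule S) (a l : List (Tok S)) : (lab p R a l).map Prod.snd = l := by
  induction l generalizing a with
  | nil => rfl
  | cons t l ih => simp [lab, ih]

/-- The labelled stream along a concatenation. -/
lemma cma_lab_append (R : Rule S) (a l₁ l₂ : List (Tok S)) :
    lab p R a (l₁ ++ l₂) = lab p R a l₁ ++ lab p R (runR p R a l₁).1 l₂ := by
  induction l₁ generalizing a with
  | nil => simp [lab]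
  | cons t l ih => simp [lab, ih, runR_cons]

/-- A rule which is not a run-limit rule either resets and emits or appends. -/
lemma cma_next_cases (R : Rule S) (hR : ∀ Q K, R ≠ Rule.L Q K) (a : List (Tok S)) (t : Tok S) :
    next p R a t = ([], some (.node (a ++ [t]))) ∨ next p R a t = (a ++ [t], none) := by
  cases R with
  | T =>
    simp only [next]
    split_ifs <;> simp
  | L Q K => exact absurd rfl (hR Q K)
  | R U K b =>
    simp only [next]
    split_ifs <;> simp

/-- The replay invariant behind the grouping of a labelled stream. -/
lemma cma_lab_group_aux (R : Rule S) (hR : ∀ Q K, R ≠ Rule.L Q K) (l a : List (Tok S))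
    (ha : runR p R [] a = (a, [])) :
    lab p R [] a ++ lab p R a l =
      (runR p R a l).2.flatMap (segL p R) ++ lab p R [] (runR p R a l).1 := by
  induction l generalizing a with
  | nil => simp [lab]
  | cons t l ih =>
    have hone : runR p R a [t] = ((next p R a t).1, (next p R a t).2.toList) := by
      simp [runR_cons]
    have hrep : runR p R [] (a ++ [t]) = ((next p R a t).1, (next p R a t).2.toList) := by
      rw [runR_append, ha]
      simp [runR_cons]
    have hlab : lab p R [] (a ++ [t]) = lab p R [] a ++ [(a, t)] := by
      rw [cma_lab_append, ha]
      simp [lab]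
    rw [runR_cons]
    rcases cma_next_cases p R hR a t with h | h
    · have h0 := ih [] rfl
      simp only [lab, List.nil_append] at h0
      simp only [lab, h, List.append_assoc, Option.toList_some, List.singleton_append,
        List.flatMap_cons, segL, kids_node]
      rw [h0, hlab]
      simp [List.append_assoc]
    · have ha' : runR p R [] (a ++ [t]) = (a ++ [t], []) := by
        rw [hrep, h]
        rfl
      have h1 := ih (a ++ [t]) ha'
      simp only [lab, h, Option.toList_none, List.nil_append]
      rw [← h1, hlab]
      simp [List.append_assoc]

/-- Grouping the labelled stream of a non-run-limit rule along its outputs. -/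
theorem lab_group (R : Rule S) (hR : ∀ Q K, R ≠ Rule.L Q K) (l : List (Tok S)) :
    lab p R [] l = (runR p R [] l).2.flatMap (segL p R) ++ lab p R [] (runR p R [] l).1 := by
  have h := cma_lab_group_aux p R hR l [] rfl
  simpa [lab] using h

/-- The potential along a labelled stream. -/
theorem pot_lab (R : Rule S) (a l : List (Tok S)) :
    PotOK (fun x => cc p R x.1) (gg p R) (cc p R a) (lab p R a l) ∧
      potEnd (gg p R) (cc p R a) (lab p R a l) = cc p R (runR p R a l).1 := by
  induction l generalizing a with
  | nil => simp [lab, PotOK, potEnd]
  | cons t l ih =>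
    have h : cc p R a + gg p R (a, t) = cc p R (next p R a t).1 := by
      simp [gg]
    refine ⟨?_, ?_⟩
    · simp only [lab, PotOK, true_and]
      rw [h]
      exact (ih _).1
    · simp only [lab, potEnd]
      rw [h, (ih _).2]
      simp [runR_cons]

/-- The cast of `p - 1`. -/
lemma cma_cast_pred_eq [Fact p.Prime] (n : ℕ) (h : n < p) (h' : p ≤ n + 1) : (n : ZMod p) = -1 := by
  have h2 : n + 1 = p := by omega
  have h3 : ((n + 1 : ℕ) : ZMod p) = 0 := by
    rw [h2]
    exact ZMod.natCast_self p
  push_cast at h3
  exact eq_neg_of_add_eq_zero_left h3

/-- For the tuple rule the increment is one while the pending list is short. -/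
lemma cma_gg_T_aux [Fact p.Prime] (l a : List (Tok S)) (ha : a.length < p) :
    ∀ x ∈ lab p Rule.T a l, gg p Rule.T x = 1 := by
  have hp : 0 < p := (Fact.out : p.Prime).pos
  induction l generalizing a with
  | nil => simp [lab]
  | cons t l ih =>
    intro x hx
    simp only [lab, List.mem_cons] at hx
    rcases hx with rfl | hx
    · by_cases h : p ≤ a.length + 1
      · simp only [gg, next, h, if_true, cc, List.length_nil, Nat.cast_zero, zero_sub]
        rw [cma_cast_pred_eq p _ ha h]
        simp
      · simp only [gg, next, h, if_false, cc, List.length_append, List.length_singleton]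
        push_cast
        ring
    · refine ih _ ?_ x hx
      by_cases h : p ≤ a.length + 1
      · simp [next, h, hp]
      · simp only [next, h, if_false, List.length_append, List.length_singleton]
        omega

/-- For the tuple rule the increment is one along a stream from the empty list. -/
theorem gg_T [Fact p.Prime] (l : List (Tok S)) : ∀ x ∈ lab p Rule.T [] l, gg p Rule.T x = 1 :=
  cma_gg_T_aux p l [] (by simpa using (Fact.out : p.Prime).pos)

lemma cma_actives_nil (U : Tok S) : actives U [] = 0 := rfl

lemma cma_actives_snoc_self (U : Tok S) (a : List (Tok S)) : actives U (a ++ [U]) = actives U a := by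
  simp [actives, List.countP_append]

lemma cma_actives_snoc_ne (U t : Tok S) (a : List (Tok S)) (h : t ≠ U) :
    actives U (a ++ [t]) = actives U a + 1 := by
  simp [actives, List.countP_append, h]

/-- The flush identity while the number of actives is small. -/
lemma cma_flush_identity_aux [Fact p.Prime] (U : Tok S) (K : ℕ → ℕ) (b : Bool) (l a : List (Tok S))
    (ha : actives U a < p) :
    ∀ x ∈ lab p (Rule.R U K b) a l,
      ind p U x.2 = 1 - gg p (Rule.R U K b) x - Jm p U K x := by
  have hp : 0 < p := (Fact.out : p.Prime).pos
  induction l generalizing a with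
  | nil => simp [lab]
  | cons t l ih =>
    intro x hx
    simp only [lab, List.mem_cons] at hx
    rcases hx with rfl | hx
    · by_cases ht : t = U
      · subst ht
        by_cases h : K (actives t a) ≤ trail t a + 1
        · simp [ind, gg, next, h, cc, Jm, cma_actives_nil]
        · simp [ind, gg, next, h, cc, Jm, cma_actives_snoc_self]
      · by_cases h : p ≤ actives U a + 1
        · simp only [ind, gg, next, ht, h, if_true, if_false, cc, Jm, false_and, cma_actives_nil,
            Nat.cast_zero, zero_sub, sub_zero]
          rw [cma_cast_pred_eq p _ ha h]
          simp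
        · simp only [ind, gg, next, ht, h, if_false, cc, Jm, false_and, cma_actives_snoc_ne U t a ht,
            sub_zero]
          push_cast
          ring
    · refine ih _ ?_ x hx
      by_cases ht : t = U
      · subst ht
        by_cases h : K (actives t a) ≤ trail t a + 1
        · simp [next, h, cma_actives_nil, hp]
        · simpa [next, h, cma_actives_snoc_self] using ha
      · by_cases h : p ≤ actives U a + 1
        · simp [next, ht, h, cma_actives_nil, hp]
        · simp only [next, ht, h, if_false, cma_actives_snoc_ne U t a ht]
          omega

/-- For a flush rule: the identity `1_U = 1 - g - J` along a stream from the empty list. -/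
theorem flush_identity [Fact p.Prime] (U : Tok S) (K : ℕ → ℕ) (b : Bool) (l : List (Tok S)) :
    ∀ x ∈ lab p (Rule.R U K b) [] l,
      ind p U x.2 = 1 - gg p (Rule.R U K b) x - Jm p U K x :=
  cma_flush_identity_aux p U K b l [] (by simpa [cma_actives_nil] using (Fact.out : p.Prime).pos)

/-- Marks vanishing at `U` do not see occurrences of `U`. -/
lemma cma_chain_filter_ne (U : Tok S) (m : List (Tok S → ZMod p)) (hm : ∀ f ∈ m, f U = 0)
    (l : List (Tok S)) : chain m (l.filter (fun t => decide (t ≠ U))) = chain m l := by
  induction m generalizing l with
  | nil => simp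
  | cons f fs ihm =>
    have hfs : ∀ g ∈ fs, g U = 0 := fun g hg => hm g (List.mem_cons_of_mem _ hg)
    have hf : f U = 0 := hm f (List.mem_cons_self ..)
    induction l with
    | nil => simp
    | cons t l ihl =>
      by_cases ht : t = U
      · subst ht
        rw [List.filter_cons_of_neg (by simp), chain_cons_cons, hf, zero_mul, zero_add, ihl]
      · rw [List.filter_cons_of_pos (by simpa using ht), chain_cons_cons, chain_cons_cons, ihl,
          ihm hfs]

/-- The last child of a token built from a nonempty snoc. -/
lemma cma_lastKid_node_snoc (a : List (Tok S)) (t : Tok S) : lastKid (.node (a ++ [t])) = t := by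
  simp [lastKid]

/-- The last children of the outputs of a run-limit rule: the input without `U`. -/
lemma cma_map_lastKid_runR (U : Tok S) (K : ℕ) (a l : List (Tok S)) :
    (runR p (Rule.L U K) a l).2.map lastKid = l.filter (fun t => decide (t ≠ U)) := by
  induction l generalizing a with
  | nil => simp
  | cons t l ih =>
    rw [runR_cons]
    by_cases ht : t = U
    · subst ht
      simp only [next, if_true]
      split_ifs <;> simpa using ih _
    · simp only [next, ht, if_false, Option.toList_some, List.singleton_append, List.map_cons]
      simp [ht, cma_lastKid_node_snoc, ih]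

/-- If all marks vanish on `U`, a chain can be read on the output of the run-limit rule. -/
theorem chain_drop (U : Tok S) (K : ℕ) (m : List (Tok S → ZMod p)) (hm : ∀ f ∈ m, f U = 0)
    (a l : List (Tok S)) :
    chain m l = chain (m.map (fun f => f ∘ lastKid)) (runR p (Rule.L U K) a l).2 := by
  rw [chain_map, cma_map_lastKid_runR, cma_chain_filter_ne p U m hm]

/-- The last kid of an output of the run-limit rule is not `U`. -/
theorem lastKid_ne (U : Tok S) (K : ℕ) (a l : List (Tok S)) :
    ∀ y ∈ (runR p (Rule.L U K) a l).2, lastKid y ≠ U := by
  intro y hy
  have h : lastKid y ∈ (runR p (Rule.L U K) a l).2.map lastKid := List.mem_map_of_mem hy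
  rw [cma_map_lastKid_runR] at h
  simpa using (List.mem_filter.1 h).2

end

end Vale.Agent.Lib.P329.Tw
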