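import Vale.Agent.Lib.P329.Tw.CMA

/-! Measurability: closure and labelled chains. -/

namespace Vale.Agent.Lib.P329.Tw

open Classical

noncomputable section

variable {S : Type} (p : ℕ)

section measure

variable [Fact p.Prime]

lemma Meas.add' {f g : List S → ZMod p} (hf : Meas f) (hg : Meas g) : Meas (fun w => f w + g w) :=
  (hf.prod hg).of_factor fun w w' h => by
    have h1 := congrArg Prod.fst h
    have h2 := congrArg Prod.snd h
    simp only at h1 h2
    rw [h1, h2]
lemma Meas.sub' {f g : List S → ZMod p} (hf : Meas f) (hg : Meas g) : Meas (fun w => f w - g w) :=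
  (hf.prod hg).of_factor fun w w' h => by
    have h1 := congrArg Prod.fst h
    have h2 := congrArg Prod.snd h
    simp only at h1 h2
    rw [h1, h2]
lemma Meas.mul' {f g : List S → ZMod p} (hf : Meas f) (hg : Meas g) : Meas (fun w => f w * g w) :=
  (hf.prod hg).of_factor fun w w' h => by
    have h1 := congrArg Prod.fst h
    have h2 := congrArg Prod.snd h
    simp only at h1 h2
    rw [h1, h2]
lemma Meas.const' (c : ZMod p) : Meas (fun _ : List S => c) := by
  intro b
  by_cases h : c = b
  · have e : {w : List S | c = b} = Set.univ := by
      ext w; simp [h]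
    rw [e]
    exact HS.univ
  · have e : {w : List S | c = b} = ∅ := by
      ext w; simp [h]
    rw [e]
    exact HS.empty
lemma Meas.finsum' {ι : Type} (T : Finset ι) {f : ι → List S → ZMod p} (hf : ∀ i ∈ T, Meas (f i)) :
    Meas (fun w => ∑ i ∈ T, f i w) := by
  induction T using Finset.induction_on with
  | empty => simpa using Meas.const' p (0 : ZMod p)
  | insert a T ha ih =>
    have h1 : (fun w => ∑ i ∈ insert a T, f i w) = fun w => f a w + ∑ i ∈ T, f i w := by
      funext w
      rw [Finset.sum_insert ha]
    rw [h1]
    exact Meas.add' p (hf a (Finset.mem_insert_self _ _))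
      (ih fun i hi => hf i (Finset.mem_insert_of_mem hi))

/-- Sums along a list. -/
lemma Meas.listSum' {ι : Type} (L : List ι) {F : ι → List S → ZMod p} (hF : ∀ q ∈ L, Meas (F q)) :
    Meas (fun w => (L.map (fun q => F q w)).sum) := by
  induction L with
  | nil => simpa using Meas.const' p (0 : ZMod p)
  | cons a L ih =>
    have h1 : (fun w => ((a :: L).map (fun q => F q w)).sum)
        = fun w => F a w + (L.map (fun q => F q w)).sum := by
      funext w
      simp
    rw [h1]
    exact Meas.add' p (hF a (List.mem_cons_self ..))
      (ih fun q hq => hF q (List.mem_cons_of_mem _ hq))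

/-- All chains of length at most `r` over the output of a tower are measurable. -/
def MM (spec : List (Rule S)) (r : ℕ) : Prop :=
  ∀ m : List (Tok S → ZMod p), m.length ≤ r → Meas (fun w : List S => chain m (tk p spec w))

variable [Finite S]

/-- Elements of the span of chains are measurable. -/
theorem InSp.meas {Y : Type} {r : ℕ} {ys : List S → List Y}
    (hm : ∀ m : List (Y → ZMod p), m.length ≤ r → Meas (fun w => chain m (ys w)))
    {f : List Y → ZMod p} (hf : InSp r f) : Meas (fun w => f (ys w)) := by
  induction hf with
  | ofChain m hm' => exact hm m hm'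
  | add _ _ ih1 ih2 => exact Meas.add' p ih1 ih2
  | smul c _ ih => exact Meas.mul' p (Meas.const' p c) ih
  | zero => exact Meas.const' p 0

/-- The last pending list of a state. -/
def lastPend (s : List (List (Tok S))) : List (Tok S) := s.getLastD []

lemma lastPend_stt (spec : List (Rule S)) (R : Rule S) (w : List S) :
    lastPend (stt p (spec ++ [R]) w) = (runR p R [] (tk p spec w)).1 := by
  rw [stt_snoc]
  simp [lastPend]

lemma one_le_of_fact : 1 ≤ p := (Fact.out : p.Prime).one_lt.le

/-- The expansion of a labelled chain along the outputs of the rule. -/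
lemma chain_lab_expand (R : Rule S) (hR : ∀ Q K, R ≠ Rule.L Q K) (spec : List (Rule S))
    (m : List (List (Tok S) × Tok S → ZMod p)) (w : List S) :
    chain m (lab p R [] (tk p spec w)) =
      ((splits m).map (fun q => chain q.1 ((tk p (spec ++ [R]) w).flatMap (segL p R)) *
        chain q.2 (lab p R [] (lastPend (stt p (spec ++ [R]) w))))).sum := by
  rw [lab_group p R hR, chain_append, tk_snoc, lastPend_stt]

/-- A function of the last pending list is measurable. -/
lemma meas_fn_pend {H : ℕ} (R : Rule S) (spec : List (Rule S)) (hAdm : Adm p H (spec ++ [R]))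
    {β : Type} (f : List (Tok S) → β) : Meas (fun w : List S => f (runR p R [] (tk p spec w)).1) := by
  have h := meas_fn_stt p (one_le_of_fact p) (spec ++ [R]) hAdm (fun s => f (lastPend s))
  simpa only [lastPend_stt] using h

/-- Labelled chains of length at most `r` are measurable. -/
theorem meas_lab {H : ℕ} (R : Rule S) (hR : ∀ Q K, R ≠ Rule.L Q K) (spec : List (Rule S))
    (hAdm : Adm p H (spec ++ [R])) (r : ℕ) (hM : MM p (spec ++ [R]) r)
    (m : List (List (Tok S) × Tok S → ZMod p)) (hm : m.length ≤ r) :
    Meas (fun w => chain m (lab p R [] (tk p spec w))) := by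
  have hp := one_le_of_fact p
  have h1 : (fun w => chain m (lab p R [] (tk p spec w))) = fun w =>
      ((splits m).map (fun q => chain q.1 ((tk p (spec ++ [R]) w).flatMap (segL p R)) *
        chain q.2 (lab p R [] (lastPend (stt p (spec ++ [R]) w))))).sum :=
    funext fun w => chain_lab_expand p R hR spec m w
  rw [h1]
  refine Meas.listSum' p _ fun q hq => ?_
  have hq' := mem_splits hq
  have hlen : q.1.length ≤ r := by
    have : m.length = q.1.length + q.2.length := by rw [← hq', List.length_append]
    omega
  refine Meas.mul' p ?_ (meas_fn_stt p hp (spec ++ [R]) hAdm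
    (fun s => chain q.2 (lab p R [] (lastPend s))))
  exact InSp.meas p (ys := fun w => tk p (spec ++ [R]) w)
    (fun m' hm' => hM m' (hm'.trans hlen)) (chain_flat_span (segL p R) q.1)

/-- Labelled chains one step above are governed by their top part. -/
theorem meas_lab_top {H : ℕ} (R : Rule S) (hR : ∀ Q K, R ≠ Rule.L Q K) (spec : List (Rule S))
    (hAdm : Adm p H (spec ++ [R])) (r : ℕ) (hM : MM p (spec ++ [R]) r)
    (m : List (List (Tok S) × Tok S → ZMod p)) (hm : m.length = r + 1)
    (htop : Meas (fun w => chain (m.map (FF (segL p R))) (tk p (spec ++ [R]) w))) :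
    Meas (fun w => chain m (lab p R [] (tk p spec w))) := by
  have hp := one_le_of_fact p
  have h1 : (fun w => chain m (lab p R [] (tk p spec w))) = fun w =>
      ((splits m).map (fun q => chain q.1 ((tk p (spec ++ [R]) w).flatMap (segL p R)) *
        chain q.2 (lab p R [] (lastPend (stt p (spec ++ [R]) w))))).sum :=
    funext fun w => chain_lab_expand p R hR spec m w
  rw [h1]
  refine Meas.listSum' p _ fun q hq => ?_
  have hq' := mem_splits hq
  have hlens : m.length = q.1.length + q.2.length := by rw [← hq', List.length_append]
  by_cases hlen : q.1.length ≤ r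
  · refine Meas.mul' p ?_ (meas_fn_stt p hp (spec ++ [R]) hAdm
      (fun s => chain q.2 (lab p R [] (lastPend s))))
    exact InSp.meas p (ys := fun w => tk p (spec ++ [R]) w)
      (fun m' hm' => hM m' (hm'.trans hlen)) (chain_flat_span (segL p R) q.1)
  · have hq2 : q.2 = [] := List.length_eq_zero_iff.1 (by omega)
    have hq1 : q.1 = m := by rw [← hq', hq2, List.append_nil]
    have hne : m ≠ [] := by
      intro h0
      rw [h0] at hm
      simp at hm
    obtain ⟨D, hD, hDeq⟩ := chain_flat_top (segL p R) m hne
    have h2 : (fun w => chain q.1 ((tk p (spec ++ [R]) w).flatMap (segL p R)) *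
        chain q.2 (lab p R [] (lastPend (stt p (spec ++ [R]) w)))) = fun w =>
        chain (m.map (FF (segL p R))) (tk p (spec ++ [R]) w) + D (tk p (spec ++ [R]) w) := by
      funext w
      rw [hq1, hq2, chain_nil_marks, mul_one, hDeq]
    rw [h2]
    refine Meas.add' p htop ?_
    have hD' : InSp r D := by
      have : m.length - 1 = r := by omega
      rwa [this] at hD
    exact InSp.meas p (ys := fun w => tk p (spec ++ [R]) w) (fun m' hm' => hM m' hm') hD'

/-- Chains with the increment as an entry are measurable. -/
theorem meas_pot {H : ℕ} (R : Rule S) (hR : ∀ Q K, R ≠ Rule.L Q K) (spec : List (Rule S))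
    (hAdm : Adm p H (spec ++ [R])) (r : ℕ) (hM : MM p (spec ++ [R]) r)
    (α β : List (List (Tok S) × Tok S → ZMod p)) (hlen : α.length + β.length = r) :
    Meas (fun w => chain (α ++ gg p R :: β) (lab p R [] (tk p spec w))) := by
  have hmeas : ∀ m : List (List (Tok S) × Tok S → ZMod p), m.length ≤ r →
      Meas (fun w => chain m (lab p R [] (tk p spec w))) :=
    fun m hm => meas_lab p R hR spec hAdm r hM m hm
  have hend : Meas (fun w : List S =>
      potEnd (gg p R) (cc p R []) (lab p R [] (tk p spec w))) := by
    have h1 : (fun w : List S => potEnd (gg p R) (cc p R []) (lab p R [] (tk p spec w)))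
        = fun w => cc p R (runR p R [] (tk p spec w)).1 :=
      funext fun w => (pot_lab p R [] (tk p spec w)).2
    rw [h1]
    exact meas_fn_pend p R spec hAdm (fun a => cc p R a)
  rcases List.eq_nil_or_concat α with rfl | ⟨α', a, rfl⟩
  · cases β with
    | nil =>
      have h1 : (fun w => chain ([] ++ gg p R :: []) (lab p R [] (tk p spec w))) = fun w : List S =>
          potEnd (gg p R) (cc p R []) (lab p R [] (tk p spec w)) - cc p R [] := by
        funext w
        exact chain_pot_last _ _ _ _ (pot_lab p R [] (tk p spec w)).1
      rw [h1]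
      exact Meas.sub' p hend (Meas.const' p _)
    | cons b β' =>
      have h1 : (fun w => chain ([] ++ gg p R :: b :: β') (lab p R [] (tk p spec w))) = fun w : List S =>
          chain ((fun x => cc p R x.1 * b x) :: β') (lab p R [] (tk p spec w))
            - cc p R [] * chain (b :: β') (lab p R [] (tk p spec w)) := by
        funext w
        exact chain_pot_head _ _ _ _ _ _ (pot_lab p R [] (tk p spec w)).1
      rw [h1]
      simp only [List.nil_append, List.length_nil, List.length_cons] at hlen
      exact Meas.sub' p (hmeas _ (by simp; omega))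
        (Meas.mul' p (Meas.const' p _) (hmeas _ (by simp; omega)))
  · simp only [List.concat_eq_append, List.length_append, List.length_cons, List.length_nil] at hlen
    cases β with
    | nil =>
      have h1 : (fun w => chain (α' ++ [a] ++ gg p R :: []) (lab p R [] (tk p spec w))) = fun w : List S =>
          potEnd (gg p R) (cc p R []) (lab p R [] (tk p spec w))
              * chain (α' ++ [a]) (lab p R [] (tk p spec w))
            - chain (α' ++ [fun x => (cc p R x.1 + gg p R x) * a x]) (lab p R [] (tk p spec w)) := by
        funext w
        rw [List.append_assoc]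
        exact chain_pot_midlast _ _ _ _ _ _ (pot_lab p R [] (tk p spec w)).1
      simp only [List.concat_eq_append]
      rw [h1]
      simp only [List.length_nil] at hlen
      exact Meas.sub' p (Meas.mul' p hend (hmeas _ (by simp; omega))) (hmeas _ (by simp; omega))
    | cons b β' =>
      have h1 : (fun w => chain (α' ++ [a] ++ gg p R :: b :: β') (lab p R [] (tk p spec w))) = fun w : List S =>
          chain (α' ++ a :: (fun x => cc p R x.1 * b x) :: β') (lab p R [] (tk p spec w))
            - chain (α' ++ (fun x => (cc p R x.1 + gg p R x) * a x) :: b :: β')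
                (lab p R [] (tk p spec w)) := by
        funext w
        rw [List.append_assoc]
        exact chain_pot_mid _ _ _ _ _ _ _ _ (pot_lab p R [] (tk p spec w)).1
      simp only [List.concat_eq_append]
      rw [h1]
      simp only [List.length_cons] at hlen
      exact Meas.sub' p (hmeas _ (by simp; omega)) (hmeas _ (by simp; omega))

/-- Expanding a middle entry over the finite set of tokens. -/
theorem meas_expand_mid (spec : List (Rule S)) (α β : List (Tok S → ZMod p)) (f : Tok S → ZMod p)
    (h : ∀ y ∈ Fset p spec, f y ≠ 0 → Meas (fun w => chain (α ++ ind p y :: β) (tk p spec w))) :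
    Meas (fun w => chain (α ++ f :: β) (tk p spec w)) := by
  have hp := one_le_of_fact p
  have hfin := Fset_finite p spec hp
  set T : Finset (Tok S) := hfin.toFinset with hT
  have hpt : ∀ x ∈ Fset p spec, f x = ∑ y ∈ T, f y * ind p y x := by
    intro x hx
    have hxT : x ∈ T := hfin.mem_toFinset.2 hx
    rw [Finset.sum_eq_single x]
    · simp [ind]
    · intro y _ hyx
      simp [ind, Ne.symm hyx]
    · intro hn
      exact absurd hxT hn
  have hcongr : ∀ w, chain (α ++ f :: β) (tk p spec w) =
      ∑ y ∈ T, f y * chain (α ++ ind p y :: β) (tk p spec w) := by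
    intro w
    rw [← chain_sum_mid T α β (fun y => f y) (fun y => ind p y) (tk p spec w)]
    apply chain_congr
    have hrefl : ∀ γ : List (Tok S → ZMod p),
        List.Forall₂ (fun f g : Tok S → ZMod p => ∀ x ∈ tk p spec w, f x = g x) γ γ := by
      intro γ
      induction γ with
      | nil => exact List.Forall₂.nil
      | cons a γ ih => exact List.Forall₂.cons (fun _ _ => rfl) ih
    have hmid : ∀ γ : List (Tok S → ZMod p),
        List.Forall₂ (fun f g : Tok S → ZMod p => ∀ x ∈ tk p spec w, f x = g x)
          (γ ++ f :: β) (γ ++ (fun x => ∑ y ∈ T, f y * ind p y x) :: β) := by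
      intro γ
      induction γ with
      | nil =>
        exact List.Forall₂.cons (fun x hx => hpt x (mem_Fset_of_tk p spec w x hx)) (hrefl β)
      | cons a γ ih => exact List.Forall₂.cons (fun _ _ => rfl) ih
    exact hmid α
  have h1 : (fun w => chain (α ++ f :: β) (tk p spec w)) = fun w =>
      ∑ y ∈ T, f y * chain (α ++ ind p y :: β) (tk p spec w) := funext hcongr
  rw [h1]
  refine Meas.finsum' p T fun y hy => ?_
  by_cases hfy : f y = 0
  · simp only [hfy, zero_mul]
    exact Meas.const' p 0
  · exact Meas.mul' p (Meas.const' p _) (h y (hfin.mem_toFinset.1 hy) hfy)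

end measure

end

end Vale.Agent.Lib.P329.Tw
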