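import Vale.Agent.Lib.P329.Tw.CMB

/-! Reductions along tuple, flush and run-limit rules. -/

namespace Vale.Agent.Lib.P329.Tw

open Classical

noncomputable section

variable {S : Type} (p : ℕ)

variable [Fact p.Prime] [Finite S]

/-- The marks agree with themselves along any list. -/
lemma forall2_refl_marks {X : Type} (L : List X) (m : List (X → ZMod p)) :
    List.Forall₂ (fun f g => ∀ x ∈ L, f x = g x) m m := by
  induction m with
  | nil => exact List.Forall₂.nil
  | cons f m ih => exact List.Forall₂.cons (fun _ _ => rfl) ih

/-- Replacing a middle entry by one that agrees with it along the list. -/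
lemma chain_mid_congr {X : Type} (α β : List (X → ZMod p)) (f g : X → ZMod p) (l : List X)
    (h : ∀ x ∈ l, f x = g x) : chain (α ++ f :: β) l = chain (α ++ g :: β) l := by
  apply chain_congr
  induction α with
  | nil => exact List.Forall₂.cons h (forall2_refl_marks p l β)
  | cons a α ih => exact List.Forall₂.cons (fun _ _ => rfl) ih

/-- A chain over a stream equals the lifted chain over the labelled stream. -/
lemma chain_lab_lift (R : Rule S) (α β : List (Tok S → ZMod p)) (f : Tok S → ZMod p)
    (l : List (Tok S)) :
    chain (α.map (lift p) ++ lift p f :: β.map (lift p)) (lab p R [] l) = chain (α ++ f :: β) l := by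
  have h := chain_map (p := p) (Prod.snd : List (Tok S) × Tok S → Tok S) (α ++ f :: β) (lab p R [] l)
  rw [lab_snd] at h
  rw [← h]
  simp only [List.map_append, List.map_cons]
  rfl

/-- The complement of the characteristic function of a token. -/
def nonU (U : Tok S) : Tok S → ZMod p := fun x => 1 - ind p U x

lemma nonU_self (U : Tok S) : nonU p U U = 0 := by
  simp [nonU, ind]

lemma nonU_ne (U t : Tok S) (h : t ≠ U) : nonU p U t = 1 := by
  simp [nonU, ind, h]

/-- Number of entries not vanishing at a token. -/
def cntU (U : Tok S) (l : List (Tok S → ZMod p)) : ℕ := l.countP (fun f => decide (f U ≠ 0))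

lemma cntU_append (U : Tok S) (l₁ l₂ : List (Tok S → ZMod p)) :
    cntU p U (l₁ ++ l₂) = cntU p U l₁ + cntU p U l₂ := by
  simp [cntU, List.countP_append]

lemma cntU_cons_zero (U : Tok S) (f : Tok S → ZMod p) (l : List (Tok S → ZMod p)) (h : f U = 0) :
    cntU p U (f :: l) = cntU p U l := by
  simp [cntU, List.countP_cons, h]

lemma cntU_cons_ne (U : Tok S) (f : Tok S → ZMod p) (l : List (Tok S → ZMod p)) (h : f U ≠ 0) :
    cntU p U (f :: l) = cntU p U l + 1 := by
  simp [cntU, List.countP_cons, h]

lemma eq_zero_of_cntU (U : Tok S) (l : List (Tok S → ZMod p)) (h : cntU p U l = 0) :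
    ∀ f ∈ l, f U = 0 := by
  intro f hf
  have := List.countP_eq_zero.1 h f hf
  simpa using this

/-- Chains with an entry `1` are measurable, via the tuple rule. -/
theorem meas_PL {H : ℕ} (spec : List (Rule S)) (hAdm : Adm p H (spec ++ [Rule.T])) (r : ℕ)
    (hM : MM p (spec ++ [Rule.T]) r) (α β : List (Tok S → ZMod p)) (hlen : α.length + β.length = r) :
    Meas (fun w => chain (α ++ (fun _ => 1) :: β) (tk p spec w)) := by
  have hR : ∀ Q K, (Rule.T : Rule S) ≠ Rule.L Q K := by
    intro Q K h
    cases h
  have key := meas_pot p Rule.T hR spec hAdm r hM (α.map (lift p)) (β.map (lift p))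
    (by simpa using hlen)
  have e : (fun w => chain (α ++ (fun _ => 1) :: β) (tk p spec w)) =
      (fun w => chain (α.map (lift p) ++ gg p Rule.T :: β.map (lift p))
        (lab p Rule.T [] (tk p spec w))) := by
    funext w
    rw [← chain_lab_lift p Rule.T]
    apply chain_mid_congr
    intro x hx
    exact (gg_T p (tk p spec w) x hx).symm
  rw [e]
  exact key

/-- Reduction along a flush rule. -/
theorem flush_reduce {H : ℕ} (U : Tok S) (K : ℕ → ℕ) (b : Bool) (spec : List (Rule S))
    (hAdmR : Adm p H (spec ++ [Rule.R U K b])) (hAdmT : Adm p H (spec ++ [Rule.T])) (r : ℕ)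
    (hMR : MM p (spec ++ [Rule.R U K b]) r) (hMT : MM p (spec ++ [Rule.T]) r)
    (α β : List (Tok S → ZMod p)) (hlen : α.length + β.length = r)
    (hmain : Meas (fun w => chain
      ((α.map (lift p)).map (FF (segL p (Rule.R U K b))) ++
        FF (segL p (Rule.R U K b)) (Jm p U K) ::
          (β.map (lift p)).map (FF (segL p (Rule.R U K b))))
      (tk p (spec ++ [Rule.R U K b]) w))) :
    Meas (fun w => chain (α ++ ind p U :: β) (tk p spec w)) := by
  have hR : ∀ Q K', (Rule.R U K b) ≠ Rule.L Q K' := by
    intro Q K' h
    cases h
  have h1 := meas_PL p spec hAdmT r hMT α β hlen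
  have h2 := meas_pot p (Rule.R U K b) hR spec hAdmR r hMR (α.map (lift p)) (β.map (lift p))
    (by simpa using hlen)
  have h3 := meas_lab_top p (Rule.R U K b) hR spec hAdmR r hMR
    (α.map (lift p) ++ Jm p U K :: β.map (lift p))
    (by simp only [List.length_append, List.length_map, List.length_cons]; omega)
    (by simpa only [List.map_append, List.map_cons] using hmain)
  have e : (fun w => chain (α ++ ind p U :: β) (tk p spec w)) =
      (fun w => chain (α ++ (fun _ => 1) :: β) (tk p spec w)
        - chain (α.map (lift p) ++ gg p (Rule.R U K b) :: β.map (lift p))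
            (lab p (Rule.R U K b) [] (tk p spec w))
        - chain (α.map (lift p) ++ Jm p U K :: β.map (lift p))
            (lab p (Rule.R U K b) [] (tk p spec w))) := by
    funext w
    rw [← chain_lab_lift p (Rule.R U K b) α β (ind p U) (tk p spec w),
      ← chain_lab_lift p (Rule.R U K b) α β (fun _ => 1) (tk p spec w)]
    have hid := flush_identity p U K b (tk p spec w)
    generalize lab p (Rule.R U K b) [] (tk p spec w) = L' at hid ⊢
    have hc := chain_mid_congr p (α.map (lift p)) (β.map (lift p)) (lift p (ind p U))
      (fun x => (fun x => lift p (fun _ => (1 : ZMod p)) x + (-1) * gg p (Rule.R U K b) x) x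
        + (-1) * Jm p U K x) L'
      (by
        intro x hx
        have := hid x hx
        simp only [lift]
        rw [this]
        ring)
    have a1 := chain_add_mid (α.map (lift p)) (β.map (lift p))
      (fun x => lift p (fun _ => (1 : ZMod p)) x + (-1) * gg p (Rule.R U K b) x)
      (fun x => (-1) * Jm p U K x) L'
    have a2 := chain_add_mid (α.map (lift p)) (β.map (lift p))
      (lift p (fun _ => (1 : ZMod p))) (fun x => (-1) * gg p (Rule.R U K b) x) L'
    have a3 := chain_smul_mid (α.map (lift p)) (β.map (lift p)) (-1) (gg p (Rule.R U K b)) L'
    have a4 := chain_smul_mid (α.map (lift p)) (β.map (lift p)) (-1) (Jm p U K) L'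
    rw [hc, a1, a2, a3, a4]
    ring
  rw [e]
  exact Meas.sub' p (Meas.sub' p h1 h2) h3

/-- Reduction along a run-limit rule. -/
theorem L_reduce {H : ℕ} (U : Tok S) (K : ℕ) (spec : List (Rule S))
    (hAdmT : Adm p H (spec ++ [Rule.T]))
    (hAdmLT : Adm p H (spec ++ [Rule.L U K] ++ [Rule.T])) (r : ℕ)
    (hMT : MM p (spec ++ [Rule.T]) r) (hMLT : MM p (spec ++ [Rule.L U K] ++ [Rule.T]) r)
    (α β : List (Tok S → ZMod p)) (hlen : α.length + β.length = r) :
    Meas (fun w => chain (α ++ ind p U :: β) (tk p spec w)) := by
  have hPL : ∀ A B : List (Tok S → ZMod p), A.length + B.length = r →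
      Meas (fun w => chain (A ++ (fun _ => 1) :: B) (tk p spec w)) :=
    fun A B h => meas_PL p spec hAdmT r hMT A B h
  -- the replacement step
  have hstep : ∀ (A B : List (Tok S → ZMod p)) (f : Tok S → ZMod p), A.length + B.length = r →
      Meas (fun w => chain (A ++ nonU p U :: B) (tk p spec w)) →
      Meas (fun w => chain (A ++ (fun x => f x - f U * ind p U x) :: B) (tk p spec w)) →
      Meas (fun w => chain (A ++ f :: B) (tk p spec w)) := by
    intro A B f hAB h1 h2
    have e : (fun w => chain (A ++ f :: B) (tk p spec w)) =
        (fun w => f U * (chain (A ++ (fun _ => 1) :: B) (tk p spec w)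
            - chain (A ++ nonU p U :: B) (tk p spec w))
          + chain (A ++ (fun x => f x - f U * ind p U x) :: B) (tk p spec w)) := by
      funext w
      generalize tk p spec w = L'
      have e1 : f = fun x => (fun x => f U * ind p U x) x + (fun x => f x - f U * ind p U x) x := by
        funext x
        ring
      have a1 := chain_add_mid A B (fun x => f U * ind p U x) (fun x => f x - f U * ind p U x) L'
      have a2 := chain_smul_mid A B (f U) (ind p U) L'
      have e2 : ind p U = fun x => (fun _ => (1 : ZMod p)) x + (fun x => (-1) * nonU p U x) x := by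
        funext x
        simp [nonU]
      have a3 := chain_add_mid A B (fun _ => (1 : ZMod p)) (fun x => (-1) * nonU p U x) L'
      have a4 := chain_smul_mid A B (-1) (nonU p U) L'
      have a5 : chain (A ++ ind p U :: B) L' =
          chain (A ++ (fun _ => 1) :: B) L' - chain (A ++ nonU p U :: B) L' := by
        conv_lhs => rw [e2]
        rw [a3, a4]
        ring
      conv_lhs => rw [e1]
      rw [a1, a2, a5]
    rw [e]
    exact Meas.add' p (Meas.mul' p (Meas.const' p _) (Meas.sub' p (hPL A B hAB) h1)) h2
  -- induction on the number of entries not vanishing at `U`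
  suffices hmain : ∀ (n : ℕ) (A B : List (Tok S → ZMod p)), A.length + B.length = r →
      cntU p U (A ++ B) = n → Meas (fun w => chain (A ++ ind p U :: B) (tk p spec w)) from
    hmain _ α β hlen rfl
  intro n
  induction n using Nat.strong_induction_on with
  | _ n ih =>
    intro A B hAB hn
    by_cases hzero : n = 0
    · -- all entries vanish at `U`
      have hall := eq_zero_of_cntU p U (A ++ B) (by rw [hn, hzero])
      have hstr : ∀ a l, ∀ y ∈ (runR p (Rule.L U K) a l).2, lastKid y ≠ U := lastKid_ne p U K
      have e : (fun w => chain (A ++ ind p U :: B) (tk p spec w)) =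
          (fun w => chain (A ++ (fun _ => 1) :: B) (tk p spec w)
            - chain ((A.map (fun f => f ∘ lastKid)) ++ (fun _ => 1) :: (B.map (fun f => f ∘ lastKid)))
                (tk p (spec ++ [Rule.L U K]) w)) := by
        funext w
        have hz : ∀ f ∈ A ++ nonU p U :: B, f U = 0 := by
          intro f hf
          rcases List.mem_append.1 hf with hf | hf
          · exact hall f (List.mem_append.2 (Or.inl hf))
          · rcases List.mem_cons.1 hf with rfl | hf
            · exact nonU_self p U
            · exact hall f (List.mem_append.2 (Or.inr hf))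
        have hd := chain_drop p U K (A ++ nonU p U :: B) hz [] (tk p spec w)
        rw [← tk_snoc] at hd
        have hc := chain_mid_congr p (A.map (fun f => f ∘ lastKid)) (B.map (fun f => f ∘ lastKid))
          (nonU p U ∘ lastKid) (fun _ => 1) (tk p (spec ++ [Rule.L U K]) w)
          (by
            intro y hy
            rw [tk_snoc] at hy
            exact nonU_ne p U _ (hstr _ _ y hy))
        have e2 : ind p U = fun x => (fun _ => (1 : ZMod p)) x + (fun x => (-1) * nonU p U x) x := by
          funext x
          simp [nonU]
        have a3 := chain_add_mid A B (fun _ => (1 : ZMod p)) (fun x => (-1) * nonU p U x) (tk p spec w)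
        have a4 := chain_smul_mid A B (-1) (nonU p U) (tk p spec w)
        conv_lhs => rw [e2]
        rw [a3, a4, hd]
        simp only [List.map_append, List.map_cons]
        rw [hc]
        ring
      rw [e]
      exact Meas.sub' p (hPL A B hAB)
        (meas_PL p (spec ++ [Rule.L U K]) hAdmLT r hMLT _ _ (by simpa using hAB))
    · -- some entry does not vanish at `U`
      obtain ⟨f, hf, hfU⟩ : ∃ f ∈ A ++ B, f U ≠ 0 := by
        by_contra hcon
        push Not at hcon
        apply hzero
        rw [← hn]
        exact List.countP_eq_zero.2 (fun f hf => by simpa using hcon f hf)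
      rcases List.mem_append.1 hf with hfA | hfB
      · obtain ⟨A1, A2, rfl⟩ := List.mem_iff_append.1 hfA
        have hlen' : A1.length + (A2 ++ ind p U :: B).length = r := by
          simp only [List.length_append, List.length_cons] at hAB ⊢
          omega
        have hcnt : ∀ g : Tok S → ZMod p, g U = 0 → cntU p U ((A1 ++ g :: A2) ++ B) < n := by
          intro g hg
          rw [← hn]
          simp only [cntU_append, cntU_cons_zero p U g _ hg, cntU_cons_ne p U f _ hfU]
          omega
        have e := hstep A1 (A2 ++ ind p U :: B) f hlen'
          (by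
            have := ih _ (hcnt (nonU p U) (nonU_self p U)) (A1 ++ nonU p U :: A2) B
              (by simp only [List.length_append, List.length_cons] at hAB ⊢; omega) rfl
            simpa only [List.append_assoc, List.cons_append] using this)
          (by
            have := ih _ (hcnt (fun x => f x - f U * ind p U x) (by simp [ind]))
              (A1 ++ (fun x => f x - f U * ind p U x) :: A2) B
              (by simp only [List.length_append, List.length_cons] at hAB ⊢; omega) rfl
            simpa only [List.append_assoc, List.cons_append] using this)
        simpa only [List.append_assoc, List.cons_append] using e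
      · obtain ⟨B1, B2, rfl⟩ := List.mem_iff_append.1 hfB
        have hlen' : (A ++ ind p U :: B1).length + B2.length = r := by
          simp only [List.length_append, List.length_cons] at hAB ⊢
          omega
        have hcnt : ∀ g : Tok S → ZMod p, g U = 0 → cntU p U (A ++ (B1 ++ g :: B2)) < n := by
          intro g hg
          rw [← hn]
          simp only [cntU_append, cntU_cons_zero p U g _ hg, cntU_cons_ne p U f _ hfU]
          omega
        have e := hstep (A ++ ind p U :: B1) B2 f hlen'
          (by
            have := ih _ (hcnt (nonU p U) (nonU_self p U)) A (B1 ++ nonU p U :: B2)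
              (by simp only [List.length_append, List.length_cons] at hAB ⊢; omega) rfl
            simpa only [List.append_assoc, List.cons_append] using this)
          (by
            have := ih _ (hcnt (fun x => f x - f U * ind p U x) (by simp [ind]))
              A (B1 ++ (fun x => f x - f U * ind p U x) :: B2)
              (by simp only [List.length_append, List.length_cons] at hAB ⊢; omega) rfl
            simpa only [List.append_assoc, List.cons_append] using this)
        simpa only [List.append_assoc, List.cons_append] using e

end

end Vale.Agent.Lib.P329.Tw
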