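import Vale.Agent.Lib.P329.Tw.FiniteB

/-! Chain sums over lists: algebraic identities. -/

namespace Vale.Agent.Lib.P329.Tw

open Classical

noncomputable section

variable {p : ℕ} {X Y : Type}

/-- Chain sums `Σ_{i₁<...<iᵣ} f₁(l_{i₁}) ... fᵣ(l_{iᵣ})`. -/
def chain : List (X → ZMod p) → List X → ZMod p
  | [], _ => 1
  | _ :: _, [] => 0
  | f :: fs, t :: l => f t * chain fs l + chain (f :: fs) l

@[simp] lemma chain_nil_marks (l : List X) : chain ([] : List (X → ZMod p)) l = 1 := by
  cases l <;> rfl
@[simp] lemma chain_cons_nil (f : X → ZMod p) (fs : List (X → ZMod p)) : chain (f :: fs) [] = 0 := rfl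
lemma chain_cons_cons (f : X → ZMod p) (fs : List (X → ZMod p)) (t : X) (l : List X) :
    chain (f :: fs) (t :: l) = f t * chain fs l + chain (f :: fs) l := rfl

/-- Chains only depend on the values of the marks on the list. -/
theorem chain_congr {m m' : List (X → ZMod p)} {l : List X}
    (h : List.Forall₂ (fun f g => ∀ x ∈ l, f x = g x) m m') : chain m l = chain m' l := by
  induction l generalizing m m' with
  | nil =>
    cases h with
    | nil => rfl
    | cons _ _ => rfl
  | cons t l ih =>
    cases h with
    | nil => rfl
    | @cons f g fs gs hfg hrest =>
      have hr : List.Forall₂ (fun f g => ∀ x ∈ l, f x = g x) fs gs :=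
        hrest.imp (fun a b hab x hx => hab x (List.mem_cons_of_mem _ hx))
      have h1 : chain fs l = chain gs l := ih hr
      have h2 : chain (f :: fs) l = chain (g :: gs) l :=
        ih (List.Forall₂.cons (fun x hx => hfg x (List.mem_cons_of_mem _ hx)) hr)
      rw [chain_cons_cons, chain_cons_cons, h1, h2, hfg t (by simp)]

/-- Chains along a map of lists. -/
theorem chain_map (π : X → Y) (m : List (Y → ZMod p)) (l : List X) :
    chain (m.map (fun f => f ∘ π)) l = chain m (l.map π) := by
  induction l generalizing m with
  | nil => cases m <;> rfl
  | cons t l ih =>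
    cases m with
    | nil => simp
    | cons f fs =>
      have h1 := ih fs
      have h2 := ih (f :: fs)
      simp only [List.map_cons] at h2 ⊢
      rw [chain_cons_cons, chain_cons_cons, h1, h2]
      rfl

/-- Additivity in a middle entry. -/
theorem chain_add_mid (α β : List (X → ZMod p)) (f g : X → ZMod p) (l : List X) :
    chain (α ++ (fun x => f x + g x) :: β) l = chain (α ++ f :: β) l + chain (α ++ g :: β) l := by
  induction l generalizing α with
  | nil => cases α <;> simp
  | cons t l ih =>
    cases α with
    | nil =>
      have h := ih []
      simp only [List.nil_append] at h ⊢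
      rw [chain_cons_cons, chain_cons_cons, chain_cons_cons, h]
      ring
    | cons a α' =>
      have h1 := ih α'
      have h2 := ih (a :: α')
      simp only [List.cons_append] at h2 ⊢
      rw [chain_cons_cons, chain_cons_cons, chain_cons_cons, h1, h2]
      ring

/-- Homogeneity in a middle entry. -/
theorem chain_smul_mid (α β : List (X → ZMod p)) (c : ZMod p) (f : X → ZMod p) (l : List X) :
    chain (α ++ (fun x => c * f x) :: β) l = c * chain (α ++ f :: β) l := by
  induction l generalizing α with
  | nil => cases α <;> simp
  | cons t l ih =>
    cases α with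
    | nil =>
      have h := ih []
      simp only [List.nil_append] at h ⊢
      rw [chain_cons_cons, chain_cons_cons, h]
      ring
    | cons a α' =>
      have h1 := ih α'
      have h2 := ih (a :: α')
      simp only [List.cons_append] at h2 ⊢
      rw [chain_cons_cons, chain_cons_cons, h1, h2]
      ring

/-- A finite sum in a middle entry. -/
theorem chain_sum_mid {ι : Type} (T : Finset ι) (α β : List (X → ZMod p)) (c : ι → ZMod p)
    (f : ι → X → ZMod p) (l : List X) :
    chain (α ++ (fun x => ∑ i ∈ T, c i * f i x) :: β) l = ∑ i ∈ T, c i * chain (α ++ f i :: β) l := by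
  induction T using Finset.induction_on with
  | empty =>
    have h := chain_smul_mid α β (0 : ZMod p) (fun _ : X => (0 : ZMod p)) l
    simp only [mul_zero, zero_mul] at h
    simpa using h
  | insert i T hi ih =>
    have h := chain_add_mid α β (fun x => c i * f i x) (fun x => ∑ j ∈ T, c j * f j x) l
    have h2 := chain_smul_mid α β (c i) (f i) l
    simp only [Finset.sum_insert hi]
    rw [h, h2, ih]

/-- All splittings of a list of marks. -/
def splits : List (X → ZMod p) → List (List (X → ZMod p) × List (X → ZMod p))
  | [] => [([], [])]
  | f :: fs => ([], f :: fs) :: (splits fs).map (fun q => (f :: q.1, q.2))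

/-- Deconcatenation. -/
theorem chain_append (m : List (X → ZMod p)) (l₁ l₂ : List X) :
    chain m (l₁ ++ l₂) = ((splits m).map (fun q => chain q.1 l₁ * chain q.2 l₂)).sum := by
  induction l₁ generalizing m with
  | nil =>
    induction m with
    | nil => simp [splits]
    | cons f fs _ =>
      have hz : ∀ L : List (List (X → ZMod p) × List (X → ZMod p)),
          (L.map (fun q => chain (f :: q.1) ([] : List X) * chain q.2 l₂)).sum = 0 := by
        intro L
        simp
      have := hz (splits fs)
      simp only [splits, List.map_cons, List.sum_cons, List.map_map, List.nil_append, Function.comp_def]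
      rw [this]
      simp
  | cons t l ih =>
    cases m with
    | nil => simp [splits]
    | cons f fs =>
      have h1 := ih fs
      have h2 := ih (f :: fs)
      simp only [splits, List.map_cons, List.sum_cons, List.map_map, Function.comp_def] at h2
      simp only [List.cons_append, splits, List.map_cons, List.sum_cons, List.map_map, Function.comp_def]
      rw [chain_cons_cons, h1, h2]
      have hs : ∀ L : List (List (X → ZMod p) × List (X → ZMod p)),
          (L.map (fun q => chain (f :: q.1) (t :: l) * chain q.2 l₂)).sum =
            f t * (L.map (fun q => chain q.1 l * chain q.2 l₂)).sum +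
              (L.map (fun q => chain (f :: q.1) l * chain q.2 l₂)).sum := by
        intro L
        induction L with
        | nil => simp
        | cons a L ih2 =>
          simp only [List.map_cons, List.sum_cons]
          rw [ih2, chain_cons_cons]
          ring
      rw [hs]
      simp only [chain_nil_marks]
      ring

theorem mem_splits {m : List (X → ZMod p)} {q : List (X → ZMod p) × List (X → ZMod p)}
    (h : q ∈ splits m) : q.1 ++ q.2 = m := by
  induction m generalizing q with
  | nil => simp [splits] at h; simp [h]
  | cons f fs ih =>
    simp only [splits, List.mem_cons, List.mem_map] at h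
    rcases h with h | ⟨r, hr, h⟩
    · simp [h]
    · subst h
      simp [ih hr]

/-! ### Potential identities -/

/-- `c` is a potential of `g` along a list, from the initial value `c0`. -/
def PotOK (c g : X → ZMod p) : ZMod p → List X → Prop
  | _, [] => True
  | c0, x :: l => c x = c0 ∧ PotOK c g (c0 + g x) l

/-- Final value of the potential. -/
def potEnd (g : X → ZMod p) : ZMod p → List X → ZMod p
  | c0, [] => c0
  | c0, x :: l => potEnd g (c0 + g x) l

/-- The entry `g` first: head identity. -/
theorem chain_pot_head (c g b : X → ZMod p) (β : List (X → ZMod p)) (c0 : ZMod p) (l : List X)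
    (h : PotOK c g c0 l) :
    chain (g :: b :: β) l = chain ((fun x => c x * b x) :: β) l - c0 * chain (b :: β) l := by
  induction l generalizing c0 with
  | nil => simp
  | cons x l ih =>
    obtain ⟨h1, h2⟩ := h
    rw [chain_cons_cons, chain_cons_cons, chain_cons_cons, ih _ h2, h1]
    ring

/-- The entry `g` alone. -/
theorem chain_pot_last (c g : X → ZMod p) (c0 : ZMod p) (l : List X) (h : PotOK c g c0 l) :
    chain [g] l = potEnd g c0 l - c0 := by
  induction l generalizing c0 with
  | nil => simp [potEnd]
  | cons x l ih =>
    obtain ⟨_, h2⟩ := h
    rw [chain_cons_cons, ih _ h2]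
    simp only [potEnd, chain_nil_marks]
    ring

/-- The entry `g` in the middle. -/
theorem chain_pot_mid (c g a b : X → ZMod p) (α β : List (X → ZMod p)) (c0 : ZMod p) (l : List X)
    (h : PotOK c g c0 l) :
    chain (α ++ a :: g :: b :: β) l =
      chain (α ++ a :: (fun x => c x * b x) :: β) l
        - chain (α ++ (fun x => (c x + g x) * a x) :: b :: β) l := by
  induction l generalizing α c0 with
  | nil => cases α <;> simp
  | cons x l ih =>
    obtain ⟨h1, h2⟩ := h
    cases α with
    | nil =>
      have h3 := ih [] _ h2
      simp only [List.nil_append] at h3 ⊢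
      have h4 := chain_pot_head c g b β _ l h2
      rw [chain_cons_cons, chain_cons_cons, chain_cons_cons, h3, h4, h1]
      ring
    | cons d α' =>
      have h3 := ih α' _ h2
      have h4 := ih (d :: α') _ h2
      simp only [List.cons_append] at h4 ⊢
      rw [chain_cons_cons, chain_cons_cons, chain_cons_cons, h3, h4]
      ring

/-- The entry `g` last. -/
theorem chain_pot_midlast (c g a : X → ZMod p) (α : List (X → ZMod p)) (c0 : ZMod p) (l : List X)
    (h : PotOK c g c0 l) :
    chain (α ++ [a, g]) l =
      potEnd g c0 l * chain (α ++ [a]) l - chain (α ++ [fun x => (c x + g x) * a x]) l := by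
  induction l generalizing α c0 with
  | nil => cases α <;> simp
  | cons x l ih =>
    obtain ⟨h1, h2⟩ := h
    cases α with
    | nil =>
      have h3 := ih [] _ h2
      simp only [List.nil_append] at h3 ⊢
      have h4 := chain_pot_last c g _ l h2
      rw [chain_cons_cons, chain_cons_cons, chain_cons_cons, h3, h4, h1]
      simp only [potEnd, chain_nil_marks]
      ring
    | cons d α' =>
      have h3 := ih α' _ h2
      have h4 := ih (d :: α') _ h2
      simp only [List.cons_append] at h4 ⊢
      rw [chain_cons_cons, chain_cons_cons, chain_cons_cons, h3, h4]
      simp only [potEnd]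
      ring

end

end Vale.Agent.Lib.P329.Tw
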