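import Vale.Agent.Lib.P329.Tw.ChainA

/-! Chain sums over flattened lists. -/

namespace Vale.Agent.Lib.P329.Tw

open Classical

noncomputable section

variable {p : ℕ} {X Y : Type}

/-! ### Grouping -/

/-- The operator taking a function of the suffix to the sum over positions. -/
def phi (h : Y → ZMod p) (ψ : List Y → ZMod p) : List Y → ZMod p
  | [] => 0
  | y :: ys => h y * ψ ys + phi h ψ ys

/-- Span of chains of length at most `r`. -/
inductive InSp (r : ℕ) : (List Y → ZMod p) → Prop
  | ofChain (m : List (Y → ZMod p)) (hm : m.length ≤ r) : InSp r (fun ys => chain m ys)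
  | add {f g : List Y → ZMod p} : InSp r f → InSp r g → InSp r (fun ys => f ys + g ys)
  | smul (c : ZMod p) {f : List Y → ZMod p} : InSp r f → InSp r (fun ys => c * f ys)
  | zero : InSp r (fun _ => 0)

theorem InSp.mono {r r' : ℕ} (h : r ≤ r') {f : List Y → ZMod p} (hf : InSp r f) : InSp r' f := by
  induction hf with
  | ofChain m hm => exact InSp.ofChain m (hm.trans h)
  | add _ _ ih1 ih2 => exact InSp.add ih1 ih2
  | smul c _ ih => exact InSp.smul c ih
  | zero => exact InSp.zero

private lemma phi_chain (h : Y → ZMod p) (m : List (Y → ZMod p)) (ys : List Y) :
    phi h (fun ys => chain m ys) ys = chain (h :: m) ys := by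
  induction ys with
  | nil => rfl
  | cons y ys ih => simp only [phi, chain_cons_cons, ih]

private lemma phi_add (h : Y → ZMod p) (f g : List Y → ZMod p) (ys : List Y) :
    phi h (fun ys => f ys + g ys) ys = phi h f ys + phi h g ys := by
  induction ys with
  | nil => simp [phi]
  | cons y ys ih =>
    simp only [phi, ih]
    ring

private lemma phi_smul (h : Y → ZMod p) (c : ZMod p) (f : List Y → ZMod p) (ys : List Y) :
    phi h (fun ys => c * f ys) ys = c * phi h f ys := by
  induction ys with
  | nil => simp [phi]
  | cons y ys ih =>
    simp only [phi, ih]
    ring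

private lemma phi_zero (h : Y → ZMod p) (ys : List Y) :
    phi h (fun _ => (0 : ZMod p)) ys = 0 := by
  induction ys with
  | nil => rfl
  | cons y ys ih => simp [phi, ih]

private lemma inSp_phi_aux {r : ℕ} (h : Y → ZMod p) {ψ : List Y → ZMod p} (hψ : InSp r ψ) :
    InSp (r + 1) (phi h ψ) := by
  induction hψ with
  | ofChain m hm =>
    have e : phi h (fun ys => chain m ys) = fun ys => chain (h :: m) ys :=
      funext (phi_chain h m)
    rw [e]
    exact InSp.ofChain _ (by simpa using hm)
  | @add f g _ _ ihf ihg =>
    have e : phi h (fun ys => f ys + g ys) = fun ys => phi h f ys + phi h g ys :=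
      funext (phi_add h f g)
    rw [e]
    exact InSp.add ihf ihg
  | @smul c f _ ihf =>
    have e : phi h (fun ys => c * f ys) = fun ys => c * phi h f ys :=
      funext (phi_smul h c f)
    rw [e]
    exact InSp.smul c ihf
  | zero =>
    have e : phi h (fun _ => (0 : ZMod p)) = fun _ => 0 := funext (phi_zero h)
    rw [e]
    exact InSp.zero

/-- `phi` maps the span into the next span. -/
theorem InSp.phi {r : ℕ} (h : Y → ZMod p) {ψ : List Y → ZMod p} (hψ : InSp r ψ) :
    InSp (r + 1) (Vale.Agent.Lib.P329.Tw.phi h ψ) :=
  inSp_phi_aux h hψ

private lemma inSp_sum {r : ℕ} {ι : Type} (l : List ι) (G : ι → List Y → ZMod p)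
    (h : ∀ q ∈ l, InSp r (G q)) : InSp r (fun ys => (l.map (fun q => G q ys)).sum) := by
  induction l with
  | nil => exact InSp.zero
  | cons a l ih =>
    simp only [List.map_cons, List.sum_cons]
    exact InSp.add (h a (by simp)) (ih (fun q hq => h q (by simp [hq])))

/-- The grouping identity. -/
private lemma chain_flat_cons (seg : Y → List X) (f : X → ZMod p) (fs : List (X → ZMod p))
    (ys : List Y) :
    chain (f :: fs) (ys.flatMap seg) =
      ((splits fs).map (fun q => Vale.Agent.Lib.P329.Tw.phi (fun y => chain (f :: q.1) (seg y))
        (fun ys' => chain q.2 (ys'.flatMap seg)) ys)).sum := by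
  induction ys with
  | nil =>
    simp only [List.flatMap_nil, chain_cons_nil, phi]
    simp
  | cons y ys ih =>
    rw [List.flatMap_cons, chain_append]
    simp only [splits, List.map_cons, List.sum_cons, List.map_map, chain_nil_marks, one_mul]
    rw [ih]
    simp only [phi, List.sum_map_add, Function.comp_def]
    ring

/-- Chains over a flattened list lie in the span of chains of the same length. -/
theorem chain_flat_span (seg : Y → List X) (m : List (X → ZMod p)) :
    InSp m.length (fun ys : List Y => chain m (ys.flatMap seg)) := by
  induction hn : m.length using Nat.strong_induction_on generalizing m with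
  | _ n ih =>
    cases m with
    | nil =>
      have e : (fun ys : List Y => chain ([] : List (X → ZMod p)) (ys.flatMap seg))
          = fun ys => chain ([] : List (Y → ZMod p)) ys := by
        funext ys
        simp
      rw [e]
      exact InSp.ofChain [] (by simp)
    | cons f fs =>
      have e := funext (chain_flat_cons (p := p) seg f fs)
      rw [e]
      apply inSp_sum
      intro q hq
      have hq2 : q.1 ++ q.2 = fs := mem_splits hq
      have hlen : q.2.length ≤ fs.length := by
        rw [← hq2, List.length_append]
        omega
      have hfs : (f :: fs).length = fs.length + 1 := rfl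
      have h1 := ih q.2.length (by omega) q.2 rfl
      exact (InSp.phi _ h1).mono (by omega)

/-- The single-block marks. -/
def FF (seg : Y → List X) (f : X → ZMod p) : Y → ZMod p := fun y => ((seg y).map f).sum

private lemma chain_single (f : X → ZMod p) (l : List X) : chain [f] l = (l.map f).sum := by
  induction l with
  | nil => simp
  | cons t l ih =>
    rw [chain_cons_cons, ih]
    simp

/-- Top part of chains over a flattened list. -/
theorem chain_flat_top (seg : Y → List X) (m : List (X → ZMod p)) (hm : m ≠ []) :
    ∃ D : List Y → ZMod p, InSp (m.length - 1) D ∧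
      ∀ ys : List Y, chain m (ys.flatMap seg) = chain (m.map (FF seg)) ys + D ys := by
  induction m with
  | nil => exact absurd rfl hm
  | cons f fs ih =>
    have hFF : (fun y => chain [f] (seg y)) = FF seg f := by
      funext y
      rw [chain_single]
      rfl
    cases fs with
    | nil =>
      refine ⟨fun _ => 0, InSp.zero, fun ys => ?_⟩
      rw [chain_flat_cons]
      simp only [splits, List.map_cons, List.map_nil, List.sum_cons, List.sum_nil, add_zero]
      rw [hFF]
      have e : (fun ys' : List Y => chain ([] : List (X → ZMod p)) (ys'.flatMap seg))
          = fun ys' => chain ([] : List (Y → ZMod p)) ys' := by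
        funext ys'
        simp
      rw [e, phi_chain]
    | cons g gs =>
      obtain ⟨D', hD', hE⟩ := ih (by simp)
      refine ⟨fun ys => Vale.Agent.Lib.P329.Tw.phi (FF seg f) D' ys
        + ((splits gs).map (fun q => Vale.Agent.Lib.P329.Tw.phi
            (fun y => chain (f :: g :: q.1) (seg y))
            (fun ys' => chain q.2 (ys'.flatMap seg)) ys)).sum, ?_, fun ys => ?_⟩
      · apply InSp.add
        · have h1 := InSp.phi (FF seg f) hD'
          exact h1.mono (by simp)
        · apply inSp_sum
          intro q hq
          have hq2 : q.1 ++ q.2 = gs := mem_splits hq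
          have hlen : q.2.length ≤ gs.length := by
            rw [← hq2, List.length_append]
            omega
          have h1 := InSp.phi (fun y => chain (f :: g :: q.1) (seg y))
            (chain_flat_span (p := p) seg q.2)
          exact h1.mono (by simp; omega)
      · rw [chain_flat_cons]
        simp only [splits, List.map_cons, List.sum_cons, List.map_map, Function.comp_def]
        rw [hFF]
        have e : (fun ys' : List Y => chain (g :: gs) (ys'.flatMap seg))
            = fun ys' => chain (((g :: gs).map (FF seg))) ys' + D' ys' := funext hE
        rw [e, phi_add, phi_chain]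
        simp only [List.map_cons]
        ring

end

end Vale.Agent.Lib.P329.Tw
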