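import Vale.Agent.Lib.P329.Tw.SafeB
import Vale.Agent.Lib.P329.Automaton

/-! Output and state on letter words; finiteness of reachable states. -/

namespace Vale.Agent.Lib.P329.Tw

open Classical

noncomputable section

variable {S : Type} (p : ℕ)

/-- Top output of a tower on a word over the letters. -/
def tk (spec : List (Rule S)) (w : List S) : List (Tok S) :=
  (runT p spec (root spec) (w.map Tok.leaf)).2

/-- State of a tower on a word over the letters. -/
def stt (spec : List (Rule S)) (w : List S) : List (List (Tok S)) :=
  (runT p spec (root spec) (w.map Tok.leaf)).1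

/-- Tokens a tower can emit. -/
def Fset (spec : List (Rule S)) : Set (Tok S) := {t | ∃ w : List S, Seg p spec (w.map Tok.leaf) t}

/-- Reachable states. -/
def Reach (spec : List (Rule S)) : Set (List (List (Tok S))) := {s | ∃ w : List S, s = stt p spec w}

lemma tk_nil (w : List S) : tk p [] w = w.map Tok.leaf := by simp [tk]

/-- The run of a tower with one more rule, from the root. -/
lemma runT_snoc_root (spec : List (Rule S)) (R : Rule S) (l : List (Tok S)) :
    runT p (spec ++ [R]) (root (spec ++ [R])) l =
      ((runT p spec (root spec) l).1 ++ [(runR p R [] (runT p spec (root spec) l).2).1],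
        (runR p R [] (runT p spec (root spec) l).2).2) := by
  rw [runT_split, root_append]
  have hlen : (root spec).length = spec.length := length_root spec
  rw [runT_append_state p spec (root spec) (root [R]) l hlen]
  have hdrop : (root spec ++ root [R]).drop spec.length = root [R] := by
    rw [← hlen]
    simp
  rw [hdrop]
  simp [runT_cons]

/-- Output of a tower with one more rule. -/
theorem tk_snoc (spec : List (Rule S)) (R : Rule S) (w : List S) :
    tk p (spec ++ [R]) w = (runR p R [] (tk p spec w)).2 := by
  simp only [tk, runT_snoc_root]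

/-- State of a tower with one more rule. -/
theorem stt_snoc (spec : List (Rule S)) (R : Rule S) (w : List S) :
    stt p (spec ++ [R]) w = stt p spec w ++ [(runR p R [] (tk p spec w)).1] := by
  simp only [tk, stt, runT_snoc_root]

lemma exists_map_leaf (u : List (Tok S)) (h : ∀ c ∈ u, ∃ a, c = Tok.leaf a) :
    ∃ w : List S, u = w.map Tok.leaf := by
  induction u with
  | nil => exact ⟨[], rfl⟩
  | cons c u ih =>
    obtain ⟨a, rfl⟩ := h c (by simp)
    obtain ⟨w, rfl⟩ := ih (fun x hx => h x (by simp [hx]))
    exact ⟨a :: w, rfl⟩

/-- Every token output on a word is in `Fset`. -/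
theorem mem_Fset_of_tk (spec : List (Rule S)) (w : List S) (t : Tok S) (h : t ∈ tk p spec w) :
    t ∈ Fset p spec := by
  obtain ⟨us, r, hW, hF, -⟩ := segments_gen p spec (w.map Tok.leaf) _ rfl
  have hex : ∀ (us : List (List (Tok S))) (E : List (Tok S)),
      List.Forall₂ (fun u t => Seg p spec u t) us E → t ∈ E → ∃ u ∈ us, Seg p spec u t := by
    intro us E hF
    induction hF with
    | nil => simp
    | @cons u c us E hu _ ih =>
      intro hm
      rcases List.mem_cons.1 hm with rfl | hm
      · exact ⟨u, by simp, hu⟩
      · obtain ⟨u', hu', hs⟩ := ih hm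
        exact ⟨u', by simp [hu'], hs⟩
  obtain ⟨u, hu, hs⟩ := hex us _ hF h
  have hleaf : ∀ c ∈ u, ∃ a, c = Tok.leaf a := by
    intro c hc
    have hc' : c ∈ w.map Tok.leaf := by
      rw [hW]
      exact List.mem_append_left _ (List.mem_flatten.2 ⟨u, hu, hc⟩)
    obtain ⟨a, _, rfl⟩ := List.mem_map.1 hc'
    exact ⟨a, rfl⟩
  obtain ⟨w', rfl⟩ := exists_map_leaf u hleaf
  exact ⟨w', hs⟩

/-! ### Bounds on pending lists -/

/-- Lists of bounded length with entries in a finite set. -/
lemma finite_lists {α : Type} {F : Set α} (hF : F.Finite) (n : ℕ) :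
    {l : List α | l.length ≤ n ∧ ∀ x ∈ l, x ∈ F}.Finite := by
  induction n with
  | zero =>
    refine (Set.finite_singleton ([] : List α)).subset ?_
    rintro l ⟨h, -⟩
    simpa using h
  | succ n ih =>
    refine ((Set.finite_singleton ([] : List α)).union
      (Set.Finite.image2 (fun (x : α) (l : List α) => x :: l) hF ih)).subset ?_
    rintro l ⟨h1, h2⟩
    cases l with
    | nil => exact Or.inl rfl
    | cons x l =>
      refine Or.inr ⟨x, h2 x (by simp), l, ⟨by simpa using h1, fun y hy => h2 y (by simp [hy])⟩, rfl⟩

lemma actives_append_self (U : Tok S) (a : List (Tok S)) :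
    actives U (a ++ [U]) = actives U a := by
  simp [actives]

lemma actives_append_ne (U t : Tok S) (a : List (Tok S)) (h : t ≠ U) :
    actives U (a ++ [t]) = actives U a + 1 := by
  simp [actives, h]

lemma trail_append_self (U : Tok S) (a : List (Tok S)) :
    trail U (a ++ [U]) = trail U a + 1 := by
  simp [trail]

lemma trail_append_ne (U t : Tok S) (a : List (Tok S)) (h : t ≠ U) :
    trail U (a ++ [t]) = 0 := by
  simp [trail, h]

/-- Weight of the active slots. -/
def gSlot (K : ℕ → ℕ) : ℕ → ℕ
  | 0 => 0
  | n + 1 => gSlot K n + 1 + K n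

lemma gSlot_mono (K : ℕ → ℕ) {m n : ℕ} (h : m ≤ n) : gSlot K m ≤ gSlot K n := by
  induction h with
  | refl => exact le_rfl
  | step _ ih =>
    refine ih.trans ?_
    simp only [gSlot]
    omega

lemma K_le_gSlot (K : ℕ → ℕ) {m n : ℕ} (h : m < n) : K m ≤ gSlot K n := by
  have h1 : gSlot K (m + 1) ≤ gSlot K n := gSlot_mono K h
  simp only [gSlot] at h1
  omega

/-- The invariant of pending lists of a rule. -/
def GoodP (R : Rule S) (a : List (Tok S)) : Prop :=
  match R with
  | .T => a.length < p
  | .L _ K => a.length ≤ K
  | .R U K _ => actives U a < p ∧ a.length ≤ gSlot K (actives U a) + trail U a ∧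
      (trail U a = 0 ∨ trail U a < K (actives U a))

/-- The uniform bound on pending lists of a rule. -/
def pendB (R : Rule S) : ℕ :=
  match R with
  | .T => p
  | .L _ K => K
  | .R _ K _ => 2 * gSlot K p

lemma GoodP.length_le {R : Rule S} {a : List (Tok S)} (h : GoodP p R a) :
    a.length ≤ pendB p R := by
  cases R with
  | T =>
    have h' : a.length < p := h
    exact h'.le
  | L Q K => exact h
  | R U K b =>
    obtain ⟨h1, h2, h3⟩ := h
    have h4 : gSlot K (actives U a) ≤ gSlot K p := gSlot_mono K h1.le
    have h5 : trail U a ≤ gSlot K p := by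
      rcases h3 with h3 | h3
      · rw [h3]
        exact Nat.zero_le _
      · exact h3.le.trans (K_le_gSlot K h1)
    simp only [pendB]
    omega

lemma goodP_nil (hp : 1 ≤ p) (R : Rule S) : GoodP p R [] := by
  cases R with
  | T =>
    change ([] : List (Tok S)).length < p
    simp only [List.length_nil]
    omega
  | L Q K =>
    change ([] : List (Tok S)).length ≤ K
    simp
  | R U K b =>
    refine ⟨?_, ?_, Or.inl ?_⟩ <;> simp [actives, trail]
    omega

lemma goodP_next (hp : 1 ≤ p) (R : Rule S) (a : List (Tok S)) (t : Tok S) (h : GoodP p R a) :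
    GoodP p R (next p R a t).1 := by
  cases R with
  | T =>
    have h' : a.length < p := h
    by_cases hc : p ≤ a.length + 1
    · simp only [next, if_pos hc]
      exact goodP_nil p hp _
    · simp only [next, if_neg hc]
      change (a ++ [t]).length < p
      simp only [List.length_append, List.length_cons, List.length_nil]
      omega
  | L Q K =>
    have h' : a.length ≤ K := h
    by_cases ht : t = Q
    · by_cases hc : a.length < K
      · simp only [next, if_pos ht, if_pos hc]
        change (a ++ [t]).length ≤ K
        simp only [List.length_append, List.length_cons, List.length_nil]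
        omega
      · simp only [next, if_pos ht, if_neg hc]
        exact h
    · simp only [next, if_neg ht]
      exact goodP_nil p hp _
  | R U K b =>
    obtain ⟨h1, h2, h3⟩ := h
    by_cases ht : t = U
    · subst ht
      by_cases hc : K (actives t a) ≤ trail t a + 1
      · simp only [next, if_true, if_pos hc]
        exact goodP_nil p hp _
      · simp only [next, if_true, if_neg hc]
        refine ⟨?_, ?_, Or.inr ?_⟩
        · rwa [actives_append_self]
        · rw [actives_append_self, trail_append_self]
          simp only [List.length_append, List.length_cons, List.length_nil]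
          omega
        · rw [actives_append_self, trail_append_self]
          omega
    · by_cases hc : p ≤ actives U a + 1
      · simp only [next, if_neg ht, if_pos hc]
        exact goodP_nil p hp _
      · simp only [next, if_neg ht, if_neg hc]
        refine ⟨?_, ?_, Or.inl ?_⟩
        · rw [actives_append_ne U t a ht]
          omega
        · rw [actives_append_ne U t a ht, trail_append_ne U t a ht]
          simp only [List.length_append, List.length_cons, List.length_nil, gSlot]
          rcases h3 with h3 | h3 <;> omega
        · rw [trail_append_ne U t a ht]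

lemma entries_next (R : Rule S) (a : List (Tok S)) (t : Tok S) (F : Set (Tok S))
    (ha : ∀ x ∈ a, x ∈ F) (ht : t ∈ F) : ∀ x ∈ (next p R a t).1, x ∈ F := by
  have happ : ∀ x ∈ a ++ [t], x ∈ F := by
    intro x hx
    rcases List.mem_append.1 hx with hx | hx
    · exact ha x hx
    · rw [List.mem_singleton.1 hx]
      exact ht
  have hnil : ∀ x ∈ ([] : List (Tok S)), x ∈ F := by simp
  cases R with
  | T =>
    simp only [next]
    split_ifs
    · exact hnil
    · exact happ
  | L Q K =>
    simp only [next]
    split_ifs
    · exact happ
    · exact ha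
    · exact hnil
  | R U K b =>
    simp only [next]
    split_ifs
    · exact hnil
    · exact happ
    · exact hnil
    · exact happ

lemma output_next (R : Rule S) (a : List (Tok S)) (t y : Tok S)
    (h : y ∈ (next p R a t).2.toList) : y = Tok.node (a ++ [t]) := by
  cases R with
  | T =>
    simp only [next] at h
    split_ifs at h <;> simp_all
  | L Q K =>
    simp only [next] at h
    split_ifs at h <;> simp_all
  | R U K b =>
    simp only [next] at h
    split_ifs at h <;> simp_all

/-- Along a run from a good pending list with entries in `F`, the invariant holds and all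
outputs have the expected shape. -/
lemma run_good (hp : 1 ≤ p) (R : Rule S) (F : Set (Tok S)) (l : List (Tok S)) :
    ∀ a : List (Tok S), GoodP p R a → (∀ x ∈ a, x ∈ F) → (∀ x ∈ l, x ∈ F) →
      GoodP p R (runR p R a l).1 ∧ (∀ x ∈ (runR p R a l).1, x ∈ F) ∧
      ∀ y ∈ (runR p R a l).2, ∃ b t, GoodP p R b ∧ (∀ x ∈ b, x ∈ F) ∧ t ∈ F ∧
        y = Tok.node (b ++ [t]) := by
  induction l with
  | nil =>
    intro a hg he _
    simpa using ⟨hg, he⟩
  | cons t l ih =>
    intro a hg he hl
    have ht : t ∈ F := hl t (by simp)
    have hg' := goodP_next p hp R a t hg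
    have he' := entries_next p R a t F he ht
    obtain ⟨h1, h2, h3⟩ := ih _ hg' he' (fun x hx => hl x (by simp [hx]))
    rw [runR_cons]
    refine ⟨h1, h2, ?_⟩
    intro y hy
    rcases List.mem_append.1 hy with hy | hy
    · exact ⟨a, t, hg, he, ht, output_next p R a t y hy⟩
    · exact h3 y hy

/-- The finite set of possible pending lists. -/
def pendSet (R : Rule S) (F : Set (Tok S)) : Set (List (Tok S)) :=
  {l | l.length ≤ pendB p R ∧ ∀ x ∈ l, x ∈ F}

lemma pendSet_finite (R : Rule S) {F : Set (Tok S)} (hF : F.Finite) : (pendSet p R F).Finite :=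
  finite_lists hF _

/-- The emitted tokens form a finite set. -/
theorem Fset_finite [Finite S] (spec : List (Rule S)) (hp : 1 ≤ p) : (Fset p spec).Finite := by
  induction spec using List.reverseRecOn with
  | nil =>
    refine (Set.finite_range (Tok.leaf : S → Tok S)).subset ?_
    rintro t ⟨w, hw⟩
    have h2 : w.map Tok.leaf = [t] := by
      have := congrArg Prod.snd hw
      simpa using this
    cases w with
    | nil => simp at h2
    | cons a w =>
      simp only [List.map_cons, List.cons.injEq] at h2
      exact ⟨a, h2.1⟩
  | append_singleton spec R ih =>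
    refine (Set.Finite.image2 (fun (b : List (Tok S)) (t : Tok S) => Tok.node (b ++ [t]))
      (pendSet_finite p R ih) ih).subset ?_
    rintro y ⟨w, hw⟩
    have hy : y ∈ tk p (spec ++ [R]) w := by
      unfold tk
      have := congrArg Prod.snd hw
      simp only at this
      rw [this]
      simp
    rw [tk_snoc] at hy
    obtain ⟨-, -, h3⟩ := run_good p hp R (Fset p spec) (tk p spec w) [] (goodP_nil p hp R) (by simp)
      (fun x hx => mem_Fset_of_tk p spec w x hx)
    obtain ⟨b, t, hb, hbF, ht, rfl⟩ := h3 y hy
    exact ⟨b, ⟨hb.length_le, hbF⟩, t, ht, rfl⟩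

/-- The reachable states form a finite set. -/
theorem Reach_finite [Finite S] (spec : List (Rule S)) (hp : 1 ≤ p) : (Reach p spec).Finite := by
  induction spec using List.reverseRecOn with
  | nil =>
    refine (Set.finite_singleton ([] : List (List (Tok S)))).subset ?_
    rintro s ⟨w, rfl⟩
    simp [stt]
  | append_singleton spec R ih =>
    refine (Set.Finite.image2 (fun (s : List (List (Tok S))) (a : List (Tok S)) => s ++ [a])
      ih (pendSet_finite p R (Fset_finite p spec hp))).subset ?_
    rintro s ⟨w, rfl⟩
    rw [stt_snoc]
    obtain ⟨h1, h2, -⟩ := run_good p hp R (Fset p spec) (tk p spec w) [] (goodP_nil p hp R) (by simp)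
      (fun x hx => mem_Fset_of_tk p spec w x hx)
    exact ⟨_, ⟨w, rfl⟩, _, ⟨h1.length_le, h2⟩, rfl⟩

end

end Vale.Agent.Lib.P329.Tw
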