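import Vale.Agent.Lib.P329.Tw.FiniteA

/-! Measurability of the state function. -/

namespace Vale.Agent.Lib.P329.Tw

open Classical

noncomputable section

variable {S : Type} (p : ℕ)

private lemma fb_pw_map {α β : Type} (f : α → β) (k : ℕ) (u : List α) :
    (pw k u).map f = pw k (u.map f) := by
  induction k with
  | zero => simp
  | succ k ih => rw [pw_succ, pw_succ, List.map_append, ih]

private lemma fb_out_nil (spec : List (Rule S)) (s : List (List (Tok S))) :
    (runT p spec s []).2 = [] := by
  induction spec generalizing s with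
  | nil => simp
  | cons R Rs ih =>
    rw [runT_cons]
    simp [ih]

private lemma fb_stt_nil (spec : List (Rule S)) : stt p spec ([] : List S) = root spec := by
  unfold stt
  simp only [List.map_nil]
  rw [runT_nil_word p spec (root spec) (by simp)]

private lemma fb_stt_step (spec : List (Rule S)) (w : List S) (a : S) :
    (runT p spec (stt p spec w) [Tok.leaf a]).1 = stt p spec (w ++ [a]) := by
  unfold stt
  rw [List.map_append, runT_append]
  simp

/-- One step on reachable states. -/
private def fbStep (spec : List (Rule S)) (s : {s // s ∈ Reach p spec}) (a : S) :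
    {s // s ∈ Reach p spec} :=
  ⟨(runT p spec s.1 [Tok.leaf a]).1, by
    obtain ⟨w, hw⟩ := s.2
    exact ⟨w ++ [a], by rw [hw]; exact fb_stt_step p spec w a⟩⟩

/-- The root state as a reachable state. -/
private def fbRoot (spec : List (Rule S)) : {s // s ∈ Reach p spec} :=
  ⟨stt p spec [], ⟨[], rfl⟩⟩

private lemma fb_run_val (spec : List (Rule S)) (s : {s // s ∈ Reach p spec}) (w : List S) :
    (run (fbStep p spec) s w).1 = (runT p spec s.1 (w.map Tok.leaf)).1 := by
  induction w generalizing s with
  | nil =>
    obtain ⟨s, w, hw⟩ := s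
    have hlen : s.length = spec.length := by
      rw [hw]; exact length_runT p spec _ _
    simp [runT_nil_word p spec s hlen]
  | cons a w ih =>
    rw [run_cons, ih]
    have h : (Tok.leaf a :: w.map Tok.leaf) = [Tok.leaf a] ++ w.map Tok.leaf := rfl
    rw [List.map_cons, h, runT_append]
    rfl

private lemma fb_arun_prefix {Q T : Type} [DecidableEq Q] (δ : Q → T → Q) (r q q' : Q)
    (w₁ w₂ : List T) (hne : w₁ ≠ []) (hr : run δ q w₁ = r)
    (h : arun δ r (live q) (w₁ ++ w₂) = live q') : False := by
  rcases arun_trichotomy δ r q w₁ with h1 | ⟨a, b, hab, _, haf⟩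
  · rw [hr] at h1
    exact hne (arun_eq_root δ r h1)
  · rw [hab, List.append_assoc, arun_append, haf] at h
    exact arun_fin_ne_live δ r _ _ h

private lemma fb_iter {Q T : Type} [DecidableEq Q] (δ : Q → T → Q) (r : Q) (u : List T) (k : ℕ)
    (s : St Q) : (fun s => arun δ r s u)^[k] s = arun δ r s (pw k u) := by
  induction k generalizing s with
  | zero => simp
  | succ k ih =>
    rw [Function.iterate_succ_apply, ih, pw_succ, arun_append]

/-- The state function of an admissible tower is measurable. -/
theorem meas_stt [Finite S] {H : ℕ} (hp : 1 ≤ p) (spec : List (Rule S)) (hAdm : Adm p H spec) :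
    Meas (stt p spec : List S → List (List (Tok S))) := by
  have : Finite {s // s ∈ Reach p spec} := (Reach_finite p spec hp).to_subtype
  have hAp : RootAp (fbStep p (S := S) spec) (fbRoot p spec) := by
    intro u q k hk hit
    rw [fb_iter] at hit
    have hrun := arun_live_eq _ _ hit
    have hs : (runT p spec q.1 (pw k (u.map Tok.leaf))).1 = q.1 := by
      rw [← fb_pw_map, ← fb_run_val, hrun]
    have hE : (runT p spec q.1 (pw k (u.map Tok.leaf))).2 = [] := by
      by_contra hne
      obtain ⟨t, e, he⟩ := List.exists_cons_of_ne_nil hne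
      obtain ⟨U, W, hUW, hU, _⟩ := first_emit p spec q.1 _ t e he
      rw [← fb_pw_map] at hUW
      obtain ⟨w₁, w₂, h12, hw₁, _⟩ := List.map_eq_append_iff.mp hUW
      have hne₁ : w₁ ≠ [] := by
        rintro rfl
        simp only [List.map_nil] at hw₁
        subst hw₁
        have h0 := fb_out_nil p spec q.1
        rw [hU] at h0
        simp at h0
      have hr : run (fbStep p spec) q w₁ = fbRoot p spec := by
        apply Subtype.ext
        rw [fb_run_val, hw₁, hU]
        simp only [fbRoot]
        rw [fb_stt_nil]
      rw [h12] at hit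
      exact fb_arun_prefix _ _ _ _ _ _ hne₁ hr hit
    have hfix := valid p hp spec hAdm q.1 (u.map Tok.leaf) k hk hs hE
    have hrunu : run (fbStep p spec) q u = q := by
      apply Subtype.ext
      rw [fb_run_val]
      exact hfix
    rcases arun_trichotomy (fbStep p spec) (fbRoot p spec) q u with h | ⟨a, b, hab, _, haf⟩
    · rw [h, hrunu]
    · exfalso
      obtain ⟨j, rfl⟩ : ∃ j, k = j + 1 := ⟨k - 1, by omega⟩
      rw [pw_succ, hab, List.append_assoc, arun_append, haf] at hit
      exact arun_fin_ne_live _ _ _ _ hit
  intro b
  by_cases hb : b ∈ Reach p spec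
  · have h1 := HS1_of_RootAp (fbStep p spec) (fbRoot p spec) hAp (fbRoot p spec) ⟨b, hb⟩
    convert h1 using 1
    ext w
    simp only [Set.mem_ofPred_eq]
    have hval : (run (fbStep p spec) (fbRoot p spec) w).1 = stt p spec w := by
      rw [fb_run_val]
      simp only [fbRoot]
      rw [fb_stt_nil]
      rfl
    constructor
    · intro hw
      apply Subtype.ext
      rw [hval, hw]
    · intro hw
      rw [← hval, hw]
  · convert (HS.empty : HS 1 (∅ : Set (List S))) using 1
    ext w
    simp only [Set.mem_ofPred_eq, Set.mem_empty_iff_false, iff_false]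
    intro hw
    exact hb ⟨w, hw.symm⟩

/-- Functions of the state are measurable. -/
theorem meas_fn_stt [Finite S] {H : ℕ} (hp : 1 ≤ p) (spec : List (Rule S)) (hAdm : Adm p H spec)
    {β : Type} (f : List (List (Tok S)) → β) : Meas (fun w : List S => f (stt p spec w)) := by
  have : Finite {s // s ∈ Reach p spec} := (Reach_finite p spec hp).to_subtype
  have hg : Meas (fun w : List S => (⟨stt p spec w, ⟨w, rfl⟩⟩ : {s // s ∈ Reach p spec})) := by
    rintro ⟨b, hb⟩
    convert meas_stt p hp spec hAdm b using 1
    ext w
    simp [Subtype.ext_iff]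
  exact hg.of_factor (fun w w' h => congrArg f (Subtype.ext_iff.mp h))

end

end Vale.Agent.Lib.P329.Tw
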