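import Vale.Agent.Lib.P329.Tw.Main
import Vale.Agent.Lib.P329.PrimeIndex
import Mathlib.GroupTheory.PGroup
import Mathlib.Algebra.MonoidAlgebra.Basic
import Mathlib.Algebra.Algebra.Basic
import Mathlib.LinearAlgebra.Quotient.Basic
import Mathlib.Data.ZMod.Basic
import Mathlib.GroupTheory.OrderOfElement

/-! Nilpotency of the augmentation ideal of a finite p-group. -/

namespace Vale.Agent.Lib.P329.Tw

open Classical

noncomputable section


/-- The fixed vectors of a module over the group algebra, a submodule. -/
def fixedSub {G : Type} [Group G] (p : ℕ) [Fact p.Prime] (V : Type) [AddCommGroup V] [Module (MonoidAlgebra (ZMod p) G) V] :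
    Submodule (MonoidAlgebra (ZMod p) G) V where
  carrier := {v | ∀ g : G, (MonoidAlgebra.of (ZMod p) G g) • v = v}
  add_mem' := by
    intro a b ha hb g
    rw [smul_add, ha g, hb g]
  zero_mem' := by
    intro g
    rw [smul_zero]
  smul_mem' := by
    intro x v hv g
    change ∀ g : G, (MonoidAlgebra.of (ZMod p) G g) • v = v at hv
    induction x using MonoidAlgebra.induction_on with
    | of h =>
      rw [hv h, hv g]
    | add a b ha hb =>
      rw [add_smul, smul_add, ha, hb]
    | smul r a ha =>
      have key : ∀ y : MonoidAlgebra (ZMod p) G, (r • a) * y = a * (r • y) := by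
        intro y
        rw [smul_mul_assoc, mul_smul_comm]
      have e1 : r • a = a * (r • (1 : MonoidAlgebra (ZMod p) G)) := by
        rw [mul_smul_comm, mul_one]
      have e2 : r • a = (r • (1 : MonoidAlgebra (ZMod p) G)) * a := by
        rw [smul_mul_assoc, one_mul]
      have hc : MonoidAlgebra.of (ZMod p) G g * (r • (1 : MonoidAlgebra (ZMod p) G)) =
          (r • (1 : MonoidAlgebra (ZMod p) G)) * MonoidAlgebra.of (ZMod p) G g := by
        rw [mul_smul_comm, smul_mul_assoc, mul_one, one_mul]
      rw [e2, mul_smul, ← mul_smul, hc, mul_smul, ha]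

/-- Key induction on the size of the module. -/
theorem mod_nilp {G : Type} [Group G] [Finite G] (p : ℕ) [Fact p.Prime] (hG : IsPGroup p G) :
    ∀ (N : ℕ) (V : Type) [AddCommGroup V] [Module (MonoidAlgebra (ZMod p) G) V] [Finite V],
      Nat.card V = N →
      ∃ n : ℕ, ∀ l : List G, n ≤ l.length → ∀ v : V,
        (l.map (fun g => (MonoidAlgebra.of (ZMod p) G g - 1 : MonoidAlgebra (ZMod p) G))).prod • v = 0 := by
  intro N
  induction N using Nat.strong_induction_on with
  | _ N ih =>
    intro V _ _ _ hN
    by_cases hs : Subsingleton V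
    · exact ⟨0, fun l _ v => Subsingleton.elim _ _⟩
    · rw [not_subsingleton_iff_nontrivial] at hs
      -- p divides the size of V
      have hp : ∀ v : V, p • v = 0 := by
        intro v
        rw [← Nat.cast_smul_eq_nsmul (MonoidAlgebra (ZMod p) G) p v]
        have : ((p : ℕ) : MonoidAlgebra (ZMod p) G) = 0 := by
          have h0 : ((p : ℕ) : MonoidAlgebra (ZMod p) G) =
              algebraMap (ZMod p) (MonoidAlgebra (ZMod p) G) ((p : ℕ) : ZMod p) := by
            rw [map_natCast]
          rw [h0, ZMod.natCast_self, map_zero]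
        rw [this, zero_smul]
      obtain ⟨v₁, hv₁⟩ := exists_ne (0 : V)
      have hdvd : p ∣ Nat.card V := by
        have hord : addOrderOf v₁ = p :=
          addOrderOf_eq_prime (hp v₁) hv₁
        rw [← hord]
        exact addOrderOf_dvd_natCard v₁
      -- the action of G
      let act : MulAction G V := MulAction.compHom V (MonoidAlgebra.of (ZMod p) G)
      have hact : ∀ (g : G) (v : V), g • v = (MonoidAlgebra.of (ZMod p) G g) • v := fun _ _ => rfl
      have h0 : (0 : V) ∈ MulAction.fixedPoints G V := by
        intro g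
        rw [hact, smul_zero]
      obtain ⟨v₀, hv₀, hne⟩ := hG.exists_fixed_point_of_prime_dvd_card_of_fixed_point V hdvd h0
      -- the fixed submodule
      let W := fixedSub (G := G) p V
      have hW : ∀ v, v ∈ W ↔ ∀ g : G, (MonoidAlgebra.of (ZMod p) G g) • v = v := fun v => Iff.rfl
      have hv₀W : v₀ ∈ W := by
        rw [hW]
        intro g
        exact hv₀ g
      have hlt : Nat.card (V ⧸ W) < Nat.card V := by
        have hc := AddSubgroup.card_eq_card_quotient_mul_card_addSubgroup W.toAddSubgroup
        have hcW : 1 < Nat.card W.toAddSubgroup := by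
          have : Nontrivial W.toAddSubgroup :=
            ⟨⟨⟨v₀, hv₀W⟩, 0, fun h => hne (congrArg Subtype.val h).symm⟩⟩
          exact Finite.one_lt_card
        have hpos : 0 < Nat.card V := Nat.card_pos
        have hq : Nat.card (V ⧸ W) = Nat.card (V ⧸ W.toAddSubgroup) := rfl
        rw [hq]
        rw [hc] at hpos ⊢
        have hqpos : 0 < Nat.card (V ⧸ W.toAddSubgroup) := Nat.pos_of_mul_pos_right hpos
        exact lt_mul_of_one_lt_right hqpos hcW
      have hfin : Finite (V ⧸ W) := Quotient.finite _
      obtain ⟨n', hn'⟩ := ih _ (hN ▸ hlt) (V ⧸ W) rfl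
      refine ⟨n' + 1, ?_⟩
      intro l hl v
      cases l with
      | nil => simp at hl
      | cons g l' =>
        have hl' : n' ≤ l'.length := by simpa using hl
        rw [List.map_cons, List.prod_cons, mul_smul]
        have hmem : (l'.map (fun g => (MonoidAlgebra.of (ZMod p) G g - 1 : MonoidAlgebra (ZMod p) G))).prod • v ∈ W := by
          have := hn' l' hl' (Submodule.Quotient.mk v)
          rw [← Submodule.Quotient.mk_smul] at this
          exact (Submodule.Quotient.mk_eq_zero W).1 this
        rw [sub_smul, one_smul, (hW _).1 hmem g, sub_self]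

/-- Products of group elements minus one in the group algebra vanish for long products. -/
theorem pgroup_nilp {G : Type} [Group G] [Finite G] (p : ℕ) [Fact p.Prime] (hG : IsPGroup p G) :
    ∃ n : ℕ, ∀ l : List G, n ≤ l.length →
      (l.map (fun g => (MonoidAlgebra.of (ZMod p) G g - 1 : MonoidAlgebra (ZMod p) G))).prod = 0 := by
  have : Finite (MonoidAlgebra (ZMod p) G) := by
    have hne : NeZero p := ⟨(Fact.out : p.Prime).ne_zero⟩
    have h1 : Finite (G →₀ ZMod p) := Finite.of_equiv (G → ZMod p) Finsupp.equivFunOnFinite.symm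
    exact Finite.of_equiv (G →₀ ZMod p) MonoidAlgebra.coeffEquiv.symm
  obtain ⟨n, hn⟩ := mod_nilp p hG _ (MonoidAlgebra (ZMod p) G) rfl
  refine ⟨n, fun l hl => ?_⟩
  have := hn l hl 1
  rwa [smul_eq_mul, mul_one] at this

end

end Vale.Agent.Lib.P329.Tw
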