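import Vale.Agent.Lib.P329.Tw.GroupA

/-! From chains to finite p-groups and finite nilpotent groups. -/

namespace Vale.Agent.Lib.P329.Tw

open Classical

noncomputable section

variable {S : Type} [Fintype S]

section Tup

variable {A : Type} [AddCommMonoid A]

/-- Sum of a function over all tuples of letters of a given length. -/
def sumTup : ℕ → (List S → A) → A
  | 0, F => F []
  | r + 1, F => ∑ b, sumTup r (fun bs => F (b :: bs))

lemma sumTup_add (r : ℕ) (F F' : List S → A) :
    sumTup r (fun bs => F bs + F' bs) = sumTup r F + sumTup r F' := by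
  induction r generalizing F F' with
  | zero => rfl
  | succ r ih =>
    simp only [sumTup]
    rw [← Finset.sum_add_distrib]
    exact Finset.sum_congr rfl (fun b _ => ih _ _)

lemma sumTup_congr (r : ℕ) (F F' : List S → A) (h : ∀ bs : List S, bs.length = r → F bs = F' bs) :
    sumTup r F = sumTup r F' := by
  induction r generalizing F F' with
  | zero => exact h [] rfl
  | succ r ih =>
    simp only [sumTup]
    refine Finset.sum_congr rfl (fun b _ => ih _ _ (fun bs hbs => h (b :: bs) ?_))
    simp [hbs]

lemma sumTup_eq_zero (r : ℕ) (F : List S → A) (h : ∀ bs : List S, bs.length = r → F bs = 0) :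
    sumTup r F = 0 := by
  induction r generalizing F with
  | zero => exact h [] rfl
  | succ r ih =>
    simp only [sumTup]
    refine Finset.sum_eq_zero (fun b _ => ih _ (fun bs hbs => h (b :: bs) ?_))
    simp [hbs]

end Tup

section Ring

variable {A : Type} [Ring A]

lemma sumTup_mul_left (r : ℕ) (y : A) (F : List S → A) :
    sumTup r (fun bs => y * F bs) = y * sumTup r F := by
  induction r generalizing F with
  | zero => rfl
  | succ r ih =>
    simp only [sumTup]
    rw [Finset.mul_sum]
    exact Finset.sum_congr rfl (fun b _ => ih _)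

variable {p : ℕ} [Algebra (ZMod p) A]

/-- The indicator of a letter. -/
def markOf (p : ℕ) (b : S) : S → ZMod p := fun a => if a = b then 1 else 0

variable (p) in
/-- Sum over increasing tuples of products of the elements `x`, via chains. -/
def elemSym (x : S → A) (r : ℕ) (w : List S) : A :=
  sumTup r (fun bs : List S => (chain (bs.map (markOf p)) w : ZMod p) • (bs.map x).prod)

lemma elemSym_zero (x : S → A) (w : List S) : elemSym p x 0 w = 1 := by
  simp [elemSym, sumTup]

lemma elemSym_succ_nil (x : S → A) (r : ℕ) : elemSym p x (r + 1) [] = 0 := by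
  apply sumTup_eq_zero
  intro bs hbs
  cases bs with
  | nil => simp at hbs
  | cons b bs => simp

lemma elemSym_succ_cons (x : S → A) (r : ℕ) (a : S) (w : List S) :
    elemSym p x (r + 1) (a :: w) = x a * elemSym p x r w + elemSym p x (r + 1) w := by
  have h1 : ∀ b : S, sumTup r (fun bs : List S =>
      (chain ((b :: bs).map (markOf p)) (a :: w) : ZMod p) • ((b :: bs).map x).prod)
      = (markOf p b a • x b) * elemSym p x r w
        + sumTup r (fun bs : List S =>
            (chain ((b :: bs).map (markOf p)) w : ZMod p) • ((b :: bs).map x).prod) := by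
    intro b
    unfold elemSym
    rw [← sumTup_mul_left, ← sumTup_add]
    refine sumTup_congr r _ _ (fun bs _ => ?_)
    simp only [List.map_cons, List.prod_cons, chain_cons_cons]
    rw [add_smul, mul_smul, smul_mul_assoc, mul_smul_comm]
  have h2 : ∑ b : S, (markOf p b a • x b) = x a := by
    rw [Finset.sum_eq_single a]
    · simp [markOf]
    · intro b _ hb
      have : a ≠ b := fun h => hb h.symm
      simp [markOf, this]
    · intro h
      exact absurd (Finset.mem_univ a) h
  change ∑ b : S, sumTup r (fun bs : List S =>
      (chain ((b :: bs).map (markOf p)) (a :: w) : ZMod p) • ((b :: bs).map x).prod) = _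
  simp_rw [h1]
  rw [Finset.sum_add_distrib, ← Finset.sum_mul, h2]
  rfl

/-- The generating identity. -/
lemma sum_elemSym_of_nilp (x : S → A) (n : ℕ) (hn : ∀ w : List S, elemSym p x n w = 0)
    (w : List S) :
    ∑ r ∈ Finset.range (n + 1), elemSym p x r w = (w.map (fun a => 1 + x a)).prod := by
  induction w with
  | nil =>
    rw [Finset.sum_range_succ']
    simp [elemSym_zero, elemSym_succ_nil]
  | cons a w ih =>
    rw [Finset.sum_range_succ']
    simp only [elemSym_succ_cons, elemSym_zero, Finset.sum_add_distrib, ← Finset.mul_sum]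
    rw [List.map_cons, List.prod_cons, ← ih, add_assoc]
    have h1 : ∑ r ∈ Finset.range (n + 1), elemSym p x r w
        = ∑ r ∈ Finset.range n, elemSym p x r w := by
      rw [Finset.sum_range_succ, hn w, add_zero]
    have h2 : ∑ r ∈ Finset.range n, elemSym p x (r + 1) w + 1
        = ∑ r ∈ Finset.range (n + 1), elemSym p x r w := by
      rw [Finset.sum_range_succ' _ n, elemSym_zero]
    rw [h2, add_mul, one_mul, ← h1]
    abel

end Ring

/-- The value of a word in a finite p-group is a function of its short chains. -/
theorem pgroup_factor {G : Type} [Group G] [Finite G] (p : ℕ) [Fact p.Prime] (hG : IsPGroup p G)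
    (φ : S → G) : ∃ n : ℕ, ∀ w w' : List S,
      (∀ m : List (S → ZMod p), m.length < n → chain m w = chain m w') →
        (w.map φ).prod = (w'.map φ).prod := by
  obtain ⟨n, hn⟩ := pgroup_nilp p hG
  let of' : G →* MonoidAlgebra (ZMod p) G := MonoidAlgebra.of (ZMod p) G
  let x : S → MonoidAlgebra (ZMod p) G := fun a => of' (φ a) - 1
  have hE : ∀ (r : ℕ) (w : List S), n ≤ r → elemSym p x r w = 0 := by
    intro r w hr
    apply sumTup_eq_zero
    intro bs hbs
    have h := hn (bs.map φ) (by simpa [hbs] using hr)
    have h2 : (bs.map x).prod = 0 := by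
      rw [← h, List.map_map]
      rfl
    rw [h2, smul_zero]
  have hval : ∀ w : List S, of' (w.map φ).prod
      = ∑ r ∈ Finset.range (n + 1), elemSym p x r w := by
    intro w
    rw [sum_elemSym_of_nilp x n (fun w => hE n w le_rfl) w, map_list_prod, List.map_map]
    congr 1
    refine List.map_congr_left (fun a _ => ?_)
    simp [x]
  refine ⟨n + 1, fun w w' h => ?_⟩
  apply MonoidAlgebra.of_injective (R := ZMod p)
  change of' _ = of' _
  rw [hval, hval]
  refine Finset.sum_congr rfl (fun r hr => ?_)
  refine sumTup_congr r _ _ (fun bs hbs => ?_)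
  rw [h (bs.map (markOf p)) (by simpa [hbs] using Finset.mem_range.1 hr)]

/-- Finite p-groups. -/
theorem pgroup_meas {G : Type} [Group G] [Finite G] (p : ℕ) [Fact p.Prime] (hG : IsPGroup p G)
    (φ : S → G) : Meas (fun w : List S => (w.map φ).prod) := by
  obtain ⟨n, hn⟩ := pgroup_factor p hG φ
  have hfin : Finite {m : List (S → ZMod p) // m.length < n} :=
    (List.finite_length_lt (S → ZMod p) n).to_subtype
  have h1 : Meas (fun (w : List S) (m : {m : List (S → ZMod p) // m.length < n}) => chain m.1 w) :=
    Meas.pi (fun m => chains_meas p m.1.length m.1 rfl)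
  refine h1.of_factor (fun w w' h => hn w w' (fun m hm => ?_))
  exact congrFun h ⟨m, hm⟩

/-- Finite nilpotent groups. -/
theorem nilpotent_meas {G : Type} [Group G] [Finite G] [Group.IsNilpotent G] (φ : S → G) :
    Meas (fun w : List S => (w.map φ).prod) := by
  have hG : Group.IsNilpotent G := inferInstance
  obtain ⟨e⟩ := ((Group.isNilpotent_of_finite_tfae (G := G)).out 0 4).mp hG
  let ψ : ∀ (p : (Nat.card G).primeFactors) (P : Sylow p G), G →* (↑P : Subgroup G) := fun p P =>
    (Pi.evalMonoidHom _ P).comp ((Pi.evalMonoidHom _ p).comp e.symm.toMonoidHom)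
  have h1 : Meas (fun (w : List S) (p : (Nat.card G).primeFactors) (P : Sylow p G) =>
      (w.map (fun a => ψ p P (φ a))).prod) := by
    refine Meas.dpi (fun p => Meas.dpi (fun P => ?_))
    have : Fact (p : ℕ).Prime := ⟨Nat.prime_of_mem_primeFactors p.2⟩
    exact pgroup_meas (p : ℕ) P.isPGroup' _
  refine h1.of_factor (fun w w' h => ?_)
  apply e.symm.injective
  funext p P
  have h2 := congrFun (congrFun h p) P
  have h3 : ∀ u : List S, ψ p P (u.map φ).prod = (u.map (fun a => ψ p P (φ a))).prod := by
    intro u
    rw [map_list_prod, List.map_map]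
    rfl
  rw [← h3, ← h3] at h2
  exact h2

end

end Vale.Agent.Lib.P329.Tw
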