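import Vale.Agent.Lib.P329.Tw.TokenC

/-! The main induction: all chains over the letters are measurable. -/

namespace Vale.Agent.Lib.P329.Tw

open Classical

noncomputable section

variable {S : Type} (p : ℕ)

/-- The measure of the flush recursion. -/
def meas (spec : List (Rule S)) (U : Tok S) : ℕ :=
  (items spec).countP (fun z => decide (rootLen (ex spec U) ≤ rootLen z))

/-- The statement with a characteristic function as an entry. -/
def Erq [Fact p.Prime] (r : ℕ) (spec : List (Rule S)) (t : Tok S) : Prop :=
  ∀ α β : List (Tok S → ZMod p), α.length + β.length = r →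
    Meas (fun w : List S => chain (α ++ ind p t :: β) (tk p spec w))

/-- Height budget. -/
def hb : ℕ → ℕ → ℕ
  | 0, h => h
  | r + 1, h => hb r (2 * h + 6)

theorem le_hb (r h : ℕ) : h ≤ hb r h := by
  induction r generalizing h with
  | zero => exact le_rfl
  | succ r ih =>
    have := ih (2 * h + 6)
    simp only [hb]
    omega

theorem hb_mono (r : ℕ) {h h' : ℕ} (hh : h ≤ h') : hb r h ≤ hb r h' := by
  induction r generalizing h h' with
  | zero => exact hh
  | succ r ih => exact ih (by omega)

theorem hb_succ_ge (r h : ℕ) : hb r h ≤ hb (r + 1) h := by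
  simp only [hb]
  exact hb_mono r (by omega)

/-- Strict monotonicity of counting. -/
lemma countP_lt_of_imp {α : Type} (q q' : α → Bool) (l : List α) (h : ∀ x ∈ l, q x = true → q' x = true)
    (z : α) (hz : z ∈ l) (hz1 : q' z = true) (hz2 : q z = false) : l.countP q < l.countP q' := by
  induction l with
  | nil => simp at hz
  | cons a l ih =>
    have h' : ∀ x ∈ l, q x = true → q' x = true := fun x hx => h x (List.mem_cons_of_mem _ hx)
    have hmono : l.countP q ≤ l.countP q' := List.countP_mono_left h'
    rw [List.countP_cons, List.countP_cons]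
    rcases List.mem_cons.1 hz with rfl | hzl
    · rw [if_neg (by simp [hz2]), if_pos hz1]; omega
    · have hlt := ih h' hzl
      by_cases ha : q a = true
      · have ha2 := h a (List.mem_cons_self) ha
        rw [if_pos ha, if_pos ha2]; omega
      · rw [if_neg ha]
        split_ifs <;> omega

lemma PCong.ne_nil_right {α : Type} {x z : List α} (hx : x ≠ []) (h : PCong x z) : z ≠ [] := by
  obtain ⟨n, m, hn, hm, hr⟩ := h
  rintro rfl
  have h1 : (pw n x).length = (pw m ([] : List α)).length := hr.perm.length_eq
  have hx0 : 0 < x.length := List.length_pos_iff.2 hx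
  simp only [length_pw, List.length_nil, Nat.mul_zero] at h1
  have := Nat.mul_pos hn hx0
  omega

lemma ex_ne_nil_of_Fset {spec : List (Rule S)} {U : Tok S} (hU : U ∈ Fset p spec) : ex spec U ≠ [] := by
  obtain ⟨w, hw⟩ := hU
  exact Seg.ne_nil p (seg_self p spec _ U hw).1

section

variable [Fact p.Prime] [Finite S]

/-- Case 1: the expansion is primitive and not conjugate to an item. -/
theorem E_case1 {H : ℕ} (r : ℕ) (Bud : ℕ)
    (hS : ∀ spec' : List (Rule S), Adm p H spec' → spec'.length ≤ Bud → MM p spec' r)
    (spec : List (Rule S)) (hAdm : Adm p H spec) (hBud : spec.length + 2 ≤ Bud) (hBH : Bud ≤ H)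
    (U : Tok S) (hP : Prim (ex spec U)) (hU : ∀ z ∈ items spec, ¬ PCong (ex spec U) z) :
    Erq p r spec U := by
  intro α β hlen
  obtain ⟨K, hK⟩ := adm_snoc_L p hAdm (by omega) U hP hU
  have hT := adm_snoc_T p hAdm (by omega)
  have hLT : Adm p H (spec ++ [Rule.L U K] ++ [Rule.T]) :=
    adm_snoc_T p hK (by simp only [List.length_append, List.length_cons, List.length_nil]; omega)
  exact L_reduce p U K spec hT hLT r
    (hS _ hT (by simp only [List.length_append, List.length_cons, List.length_nil]; omega))
    (hS _ hLT (by simp only [List.length_append, List.length_cons, List.length_nil]; omega)) α β hlen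

/-- The non-primitive case, not conjugate to an item: a large flush rule. -/
theorem E_large {H : ℕ} (r : ℕ) (Bud : ℕ)
    (hS : ∀ spec' : List (Rule S), Adm p H spec' → spec'.length ≤ Bud → MM p spec' r) (hBH : Bud ≤ H)
    (spec : List (Rule S)) (U : Tok S) (hAdm : Adm p H spec) (hUF : U ∈ Fset p spec)
    (hU : ∀ z ∈ items spec, ¬ PCong (ex spec U) z) (hb : spec.length + 3 ≤ Bud) :
    Erq p r spec U := by
  have hp1 : 1 ≤ p := (Fact.out : p.Prime).one_lt.le
  intro α β hlen
  -- the bounds
  obtain ⟨L, hL⟩ : ∃ L, ∀ t ∈ Fset p spec, (ex spec t).length ≤ L := by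
    obtain ⟨L, hL⟩ := ((Fset_finite p spec hp1).image (fun t => (ex spec t).length)).bddAbove
    exact ⟨L, fun t ht => hL ⟨t, ht, rfl⟩⟩
  obtain ⟨Z, hZ⟩ : ∃ Z, ∀ z ∈ items spec, z.length ≤ Z := by
    obtain ⟨Z, hZ⟩ := ((List.finite_toSet (items spec)).image (fun z => z.length)).bddAbove
    exact ⟨Z, fun z hz => hZ ⟨z, hz, rfl⟩⟩
  have hlH : spec.length + 1 ≤ H := by omega
  have hR := adm_snoc_large p hAdm hlH U hU (bigK p L Z)
  have hT := adm_snoc_T p hAdm hlH
  refine flush_reduce p U (bigK p L Z) true spec hR hT r
    (hS _ hR (by simp only [List.length_append, List.length_cons, List.length_nil]; omega))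
    (hS _ hT (by simp only [List.length_append, List.length_cons, List.length_nil]; omega))
    α β hlen ?_
  apply meas_expand_mid
  intro y hy hJ
  obtain ⟨hP, hI⟩ := flush_token_large p U spec L Z hp1 hUF hL hZ y hy hJ
  refine E_case1 p r Bud hS _ hR
    (by simp only [List.length_append, List.length_cons, List.length_nil]; omega) hBH y hP hI _ _ ?_
  simp only [List.length_map]
  exact hlen

/-- The flush recursion. -/
theorem E_main {H : ℕ} (r : ℕ) (Bud : ℕ)
    (hS : ∀ spec' : List (Rule S), Adm p H spec' → spec'.length ≤ Bud → MM p spec' r) (hBH : Bud ≤ H) :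
    ∀ (n : ℕ) (spec : List (Rule S)) (U : Tok S), Adm p H spec → U ∈ Fset p spec →
      meas spec U ≤ n → spec.length + n + 4 ≤ Bud → Erq p r spec U := by
  have hp1 : 1 ≤ p := (Fact.out : p.Prime).one_lt.le
  intro n
  induction n with
  | zero =>
    intro spec U hAdm hUF hm hb
    by_cases hz : ∃ z ∈ items spec, PCong (ex spec U) z
    · obtain ⟨z, hzi, hzc⟩ := hz
      exfalso
      have hne := ex_ne_nil_of_Fset p hUF
      have heq := PCong.rootLen_eq hne (PCong.ne_nil_right hne hzc) hzc
      have hpos : 0 < meas spec U := by
        unfold meas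
        exact List.countP_pos_iff.2 ⟨z, hzi, by simp [heq]⟩
      omega
    · have hU : ∀ z ∈ items spec, ¬ PCong (ex spec U) z := fun z hzi hc => hz ⟨z, hzi, hc⟩
      by_cases hP : Prim (ex spec U)
      · exact E_case1 p r Bud hS spec hAdm (by omega) hBH U hP hU
      · exact E_large p r Bud hS hBH spec U hAdm hUF hU (by omega)
  | succ n ih =>
    intro spec U hAdm hUF hm hb
    by_cases hz : ∃ z ∈ items spec, PCong (ex spec U) z
    · -- small flush rule
      obtain ⟨z, hzi, hzc⟩ := hz
      intro α β hlen
      have hne := ex_ne_nil_of_Fset p hUF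
      have heq := PCong.rootLen_eq hne (PCong.ne_nil_right hne hzc) hzc
      have hlH : spec.length + 1 ≤ H := by omega
      have hR := adm_snoc_small p hAdm hlH U
      have hT := adm_snoc_T p hAdm hlH
      refine flush_reduce p U (fun _ => 2) false spec hR hT r
        (hS _ hR (by simp only [List.length_append, List.length_cons, List.length_nil]; omega))
        (hS _ hT (by simp only [List.length_append, List.length_cons, List.length_nil]; omega))
        α β hlen ?_
      apply meas_expand_mid
      intro y hy hJ
      have hlt := flush_token_small p U spec hp1 hUF y hy hJ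
      have hmeas : meas (spec ++ [Rule.R U (fun _ => 2) false]) y ≤ n := by
        have : meas (spec ++ [Rule.R U (fun _ => 2) false]) y < meas spec U := by
          unfold meas
          rw [items_small]
          refine countP_lt_of_imp _ _ _ ?_ z hzi (by simp [heq]) ?_
          · intro x _ hx
            simp only [decide_eq_true_eq] at hx ⊢
            omega
          · simp only [decide_eq_false_iff_not]
            omega
        omega
      refine ih _ y (adm_snoc_small p hAdm hlH U) hy hmeas
        (by simp only [List.length_append, List.length_cons, List.length_nil]; omega) _ _ ?_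
      simp only [List.length_map]
      exact hlen
    · have hU : ∀ z ∈ items spec, ¬ PCong (ex spec U) z := fun z hzi hc => hz ⟨z, hzi, hc⟩
      by_cases hP : Prim (ex spec U)
      · exact E_case1 p r Bud hS spec hAdm (by omega) hBH U hP hU
      · exact E_large p r Bud hS hBH spec U hAdm hUF hU (by omega)

/-- From characteristic functions to all marks. -/
theorem MM_of_E (spec : List (Rule S)) (r : ℕ) (hM : MM p spec r)
    (hE : ∀ t ∈ Fset p spec, Erq p r spec t) : MM p spec (r + 1) := by
  intro m hm
  by_cases hr : m.length ≤ r
  · exact hM m hr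
  · cases m with
    | nil => simp at hr
    | cons f fs =>
      have hfs : fs.length = r := by
        simp only [List.length_cons] at hm hr
        omega
      have := meas_expand_mid p spec [] fs f (fun y hy _ => hE y hy [] fs (by simpa using hfs))
      simpa using this

/-- The main induction. -/
theorem main_meas (H : ℕ) : ∀ (r : ℕ) (spec : List (Rule S)), Adm p H spec → hb r spec.length ≤ H →
    MM p spec r := by
  intro r
  induction r with
  | zero =>
    intro spec _ _ m hm
    have hm0 : m = [] := List.length_eq_zero_iff.1 (by omega)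
    subst hm0
    simpa using Meas.const' p (1 : ZMod p)
  | succ r ih =>
    intro spec hAdm hH
    have hH' : hb r (2 * spec.length + 6) ≤ H := by simpa [hb] using hH
    have hM : MM p spec r := ih spec hAdm (le_trans (hb_mono r (by omega)) hH')
    refine MM_of_E p spec r hM ?_
    intro t ht
    have hS : ∀ spec' : List (Rule S), Adm p H spec' → spec'.length ≤ 2 * spec.length + 6 → MM p spec' r :=
      fun spec' h1 h2 => ih spec' h1 (le_trans (hb_mono r h2) hH')
    have hBH : 2 * spec.length + 6 ≤ H := le_trans (le_hb r _) hH'
    have hcount : meas spec t ≤ spec.length := by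
      unfold meas
      exact le_trans List.countP_le_length (length_items_le spec)
    exact E_main p r (2 * spec.length + 6) hS hBH (meas spec t) spec t hAdm ht le_rfl (by omega)

/-- All chains over the letters are measurable. -/
theorem chains_meas (r : ℕ) (m : List (S → ZMod p)) (hm : m.length = r) :
    Meas (fun w : List S => chain m w) := by
  classical
  -- lift the marks
  let lf : (S → ZMod p) → Tok S → ZMod p := fun f t =>
    match t with
    | .leaf a => f a
    | _ => 0
  have hAdm : Adm p (hb r 0) ([] : List (Rule S)) := by
    refine ⟨by simp, ?_⟩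
    intro base pre R post h
    simp at h
  have hM := main_meas p (hb r 0) r ([] : List (Rule S)) hAdm (by simp)
  have hlen : (m.map lf).length ≤ r := by simp [hm]
  have key := hM (m.map lf) hlen
  have hcomp : ∀ f : S → ZMod p, (lf f) ∘ (Tok.leaf : S → Tok S) = f := fun f => rfl
  have hm2 : ((m.map lf).map (fun g => g ∘ (Tok.leaf : S → Tok S))) = m := by
    simp only [List.map_map]
    conv_rhs => rw [← List.map_id m]
    apply List.map_congr_left
    intro f _
    rfl
  have : (fun w : List S => chain (m.map lf) (tk p [] w)) = (fun w : List S => chain m w) := by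
    funext w
    rw [tk_nil, ← chain_map Tok.leaf (m.map lf) w, hm2]
  rw [← this]
  exact key

end

end

end Vale.Agent.Lib.P329.Tw
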