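import Vale.Agent.Lib.P329.Tw.WordsB

/-! Parsing lemmas: emission splitting and segments. -/

namespace Vale.Agent.Lib.P329.Tw

open Classical

noncomputable section

variable {S : Type} (p : ℕ)

/-- All caps in a tower are positive. -/
def PosK (spec : List (Rule S)) : Prop := ∀ Q K, Rule.L Q K ∈ spec → 1 ≤ K

lemma PosK.tail {R : Rule S} {Rs : List (Rule S)} (h : PosK (R :: Rs)) : PosK Rs :=
  fun Q K hm => h Q K (List.mem_cons_of_mem _ hm)
lemma PosK.left {A B : List (Rule S)} (h : PosK (A ++ B)) : PosK A :=
  fun Q K hm => h Q K (List.mem_append_left _ hm)
lemma PosK.right {A B : List (Rule S)} (h : PosK (A ++ B)) : PosK B :=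
  fun Q K hm => h Q K (List.mem_append_right _ hm)

/-- The empty word emits nothing. -/
theorem runT_nil_word_snd (spec : List (Rule S)) (s : List (List (Tok S))) :
    (runT p spec s []).2 = [] := by
  induction spec generalizing s with
  | nil => simp
  | cons R Rs ih => simp [runT_cons, ih]

/-- A tower run only depends on the first components of the state. -/
theorem runT_append_state (A : List (Rule S)) (x y : List (List (Tok S))) (l : List (Tok S))
    (h : x.length = A.length) : runT p A (x ++ y) l = runT p A x l := by
  induction A generalizing x l with
  | nil => simp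
  | cons R Rs ih =>
    cases x with
    | nil => simp at h
    | cons a x =>
      have h2 : x.length = Rs.length := by simpa using h
      simp [runT_cons, ih x _ h2]

/-- Similarly for overrun. -/
theorem NoOver_append_state (A : List (Rule S)) (x y : List (List (Tok S))) (l : List (Tok S))
    (h : x.length = A.length) : NoOver p A (x ++ y) l ↔ NoOver p A x l := by
  induction A generalizing x l with
  | nil => simp [NoOver]
  | cons R Rs ih =>
    cases x with
    | nil => simp at h
    | cons a x =>
      have h2 : x.length = Rs.length := by simpa using h
      simp [NoOver, ih x _ h2]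

/-- Every rule resets its pending list when it outputs. -/
lemma next_some (R : Rule S) (a : List (Tok S)) (t y : Tok S)
    (h : (next p R a t).2 = some y) : (next p R a t).1 = [] := by
  cases R with
  | T =>
    simp only [next] at h ⊢
    split_ifs at h ⊢ <;> simp_all
  | L Q K =>
    simp only [next] at h ⊢
    split_ifs at h ⊢ <;> simp_all
  | R U K b =>
    simp only [next] at h ⊢
    split_ifs at h ⊢ <;> simp_all

/-- Splitting the output of a rule after an initial nonempty part. -/
theorem runR_emit_split (R : Rule S) (a v l₁ l₂ : List (Tok S))
    (h : (runR p R a v).2 = l₁ ++ l₂) (hl : l₁ ≠ []) :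
    ∃ u w, v = u ++ w ∧ runR p R a u = ([], l₁) ∧ runR p R [] w = ((runR p R a v).1, l₂) := by
  induction v generalizing a l₁ with
  | nil =>
    simp only [runR_nil] at h
    exact absurd (List.append_eq_nil_iff.1 h.symm).1 hl
  | cons t v ih =>
    rw [runR_cons] at h
    rcases hn : (next p R a t).2 with _ | y
    · simp only [hn, Option.toList_none, List.nil_append] at h
      obtain ⟨u, w, hv, hu, hw⟩ := ih _ _ h hl
      refine ⟨t :: u, w, by simp [hv], ?_, ?_⟩
      · rw [runR_cons, hn, hu]; simp
      · rw [runR_cons, hw]
    · have h1 : (next p R a t).1 = [] := next_some p R a t y hn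
      simp only [hn, Option.toList_some, h1, List.singleton_append] at h
      cases l₁ with
      | nil => exact absurd rfl hl
      | cons y' l₁' =>
        simp only [List.cons_append, List.cons.injEq] at h
        obtain ⟨rfl, h⟩ := h
        by_cases hl' : l₁' = []
        · subst hl'
          refine ⟨[t], v, rfl, ?_, ?_⟩
          · rw [runR_cons, hn, h1]; simp
          · simp only [List.nil_append] at h
            rw [runR_cons, h1]
            ext1
            · rfl
            · exact h
        · obtain ⟨u, w, hv, hu, hw⟩ := ih _ _ h hl'
          refine ⟨t :: u, w, by simp [hv], ?_, ?_⟩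
          · rw [runR_cons, hn, h1, hu]; simp
          · rw [runR_cons, h1]
            exact hw

/-- Splitting a tower run at its first top output. -/
theorem first_emit (spec : List (Rule S)) (s : List (List (Tok S))) (v : List (Tok S))
    (t : Tok S) (e : List (Tok S)) (h : (runT p spec s v).2 = t :: e) :
    ∃ u w, v = u ++ w ∧ runT p spec s u = (root spec, [t]) ∧
      runT p spec (root spec) w = ((runT p spec s v).1, e) := by
  induction spec generalizing s v e with
  | nil =>
    simp only [runT_nil_spec] at h
    subst h
    exact ⟨[t], e, rfl, by simp, by simp⟩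
  | cons R Rs ih =>
    rw [runT_cons] at h
    simp only at h
    obtain ⟨c₁, c₂, hc, hc1, hc2⟩ := ih s.tail _ e h
    have hne : c₁ ≠ [] := by
      rintro rfl
      have := runT_nil_word_snd p Rs s.tail
      rw [hc1] at this
      simp at this
    obtain ⟨u, w, hv, hu, hw⟩ := runR_emit_split p R _ v c₁ c₂ hc hne
    refine ⟨u, w, hv, ?_, ?_⟩
    · rw [runT_cons, hu, hc1]; simp
    · rw [runT_cons, runT_cons]
      simp only [root_cons, List.headD_cons, List.tail_cons, hw, hc2]

/-- Without output, the pending list does not shrink. -/
lemma runR_no_out_len (R : Rule S) (a w : List (Tok S)) (h : (runR p R a w).2 = []) :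
    a.length ≤ (runR p R a w).1.length := by
  induction w generalizing a with
  | nil => simp
  | cons t w ih =>
    rw [runR_cons] at h ⊢
    simp only [List.append_eq_nil_iff] at h
    obtain ⟨h1, h2⟩ := h
    have h3 := ih _ h2
    have h4 : a.length ≤ (next p R a t).1.length := by
      have hn : (next p R a t).2 = none := by
        rcases hn : (next p R a t).2 with _ | y
        · rfl
        · simp [hn] at h1
      cases R with
      | T =>
        simp only [next] at hn ⊢
        split_ifs at hn ⊢ <;> simp_all
      | L Q K =>
        simp only [next] at hn ⊢
        split_ifs at hn ⊢ <;> simp_all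
      | R U K b =>
        simp only [next] at hn ⊢
        split_ifs at hn ⊢ <;> simp_all
    exact h4.trans h3

/-- Without output, and with positive caps, a nonempty word read from the empty pending list
gives a nonempty pending list. -/
lemma runR_no_out_nil (R : Rule S) (hR : ∀ Q K, R = Rule.L Q K → 1 ≤ K) (w : List (Tok S))
    (h : runR p R [] w = ([], [])) : w = [] := by
  cases w with
  | nil => rfl
  | cons t w =>
    exfalso
    rw [runR_cons] at h
    simp only [Prod.mk.injEq, List.append_eq_nil_iff] at h
    obtain ⟨h1, h2, h3⟩ := h
    have hn : (next p R [] t).2 = none := by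
      rcases hn : (next p R [] t).2 with _ | y
      · rfl
      · simp [hn] at h2
    have h4 : 1 ≤ (next p R [] t).1.length := by
      cases R with
      | T =>
        simp only [next] at hn ⊢
        split_ifs at hn ⊢ <;> simp_all
      | L Q K =>
        have := hR Q K rfl
        simp only [next] at hn ⊢
        split_ifs at hn ⊢ <;> simp_all
      | R U K b =>
        simp only [next] at hn ⊢
        split_ifs at hn ⊢ <;> simp_all
    have h5 := runR_no_out_len p R _ w h3
    rw [h1] at h5
    simp only [List.length_nil] at h5
    omega

/-- With positive caps, from the root, a word without output returning to the root is empty. -/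
lemma runT_root_no_out (spec : List (Rule S)) (hspec : PosK spec) (w : List (Tok S))
    (h : runT p spec (root spec) w = (root spec, [])) : w = [] := by
  induction spec generalizing w with
  | nil =>
    simpa using h
  | cons R Rs ih =>
    rw [runT_cons] at h
    simp only [root_cons, List.headD_cons, List.tail_cons, Prod.mk.injEq, List.cons.injEq] at h
    obtain ⟨⟨h1, h2⟩, h3⟩ := h
    have hc : (runR p R [] w).2 = [] := ih hspec.tail _ (Prod.ext h2 h3)
    refine runR_no_out_nil p R ?_ w (Prod.ext h1 hc)
    rintro Q K rfl
    exact hspec Q K (List.mem_cons_self)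

/-- If a word emits one token and lands in the root, then all but its last letter emit nothing. -/
theorem seg_init (spec : List (Rule S)) (s : List (List (Tok S))) (u : List (Tok S)) (t : Tok S)
    (h : runT p spec s u = (root spec, [t])) (hspec : PosK spec) :
    ∃ u' a, u = u' ++ [a] ∧ (runT p spec s u').2 = [] := by
  rcases List.eq_nil_or_concat' u with rfl | ⟨u', a, rfl⟩
  · exfalso
    have := runT_nil_word_snd p spec s
    rw [h] at this
    simp at this
  · refine ⟨u', a, rfl, ?_⟩
    have h2 := runT_append p spec s u' [a]
    rw [h] at h2
    have h3 := congrArg Prod.fst h2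
    have h4 := congrArg Prod.snd h2
    simp only at h3 h4
    rcases List.append_eq_singleton_iff.1 h4.symm with ⟨h5, _⟩ | ⟨h5, h6⟩
    · exact h5
    · exfalso
      obtain ⟨u₁, w₁, rfl, _, hw⟩ := first_emit p spec s u' t [] h5
      have h7 : runT p spec (root spec) (w₁ ++ [a]) = (root spec, []) := by
        rw [runT_append, hw]
        simp only [← h3, h6]
        simp
      have := runT_root_no_out p spec hspec _ h7
      simp at this

/-- Seg words are nonempty. -/
theorem Seg.ne_nil {spec : List (Rule S)} {u : List (Tok S)} {t : Tok S} (h : Seg p spec u t) : u ≠ [] := by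
  rintro rfl
  have := runT_nil_word_snd p spec (root spec)
  rw [show runT p spec (root spec) [] = (root spec, [t]) from h] at this
  simp at this

/-- A run from the root back to the root with outputs `E` is a concatenation of segments. -/
theorem segments (spec : List (Rule S)) (hspec : PosK spec) (W E : List (Tok S))
    (h : runT p spec (root spec) W = (root spec, E)) :
    ∃ us : List (List (Tok S)), W = us.flatten ∧ List.Forall₂ (fun u t => Seg p spec u t) us E := by
  induction E generalizing W with
  | nil =>
    exact ⟨[], by simpa using runT_root_no_out p spec hspec W h, List.Forall₂.nil⟩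
  | cons t e ih =>
    have h2 : (runT p spec (root spec) W).2 = t :: e := by rw [h]
    obtain ⟨u, w, rfl, hu, hw⟩ := first_emit p spec (root spec) W t e h2
    rw [h] at hw
    obtain ⟨us, rfl, hus⟩ := ih w hw
    exact ⟨u :: us, by simp, List.Forall₂.cons hu hus⟩

/-- A run from the root into a stream: segments plus a final part without output. -/
theorem segments_gen (spec : List (Rule S)) (W E : List (Tok S))
    (h : (runT p spec (root spec) W).2 = E) :
    ∃ (us : List (List (Tok S))) (r : List (Tok S)), W = us.flatten ++ r ∧
      List.Forall₂ (fun u t => Seg p spec u t) us E ∧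
      runT p spec (root spec) r = ((runT p spec (root spec) W).1, []) := by
  induction E generalizing W with
  | nil =>
    refine ⟨[], W, by simp, List.Forall₂.nil, ?_⟩
    exact Prod.ext rfl h
  | cons t e ih =>
    obtain ⟨u, w, hW, hu, hw⟩ := first_emit p spec (root spec) W t e h
    obtain ⟨us, r, hw2, hus, hr⟩ := ih w (by rw [hw])
    refine ⟨u :: us, r, by simp [hW, hw2], List.Forall₂.cons hu hus, ?_⟩
    rw [hr, hw]

/-- Overrun splits along concatenation at the rule level. -/
lemma noOverR_append (R : Rule S) (a l₁ l₂ : List (Tok S)) :
    noOverR p R a (l₁ ++ l₂) ↔ noOverR p R a l₁ ∧ noOverR p R (runR p R a l₁).1 l₂ := by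
  induction l₁ generalizing a with
  | nil => simp [noOverR]
  | cons t l ih =>
    simp only [List.cons_append, noOverR, ih, runR_cons]
    tauto

/-- Overrun splits along concatenation of words. -/
theorem NoOver_append (spec : List (Rule S)) (s : List (List (Tok S))) (l₁ l₂ : List (Tok S)) :
    NoOver p spec s (l₁ ++ l₂) ↔ NoOver p spec s l₁ ∧ NoOver p spec (runT p spec s l₁).1 l₂ := by
  induction spec generalizing s l₁ l₂ with
  | nil => simp [NoOver]
  | cons R Rs ih =>
    simp only [NoOver, runR_append, noOverR_append, ih, runT_cons, List.headD_cons, List.tail_cons]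
    tauto

/-- Overrun splits along concatenation of towers. -/
theorem NoOver_split (A B : List (Rule S)) (s : List (List (Tok S))) (l : List (Tok S)) :
    NoOver p (A ++ B) s l ↔ NoOver p A s l ∧ NoOver p B (s.drop A.length) (runT p A s l).2 := by
  induction A generalizing s l with
  | nil => simp [NoOver]
  | cons R Rs ih =>
    simp only [List.cons_append, NoOver, ih, runT_cons, List.length_cons]
    have : s.drop (Rs.length + 1) = s.tail.drop Rs.length := by
      cases s <;> simp
    rw [this]
    tauto

/-- A segment of a composite tower. -/
theorem seg_split (A B : List (Rule S)) (u : List (Tok S)) (y : Tok S) :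
    Seg p (A ++ B) u y ↔ ∃ c, runT p A (root A) u = (root A, c) ∧ Seg p B c y := by
  unfold Seg
  rw [root_append, runT_split]
  have hd : (root A ++ root B).drop A.length = root B := by
    rw [List.drop_left' (length_root A)]
  rw [hd, runT_append_state p A (root A) (root B) u (length_root A)]
  constructor
  · intro h
    have h1 := congrArg Prod.fst h
    have h2 := congrArg Prod.snd h
    simp only at h1 h2
    have hlen : (runT p A (root A) u).1.length = (root A).length := by
      rw [length_runT, length_root]
    obtain ⟨h3, h4⟩ := List.append_inj h1 hlen
    exact ⟨(runT p A (root A) u).2, Prod.ext h3 rfl, Prod.ext h4 h2⟩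
  · rintro ⟨c, h1, h2⟩
    rw [h1]
    simp only [h2]

end

end Vale.Agent.Lib.P329.Tw
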