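import Vale.Agent.Lib.P329.Tw.ParseA

/-! Parsing lemmas: exactness, self-parse, prefix-freeness. -/

namespace Vale.Agent.Lib.P329.Tw

open Classical

noncomputable section

variable {S : Type} (p : ℕ)

namespace ParseBAux

/-- The three shapes of one step. -/
lemma next_cases (R : Rule S) (a : List (Tok S)) (t : Tok S) :
    next p R a t = (a ++ [t], none) ∨ next p R a t = ([], some (.node (a ++ [t]))) ∨
      ∃ Q K, R = .L Q K ∧ t = Q ∧ K ≤ a.length ∧ next p R a t = (a, none) := by
  cases R with
  | T =>
    simp only [next]
    split_ifs <;> simp
  | L Q K =>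
    simp only [next]
    by_cases h : t = Q
    · by_cases h2 : a.length < K
      · simp [h, h2]
      · right; right
        exact ⟨Q, K, rfl, h, by omega, by simp [h, h2]⟩
    · simp [h]
  | R U K large =>
    simp only [next]
    split_ifs <;> simp

lemma noOverR_cons (R : Rule S) (a : List (Tok S)) (t : Tok S) (l : List (Tok S)) :
    noOverR p R a (t :: l) ↔
      (∀ Q K, R = .L Q K → ¬ (t = Q ∧ K ≤ a.length)) ∧ noOverR p R (next p R a t).1 l := by
  cases R <;> simp [noOverR]

@[simp] lemma noOverR_nil (R : Rule S) (a : List (Tok S)) : noOverR p R a [] := by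
  simp [noOverR]

lemma noOverR_append (R : Rule S) (a l₁ l₂ : List (Tok S)) :
    noOverR p R a (l₁ ++ l₂) ↔ noOverR p R a l₁ ∧ noOverR p R (runR p R a l₁).1 l₂ := by
  induction l₁ generalizing a with
  | nil => simp
  | cons t l ih =>
    rw [List.cons_append, noOverR_cons, noOverR_cons, ih, runR_cons]
    tauto

lemma next_L_over (Q : Tok S) (K : ℕ) (a : List (Tok S)) (h : K ≤ a.length) :
    next p (.L Q K) a Q = (a, none) := by
  have : ¬ a.length < K := by omega
  simp [next, this]

/-- Rule-level conservation. -/
lemma runR_conservation (R : Rule S) (a l : List (Tok S)) (h : noOverR p R a l) :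
    a ++ l = (runR p R a l).2.flatMap kids ++ (runR p R a l).1 := by
  induction l generalizing a with
  | nil => simp
  | cons t l ih =>
    rw [noOverR_cons] at h
    rw [runR_cons]
    have h2 := ih _ h.2
    rcases next_cases p R a t with hc | hc | ⟨Q, K, hR, ht, hK, hc⟩
    · rw [hc] at h2 ⊢
      simpa using h2
    · rw [hc] at h2 ⊢
      simpa using h2
    · exact absurd ⟨ht, hK⟩ (h.1 Q K hR)

/-- Segment of a cons tower. -/
lemma seg_cons (R : Rule S) (Rs : List (Rule S)) (u : List (Tok S)) (t : Tok S) :
    Seg p (R :: Rs) u t ↔ (runR p R [] u).1 = [] ∧ Seg p Rs (runR p R [] u).2 t := by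
  unfold Seg
  rw [root_cons, runT_cons]
  simp only [List.headD_cons, List.tail_cons, List.cons.injEq, Prod.ext_iff]
  tauto

lemma seg_nil (u : List (Tok S)) (t : Tok S) : Seg p ([] : List (Rule S)) u t ↔ u = [t] := by
  simp [Seg]

lemma noOver_cons_root (R : Rule S) (Rs : List (Rule S)) (u : List (Tok S)) :
    NoOver p (R :: Rs) (root (R :: Rs)) u ↔
      noOverR p R [] u ∧ NoOver p Rs (root Rs) (runR p R [] u).2 := by
  simp [NoOver]

/-- A pending list that replays itself from the empty pending list. -/
def Good (R : Rule S) (a : List (Tok S)) : Prop :=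
  runR p R [] a = (a, []) ∧ noOverR p R [] a

lemma good_nil (R : Rule S) : Good p R [] := by simp [Good]

/-- A replayable output. -/
def GoodOut (R : Rule S) (y : Tok S) : Prop :=
  runR p R [] (kids y) = ([], [y]) ∧ noOverR p R [] (kids y)

/-- Reachable pending lists replay, and all outputs replay. -/
lemma runR_good (R : Rule S) (a l : List (Tok S)) (ha : Good p R a) :
    Good p R (runR p R a l).1 ∧ ∀ y ∈ (runR p R a l).2, GoodOut p R y := by
  induction l generalizing a with
  | nil => simpa using ha
  | cons t l ih =>
    rw [runR_cons]
    obtain ⟨ha1, ha2⟩ := ha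
    rcases next_cases p R a t with hc | hc | ⟨Q, K, hR, ht, hK, hc⟩
    · -- appended
      have hg : Good p R (a ++ [t]) := by
        constructor
        · rw [runR_append, ha1]
          simp [runR_cons, hc]
        · rw [noOverR_append, ha1]
          refine ⟨ha2, ?_⟩
          rw [noOverR_cons]
          refine ⟨?_, by simp⟩
          -- the step appended, so no overrun happens
          rintro Q K rfl ⟨rfl, hK⟩
          rw [next_L_over p t K a hK] at hc
          have := congrArg (fun x => x.1.length) hc
          simp at this
      have := ih (a ++ [t]) hg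
      rw [hc]
      simpa using this
    · have hg : GoodOut p R (.node (a ++ [t])) := by
        constructor
        · simp only [kids_node]
          rw [runR_append, ha1]
          simp [runR_cons, hc]
        · simp only [kids_node]
          rw [noOverR_append, ha1]
          refine ⟨ha2, ?_⟩
          rw [noOverR_cons]
          refine ⟨?_, by simp⟩
          rintro Q K rfl ⟨rfl, hK⟩
          rw [next_L_over p t K a hK] at hc
          have := congrArg (fun x => x.2) hc
          simp at this
      have := ih [] (good_nil p R)
      rw [hc]
      simp only [Option.toList_some, List.singleton_append, List.mem_cons]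
      refine ⟨this.1, ?_⟩
      rintro y (rfl | hy)
      · exact hg
      · exact this.2 y hy
    · have := ih a ⟨ha1, ha2⟩
      rw [hc]
      simpa using this

/-- Replay of a list of replayable outputs. -/
lemma runR_flatMap_kids (R : Rule S) (v : List (Tok S)) (h : ∀ y ∈ v, GoodOut p R y) :
    runR p R [] (v.flatMap kids) = ([], v) ∧ noOverR p R [] (v.flatMap kids) := by
  induction v with
  | nil => simp
  | cons y v ih =>
    have h1 := h y (by simp)
    have h2 := ih (fun z hz => h z (by simp [hz]))
    rw [List.flatMap_cons, runR_append, h1.1, noOverR_append, h1.1]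
    simp [h2.1, h2.2, h1.2]

/-- Kids of outputs come from the input. -/
lemma runR_kids_subset (R : Rule S) (a l : List (Tok S)) :
    (∀ y ∈ (runR p R a l).2, ∀ c ∈ kids y, c ∈ a ∨ c ∈ l) ∧
      ∀ c ∈ (runR p R a l).1, c ∈ a ∨ c ∈ l := by
  induction l generalizing a with
  | nil => simp
  | cons t l ih =>
    rw [runR_cons]
    rcases next_cases p R a t with hc | hc | ⟨Q, K, hR, ht, hK, hc⟩
    · rw [hc]
      have := ih (a ++ [t])
      simp only [Option.toList_none, List.nil_append]
      constructor
      · intro y hy c hcy
        have h3 := this.1 y hy c hcy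
        simp only [List.mem_append, List.mem_singleton] at h3
        simp only [List.mem_cons]
        tauto
      · intro c hcy
        have h3 := this.2 c hcy
        simp only [List.mem_append, List.mem_singleton] at h3
        simp only [List.mem_cons]
        tauto
    · rw [hc]
      have := ih []
      simp only [Option.toList_some, List.singleton_append, List.mem_cons]
      constructor
      · rintro y (rfl | hy) c hcy
        · simp only [kids_node, List.mem_append, List.mem_singleton] at hcy
          tauto
        · have h3 := this.1 y hy c hcy
          simp only [List.not_mem_nil, false_or] at h3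
          tauto
      · intro c hcy
        have h3 := this.2 c hcy
        simp only [List.not_mem_nil, false_or] at h3
        tauto
    · rw [hc]
      have := ih a
      simp only [Option.toList_none, List.nil_append, List.mem_cons]
      constructor
      · intro y hy c hcy
        have h3 := this.1 y hy c hcy
        tauto
      · intro c hcy
        have h3 := this.2 c hcy
        tauto

/-- Pending invariant of the run-limit rule. -/
def PendOK (R : Rule S) (a : List (Tok S)) : Prop :=
  ∀ Q K, R = .L Q K → ∀ x ∈ a, x = Q

/-- Every token read is recorded, when the cap of the rule is positive. -/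
lemma runR_tokens (R : Rule S) (hK : ∀ Q K, R = .L Q K → 1 ≤ K) (a l : List (Tok S))
    (ha : PendOK R a) :
    ∀ c, (c ∈ a ∨ c ∈ l) → (∃ y ∈ (runR p R a l).2, c ∈ kids y) ∨ c ∈ (runR p R a l).1 := by
  induction l generalizing a with
  | nil =>
    intro c hc
    simp only [runR_nil, List.not_mem_nil, or_false] at hc ⊢
    exact Or.inr hc
  | cons t l ih =>
    rw [runR_cons]
    rcases next_cases p R a t with hc | hc | ⟨Q, K, hR, ht, hK', hc⟩
    · -- appended
      have hok : PendOK R (a ++ [t]) := by
        rintro Q K rfl x hx
        simp only [List.mem_append, List.mem_singleton] at hx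
        rcases hx with hx | rfl
        · exact ha Q K rfl x hx
        · -- an append step on a run-limit rule reads the token Q
          by_contra hne
          simp only [next, if_neg hne] at hc
          simp at hc
      rw [hc]
      intro c hcc
      simp only [Option.toList_none, List.nil_append]
      apply ih (a ++ [t]) hok c
      simp only [List.mem_cons] at hcc
      simp only [List.mem_append, List.mem_singleton]
      tauto
    · rw [hc]
      intro c hcc
      simp only [Option.toList_some, List.singleton_append, List.mem_cons]
      simp only [List.mem_cons] at hcc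
      rcases hcc with hcc | hcc | hcc
      · left; exact ⟨_, Or.inl rfl, by simp [hcc]⟩
      · left; exact ⟨_, Or.inl rfl, by simp [hcc]⟩
      · have h3 := ih [] (fun Q K _ x hx => by simp at hx) c (Or.inr hcc)
        rcases h3 with ⟨y, hy, hcy⟩ | h3
        · left; exact ⟨y, Or.inr hy, hcy⟩
        · right; exact h3
    · rw [hc]
      intro c hcc
      simp only [Option.toList_none, List.nil_append]
      apply ih a ha c
      simp only [List.mem_cons] at hcc
      rcases hcc with hcc | hcc | hcc
      · exact Or.inl hcc
      · -- the token is `Q` and the pending list is nonempty, all `Q`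
        subst hcc
        have hpos := hK Q K hR
        have hne : a ≠ [] := by
          intro h0; simp [h0] at hK'; omega
        obtain ⟨x, hx⟩ := List.exists_mem_of_ne_nil a hne
        have := ha Q K hR x hx
        left
        rw [ht, ← this]
        exact hx
      · exact Or.inr hcc

/-- Segment ending in an empty pending list: every token read is a kid of an output. -/
lemma runR_tokens_root (R : Rule S) (hK : ∀ Q K, R = .L Q K → 1 ≤ K) (u : List (Tok S))
    (h : (runR p R [] u).1 = []) : ∀ c ∈ u, ∃ y ∈ (runR p R [] u).2, c ∈ kids y := by
  intro c hc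
  have h3 := runR_tokens p R hK [] u (fun Q K _ x hx => by simp at hx) c (Or.inr hc)
  rcases h3 with h3 | h3
  · exact h3
  · rw [h] at h3; simp at h3

end ParseBAux

open ParseBAux

/-- Exactness: a segment without overrun is the expansion. -/
theorem seg_exact (spec : List (Rule S)) (u : List (Tok S)) (t : Tok S) (h : Seg p spec u t)
    (hn : NoOver p spec (root spec) u) : u = ex spec t := by
  induction spec generalizing u t with
  | nil => simpa [ex] using (seg_nil p u t).1 h
  | cons R Rs ih =>
    obtain ⟨h1, h2⟩ := (seg_cons p R Rs u t).1 h
    obtain ⟨n1, n2⟩ := (noOver_cons_root p R Rs u).1 hn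
    have h3 := ih _ _ h2 n2
    have h4 := runR_conservation p R [] u n1
    rw [h1, h3] at h4
    simpa [ex] using h4

/-- The tokens of the expansion occur in every segment. -/
theorem ex_subset (spec : List (Rule S)) (u : List (Tok S)) (t : Tok S) (h : Seg p spec u t) :
    ∀ c ∈ ex spec t, c ∈ u := by
  induction spec generalizing u t with
  | nil =>
    have := (seg_nil p u t).1 h
    intro c hc
    simpa [ex, this] using hc
  | cons R Rs ih =>
    obtain ⟨h1, h2⟩ := (seg_cons p R Rs u t).1 h
    intro c hc
    simp only [ex, List.mem_flatMap] at hc
    obtain ⟨y, hy, hcy⟩ := hc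
    have h3 := ih _ _ h2 y hy
    have h4 := (runR_kids_subset p R [] u).1 y h3 c hcy
    simpa using h4

/-- Self-parse: the expansion of an emitted token is a segment, without overrun. -/
theorem seg_self (spec : List (Rule S)) (u : List (Tok S)) (t : Tok S) (h : Seg p spec u t) :
    Seg p spec (ex spec t) t ∧ NoOver p spec (root spec) (ex spec t) := by
  induction spec generalizing u t with
  | nil =>
    constructor
    · simp [ex, seg_nil]
    · simp [NoOver]
  | cons R Rs ih =>
    obtain ⟨h1, h2⟩ := (seg_cons p R Rs u t).1 h
    obtain ⟨i1, i2⟩ := ih _ _ h2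
    have hgood : ∀ y ∈ ex Rs t, GoodOut p R y := by
      intro y hy
      exact (runR_good p R [] u (good_nil p R)).2 y (ex_subset p Rs _ t h2 y hy)
    have h3 := runR_flatMap_kids p R (ex Rs t) hgood
    have hex : ex (R :: Rs) t = (ex Rs t).flatMap kids := by simp [ex]
    rw [hex]
    constructor
    · rw [seg_cons, h3.1]
      exact ⟨rfl, i1⟩
    · rw [noOver_cons_root, h3.1]
      exact ⟨h3.2, i2⟩

/-- With positive caps, the tokens of every segment occur in the expansion. -/
theorem seg_tokens (spec : List (Rule S)) (hspec : PosK spec) (u : List (Tok S)) (t : Tok S)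
    (h : Seg p spec u t) : ∀ c ∈ u, c ∈ ex spec t := by
  induction spec generalizing u t with
  | nil =>
    have := (seg_nil p u t).1 h
    intro c hc
    simpa [ex, this] using hc
  | cons R Rs ih =>
    obtain ⟨h1, h2⟩ := (seg_cons p R Rs u t).1 h
    intro c hc
    have hK : ∀ Q K, R = .L Q K → 1 ≤ K := by
      rintro Q K rfl
      exact hspec Q K (by simp)
    obtain ⟨y, hy, hcy⟩ := runR_tokens_root p R hK u h1 c hc
    have h3 := ih hspec.tail _ _ h2 y hy
    simp only [ex, List.mem_flatMap]
    exact ⟨y, h3, hcy⟩

/-- Prefix-freeness of expansions of emitted tokens. -/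
theorem prefix_free (spec : List (Rule S)) (u u' : List (Tok S)) (t t' : Tok S)
    (h : Seg p spec u t) (h' : Seg p spec u' t') (hp : ex spec t <+: ex spec t') : t = t' := by
  obtain ⟨w, hw⟩ := hp
  have s1 := (seg_self p spec u t h).1
  have s2 := (seg_self p spec u' t' h').1
  unfold Seg at s1 s2
  rw [← hw, runT_append, s1] at s2
  have := congrArg Prod.snd s2
  simpa using (List.cons_eq_cons.1 this).1

/-- Expansions of a list of emitted tokens parse back to the list. -/
theorem parse_flatMap (spec : List (Rule S)) (cs : List (Tok S))
    (h : ∀ c ∈ cs, Seg p spec (ex spec c) c) :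
    runT p spec (root spec) (cs.flatMap (ex spec)) = (root spec, cs) := by
  induction cs with
  | nil => simpa using runT_nil_word p spec (root spec) (by simp)
  | cons c cs ih =>
    have h1 := h c (by simp)
    have h2 := ih (fun z hz => h z (by simp [hz]))
    unfold Seg at h1
    rw [List.flatMap_cons, runT_append, h1, h2]
    simp

end

end Vale.Agent.Lib.P329.Tw
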