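import Vale.Agent.Lib.P329.Tw.ParseB

/-! Rule-level lemmas: overrun, run-limit rules, periodic runs. -/

namespace Vale.Agent.Lib.P329.Tw

open Classical

noncomputable section

variable {S : Type} (p : ℕ)

theorem noOverR_of_ne_L (R : Rule S) (hR : ∀ Q K, R ≠ Rule.L Q K) (a l : List (Tok S)) :
    noOverR p R a l := by
  induction l generalizing a with
  | nil => trivial
  | cons t l ih =>
    refine ⟨?_, ih _⟩
    cases R with
    | T => trivial
    | L Q K => exact absurd rfl (hR Q K)
    | R U K b => trivial

/-- The first overrun level. -/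
theorem exists_first_over (spec : List (Rule S)) (s : List (List (Tok S))) (l : List (Tok S))
    (h : ¬ NoOver p spec s l) :
    ∃ pre Q K post, spec = pre ++ Rule.L Q K :: post ∧ NoOver p pre s l ∧
      ¬ noOverR p (Rule.L Q K) ((s.drop pre.length).headD []) (runT p pre s l).2 := by
  induction spec generalizing s l with
  | nil => exact absurd trivial h
  | cons R Rs ih =>
    by_cases h1 : noOverR p R (s.headD []) l
    · have h2 : ¬ NoOver p Rs s.tail (runR p R (s.headD []) l).2 := fun h3 => h ⟨h1, h3⟩
      obtain ⟨pre, Q, K, post, hsp, hn, ho⟩ := ih _ _ h2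
      refine ⟨R :: pre, Q, K, post, by rw [hsp]; rfl, ⟨h1, hn⟩, ?_⟩
      have hdrop : s.drop (R :: pre).length = s.tail.drop pre.length := by
        simp only [List.length_cons]
        cases s <;> simp
      rw [hdrop, runT_cons]
      exact ho
    · cases R with
      | T => exact absurd (noOverR_of_ne_L p _ (fun _ _ h => by cases h) _ _) h1
      | R U K b => exact absurd (noOverR_of_ne_L p _ (fun _ _ h => by cases h) _ _) h1
      | L Q K =>
        refine ⟨[], Q, K, Rs, rfl, trivial, ?_⟩
        simpa using h1

lemma next_L_ne (Q : Tok S) (K : ℕ) (a : List (Tok S)) (t : Tok S) (ht : t ≠ Q) :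
    next p (Rule.L Q K) a t = ([], some (.node (a ++ [t]))) := by
  simp [next, ht]

lemma next_L_eq_lt (Q : Tok S) (K : ℕ) (a : List (Tok S)) (h : a.length < K) :
    next p (Rule.L Q K) a Q = (a ++ [Q], none) := by
  simp [next, h]

lemma next_L_eq_ge (Q : Tok S) (K : ℕ) (a : List (Tok S)) (h : K ≤ a.length) :
    next p (Rule.L Q K) a Q = (a, none) := by
  simp [next, not_lt.mpr h]

lemma replicate_split (Q : Tok S) (m K : ℕ) (hm : K + 1 ≤ m) (c₂ : List (Tok S)) :
    List.replicate m Q ++ c₂ = List.replicate (K + 1) Q ++ (List.replicate (m - (K + 1)) Q ++ c₂) := by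
  rw [← List.append_assoc, ← List.replicate_add]
  congr 2
  omega

theorem over_aux (Q : Tok S) (K : ℕ) (c : List (Tok S)) (r : ℕ) (hr : r ≤ K)
    (h : ¬ noOverR p (Rule.L Q K) (List.replicate r Q) c) :
    (∃ m c₂, c = List.replicate m Q ++ c₂ ∧ K + 1 ≤ r + m) ∨
      ∃ c₁ c₂, c = c₁ ++ List.replicate (K + 1) Q ++ c₂ := by
  induction c generalizing r with
  | nil => exact absurd trivial h
  | cons t l ih =>
    by_cases h1 : t = Q ∧ K ≤ r
    · left
      refine ⟨1, l, by simp [h1.1], by omega⟩
    · have h2 : ¬ noOverR p (Rule.L Q K) (next p (Rule.L Q K) (List.replicate r Q) t).1 l := by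
        intro h3
        refine h ⟨?_, h3⟩
        simpa using h1
      by_cases ht : t = Q
      · subst ht
        have hlt : r < K := by
          by_contra hc
          exact h1 ⟨rfl, by omega⟩
        rw [next_L_eq_lt p t K _ (by simpa using hlt)] at h2
        have hrep : List.replicate r t ++ [t] = List.replicate (r + 1) t := by
          rw [List.replicate_succ']
        simp only [hrep] at h2
        rcases ih (r + 1) (by omega) h2 with ⟨m, c₂, hc, hm⟩ | ⟨c₁, c₂, hc⟩
        · left
          refine ⟨m + 1, c₂, ?_, by omega⟩
          rw [hc, List.replicate_succ]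
          simp
        · right
          exact ⟨t :: c₁, c₂, by rw [hc]; simp⟩
      · rw [next_L_ne p Q K _ t ht] at h2
        have h0 : ¬ noOverR p (Rule.L Q K) (List.replicate 0 Q) l := by simpa using h2
        rcases ih 0 (Nat.zero_le _) h0 with ⟨m, c₂, hc, hm⟩ | ⟨c₁, c₂, hc⟩
        · right
          refine ⟨[t], List.replicate (m - (K + 1)) Q ++ c₂, ?_⟩
          rw [hc, replicate_split Q m K (by omega) c₂]
          simp
        · right
          exact ⟨t :: c₁, c₂, by rw [hc]; simp⟩

/-- An overrun from the empty pending list exhibits `K + 1` consecutive copies. -/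
theorem over_split (Q : Tok S) (K : ℕ) (c : List (Tok S))
    (h : ¬ noOverR p (Rule.L Q K) [] c) :
    ∃ c₁ c₂, c = c₁ ++ List.replicate (K + 1) Q ++ c₂ := by
  have h0 : ¬ noOverR p (Rule.L Q K) (List.replicate 0 Q) c := by simpa using h
  rcases over_aux p Q K c 0 (Nat.zero_le _) h0 with ⟨m, c₂, hc, hm⟩ | hr
  · refine ⟨[], List.replicate (m - (K + 1)) Q ++ c₂, ?_⟩
    rw [hc, replicate_split Q m K (by omega) c₂]
    simp
  · exact hr

/-- A run-limit rule without output has only `Q` as input. -/
theorem L_no_emit (Q : Tok S) (K : ℕ) (a c : List (Tok S))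
    (h : (runR p (Rule.L Q K) a c).2 = []) : c = List.replicate c.length Q := by
  induction c generalizing a with
  | nil => simp
  | cons t l ih =>
    rw [runR_cons] at h
    by_cases ht : t = Q
    · subst ht
      have h2 : (runR p (Rule.L t K) (next p (Rule.L t K) a t).1 l).2 = [] := by
        have h3 : (next p (Rule.L t K) a t).2 = none := by
          by_cases hlt : a.length < K
          · rw [next_L_eq_lt p t K a hlt]
          · rw [next_L_eq_ge p t K a (by omega)]
        simpa [h3] using h
      have := ih _ h2
      rw [List.length_cons, List.replicate_succ, ← this]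
    · rw [next_L_ne p Q K a t ht] at h
      simp at h

lemma runR_append_fst (R : Rule S) (a l₁ l₂ : List (Tok S)) :
    (runR p R a (l₁ ++ l₂)).1 = (runR p R (runR p R a l₁).1 l₂).1 := by
  rw [runR_append]

theorem L_prefix (Q : Tok S) (K : ℕ) (a l : List (Tok S)) (hl : ∀ t ∈ l, t = Q) :
    a <+: (runR p (Rule.L Q K) a l).1 := by
  induction l generalizing a with
  | nil => simp
  | cons t l ih =>
    have ht : t = Q := hl t (by simp)
    subst ht
    rw [runR_cons]
    have hl' : ∀ x ∈ l, x = t := fun x hx => hl x (by simp [hx])
    by_cases hlt : a.length < K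
    · rw [next_L_eq_lt p t K a hlt]
      exact (List.prefix_append a [t]).trans (ih _ hl')
    · rw [next_L_eq_ge p t K a (by omega)]
      exact ih _ hl'

lemma mem_of_mem_pw {α : Type} (j : ℕ) (τ : List α) (t : α) (ht : t ∈ pw j τ) : t ∈ τ := by
  induction j with
  | zero => simp at ht
  | succ j ih =>
    rw [pw_succ, List.mem_append] at ht
    rcases ht with ht | ht
    · exact ht
    · exact ih ht

/-- A run-limit rule: periodic pending lists are fixed. -/
theorem L_fixed (Q : Tok S) (K : ℕ) (a τ : List (Tok S)) (k : ℕ) (hk : 1 ≤ k)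
    (h : (runR p (Rule.L Q K) a (pw k τ)).1 = a) : (runR p (Rule.L Q K) a τ).1 = a := by
  obtain ⟨j, rfl⟩ : ∃ j, k = j + 1 := ⟨k - 1, by omega⟩
  by_cases hQ : ∀ t ∈ τ, t = Q
  · -- all letters are `Q`: pending lists only grow
    have hpwQ : ∀ t ∈ pw j τ, t = Q := fun t ht => hQ t (mem_of_mem_pw j τ t ht)
    have h1 : a <+: (runR p (Rule.L Q K) a τ).1 := L_prefix p Q K a τ hQ
    have h2 : (runR p (Rule.L Q K) a τ).1 <+:
        (runR p (Rule.L Q K) (runR p (Rule.L Q K) a τ).1 (pw j τ)).1 :=
      L_prefix p Q K _ _ hpwQ
    rw [pw_succ, runR_append_fst] at h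
    rw [h] at h2
    exact (h1.eq_of_length_le h2.length_le).symm
  · -- a letter different from `Q` resets the pending list
    push Not at hQ
    obtain ⟨t, ht, htQ⟩ := hQ
    obtain ⟨c₁, c₂, hτ⟩ := List.append_of_mem ht
    have hconst : ∀ b : List (Tok S), (runR p (Rule.L Q K) b τ).1 = (runR p (Rule.L Q K) [] c₂).1 := by
      intro b
      rw [hτ, runR_append_fst, runR_cons, next_L_ne p Q K _ t htQ]
    rw [pw_succ', runR_append_fst, hconst] at h
    rw [hconst, h]

/-- Tuple and flush rules without output and returning to the same pending list read nothing. -/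
theorem progress (R : Rule S) (hR : ∀ Q K, R ≠ Rule.L Q K) (a c : List (Tok S))
    (h : (runR p R a c).2 = []) (h' : (runR p R a c).1 = a) : c = [] := by
  have key : ∀ (a c : List (Tok S)), (runR p R a c).2 = [] → (runR p R a c).1 = a ++ c := by
    intro a c
    induction c generalizing a with
    | nil => simp
    | cons t l ih =>
      rw [runR_cons]
      intro h2
      cases R with
      | L Q K => exact absurd rfl (hR Q K)
      | T =>
        by_cases hp : p ≤ a.length + 1
        · simp [next, hp] at h2
        · have hn : next p (Rule.T : Rule S) a t = (a ++ [t], none) := by simp [next, hp]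
          rw [hn] at h2 ⊢
          simpa using ih (a ++ [t]) (by simpa using h2)
      | R U K b =>
        by_cases htU : t = U
        · by_cases hK : K (actives U a) ≤ trail U a + 1
          · subst htU
            simp [next, hK] at h2
          · have hn : next p (Rule.R U K b) a t = (a ++ [t], none) := by
              simp [next, htU, hK]
            rw [hn] at h2 ⊢
            simpa using ih (a ++ [t]) (by simpa using h2)
        · by_cases hp : p ≤ actives U a + 1
          · simp [next, htU, hp] at h2
          · have hn : next p (Rule.R U K b) a t = (a ++ [t], none) := by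
              simp [next, htU, hp]
            rw [hn] at h2 ⊢
            simpa using ih (a ++ [t]) (by simpa using h2)
  have h3 := key a c h
  rw [h'] at h3
  simpa using h3.symm

/-- If a rule run on `τ` returns to `a`, then on powers it emits powers. -/
theorem runR_pw_fixed (R : Rule S) (a τ : List (Tok S)) (k : ℕ)
    (h : (runR p R a τ).1 = a) : runR p R a (pw k τ) = (a, pw k (runR p R a τ).2) := by
  induction k with
  | zero => simp
  | succ k ih =>
    rw [pw_succ, runR_append, h, ih, pw_succ]

/-- Similarly for towers. -/
theorem runT_pw_fixed (spec : List (Rule S)) (s : List (List (Tok S))) (τ : List (Tok S)) (k : ℕ)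
    (h : (runT p spec s τ).1 = s) : runT p spec s (pw k τ) = (s, pw k (runT p spec s τ).2) := by
  induction k with
  | zero =>
    have hl : s.length = spec.length := by rw [← h]; exact length_runT p _ _ _
    simpa using runT_nil_word p spec s hl
  | succ k ih =>
    rw [pw_succ, runT_append, h, ih, pw_succ]

end

end Vale.Agent.Lib.P329.Tw
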