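import Vale.Agent.Lib.P329.Tw.WindowD

/-! Rigidity of a long power inside a cycle. -/

namespace Vale.Agent.Lib.P329.Tw

open Classical

noncomputable section

variable {S : Type} (p : ℕ)

/-- Admissible towers have positive caps. -/
theorem Adm.posK {H : ℕ} {spec : List (Rule S)} (h : Adm p H spec) : PosK spec := by
  intro Q K hm
  obtain ⟨A, B, rfl⟩ := List.append_of_mem hm
  have h1 := h.2 [] A (Rule.L Q K) B (by simp)
  have h2 : KB p H ≤ K := h1.2.2
  have h3 : 1 ≤ KB p H := by simp [KB]
  omega

/-- Passing to the upper part of an admissible tower. -/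
theorem Adm.tail {H : ℕ} {R : Rule S} {Rs : List (Rule S)} (h : Adm p H (R :: Rs)) : Adm p H Rs := by
  refine ⟨by have := h.1; simp at this; omega, ?_⟩
  intro base pre R' post he
  exact h.2 (R :: base) pre R' post (by simp [he])

/-- The special token of a lower rule gives an item. -/
theorem mem_items (A : List (Rule S)) (R : Rule S) (B : List (Rule S)) (Q : Tok S)
    (h : special R = some Q) : ex A Q ∈ items (A ++ R :: B) := by
  induction A with
  | nil =>
    simp [items, h, ex]
  | cons R' Rs ih =>
    simp only [List.cons_append, items, ex]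
    apply List.mem_append_right
    exact List.mem_map.2 ⟨_, ih, rfl⟩

/-- Monotonicity of the constants. -/
theorem Cc_mono (hp : 1 ≤ p) {i j : ℕ} (h : i ≤ j) : Cc p i ≤ Cc p j := by
  apply monotone_nat_of_le_succ _ h
  intro n
  show Cc p n ≤ (2 * p + 2) * (Cc p n + 3)
  nlinarith

/-- Forall₂ along a list with a marked element. -/
private lemma forall2_mem_split {α β : Type} {R : α → β → Prop} {us : List α} {cs : List β} {t : β}
    (h : List.Forall₂ R us cs) (ht : t ∈ cs) :
    ∃ us₁ u us₂ cs₁ cs₂, us = us₁ ++ u :: us₂ ∧ cs = cs₁ ++ t :: cs₂ ∧ R u t ∧ List.Forall₂ R us₁ cs₁ := by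
  induction h with
  | nil => simp at ht
  | @cons a b l₁ l₂ hab _ ih =>
    by_cases hb : t = b
    · subst hb
      exact ⟨[], a, l₁, [], l₂, rfl, rfl, hab, List.Forall₂.nil⟩
    · have : t ∈ l₂ := by
        rcases List.mem_cons.1 ht with h | h
        · exact absurd h hb
        · exact h
      obtain ⟨us₁, u, us₂, cs₁, cs₂, h1, h2, h3, h4⟩ := ih this
      exact ⟨a :: us₁, u, us₂, b :: cs₁, cs₂, by simp [h1], by simp [h2], h3, List.Forall₂.cons hab h4⟩

/-- A concatenation of segments runs from the root to the root. -/
private lemma run_flatten_segs (spec : List (Rule S)) {us : List (List (Tok S))} {cs : List (Tok S)}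
    (h : List.Forall₂ (fun u t => Seg p spec u t) us cs) :
    runT p spec (root spec) us.flatten = (root spec, cs) := by
  induction h with
  | nil =>
    simp only [List.flatten_nil]
    exact runT_nil_word p spec _ (by simp)
  | @cons a b l₁ l₂ hab _ ih =>
    simp only [List.flatten_cons]
    rw [runT_append, hab]
    simp only [ih]
    simp

/-- Rigidity: if a tower reads `ρ ^ (K + 1)` from `s`, its lower state meets the root at a power
of `ρ`, provided its lower levels have no overrun and all its top outputs are `y`,
a token whose segments contain `Q`. -/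
theorem rigid {H : ℕ} (hp : 1 ≤ p) {pre post : List (Rule S)} {Q : Tok S} {K : ℕ}
    (hAdm : Adm p H (pre ++ Rule.L Q K :: post)) (y : Tok S)
    (hy : ∀ u, Seg p (pre ++ Rule.L Q K :: post) u y → Q ∈ (runT p pre (root pre) u).2)
    (s : List (List (Tok S))) (hn : NoOver p pre s (pw (K + 1) (ex pre Q)))
    (hQ : Seg p pre (ex pre Q) Q)
    (hall : ∀ e ∈ (runT p (pre ++ Rule.L Q K :: post) s (pw (K + 1) (ex pre Q))).2, e = y) :
    ∃ q X₂, pw (K + 1) (ex pre Q) = pw q (ex pre Q) ++ X₂ ∧
      (runT p pre s (pw q (ex pre Q))).1 = root pre := by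
  by_contra hcon
  set ρ := ex pre Q with hρdef
  set X := pw (K + 1) ρ with hXdef
  have hPos : PosK (pre ++ Rule.L Q K :: post) := hAdm.posK
  have hChk : Prim ρ ∧ (∀ z ∈ items pre, ¬ PCong ρ z ∧ z.length < K) ∧ KB p H ≤ K :=
    hAdm.2 [] pre (Rule.L Q K) post (by simp)
  have hρ : Prim ρ := hChk.1
  have hK : KB p H ≤ K := hChk.2.2
  have hK1 : 1 ≤ K := by
    have : 1 ≤ KB p H := by simp [KB]
    omega
  have hinf : X <:+: pw (K + 1) ρ := List.infix_refl _
  -- Step 1
  have hTail : TailNo p pre Q s X := by
    intro t ht htQ
    subst htQ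
    rcases hst : (runT p pre s X).2 with _ | ⟨c, cs⟩
    · rw [hst] at ht; simp at ht
    rw [hst] at ht
    have ht' : t ∈ cs := by simpa using ht
    obtain ⟨u, w, hX, hu, hw⟩ := first_emit p pre s X c cs hst
    obtain ⟨us, r, hw', hF, -⟩ := segments_gen p pre w cs (by rw [hw])
    obtain ⟨us₁, u', us₂, cs₁, cs₂, h1, -, h3, h4⟩ := forall2_mem_split hF ht'
    have hX' : X = (u ++ us₁.flatten) ++ u' ++ (us₂.flatten ++ r) := by
      rw [hX, hw', h1]
      simp [List.flatten_append, List.append_assoc]
    have hst1 : (runT p pre s (u ++ us₁.flatten)).1 = root pre := by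
      rw [runT_append, hu]
      simp only
      rw [run_flatten_segs p pre h4]
    have hn' : NoOver p pre s ((u ++ us₁.flatten) ++ (u' ++ (us₂.flatten ++ r))) := by
      have : (u ++ us₁.flatten) ++ (u' ++ (us₂.flatten ++ r)) = X := by
        rw [hX']; simp [List.append_assoc]
      rw [this]; exact hn
    have hn2 := ((NoOver_append p pre s _ _).1 hn').2
    rw [hst1] at hn2
    have hn3 := ((NoOver_append p pre (root pre) _ _).1 hn2).1
    have hu' : u' = ρ := seg_exact p pre u' t h3 hn3
    subst hu'
    obtain ⟨q, hq⟩ := prim_align hρ (X₁ := u ++ us₁.flatten) (X₂ := us₂.flatten ++ r) (N := K + 1)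
      (by rw [← hXdef]; exact hX')
    apply hcon
    refine ⟨q, ρ ++ (us₂.flatten ++ r), ?_, ?_⟩
    · rw [← hq, hX']; simp [List.append_assoc]
    · rw [← hq]; exact hst1
  -- Step 2
  have hEx : ∀ A B, pre ++ Rule.L Q K :: post = A ++ B → InExact p A s X := by
    have key : ∀ A', (∃ B', post = A' ++ B') → InExact p (pre ++ Rule.L Q K :: A') s X := by
      intro A'
      induction A' using List.reverseRecOn with
      | nil =>
        intro _
        have := inExact_snoc p hρ pre hPos.left (Rule.L Q K) s X (K + 1) hinf (NoOver.inExact p hn)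
          (Or.inr ⟨hK1, hTail⟩)
        simpa using this
      | append_singleton A' R ih =>
        rintro ⟨B', hB'⟩
        have h1 := ih ⟨R :: B', by rw [hB']; simp⟩
        have h2 : pre ++ Rule.L Q K :: post = (pre ++ Rule.L Q K :: A') ++ [R] ++ B' := by
          rw [hB']; simp
        have hposA : PosK (pre ++ Rule.L Q K :: A') := by
          rw [h2] at hPos
          exact hPos.left.left
        have hmem : ρ ∈ items (pre ++ Rule.L Q K :: A') := mem_items pre (Rule.L Q K) A' Q rfl
        have h3 := inExact_snoc p hρ (pre ++ Rule.L Q K :: A') hposA R s X (K + 1) hinf h1 (by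
          cases R with
          | T => trivial
          | L Q' K' =>
            have hc : Check p H (pre ++ Rule.L Q K :: A') (Rule.L Q' K') :=
              hAdm.2 [] _ _ B' (by rw [hB']; simp)
            have := hc.2.1 ρ hmem
            exact Or.inl ⟨this.1, this.2⟩
          | R U K' b => trivial)
        simpa [List.append_assoc] using h3
    intro A B he
    rcases List.append_eq_append_iff.1 he with ⟨a', h1, h2⟩ | ⟨c', h1, h2⟩
    · -- A = pre ++ a'
      subst h1
      cases a' with
      | nil =>
        simpa using NoOver.inExact p hn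
      | cons R a'' =>
        have h3 : Rule.L Q K = R ∧ post = a'' ++ B := by simpa using h2
        obtain ⟨rfl, h4⟩ := h3
        exact key a'' ⟨B, h4⟩
    · -- pre = A ++ c'
      subst h1
      have h5 := (NoOver_split p A c' s X).1 hn
      exact NoOver.inExact p h5.1
  -- Step 3
  have hWin : WinHyp p ρ (pre ++ Rule.L Q K :: post) s X := by
    refine ⟨hEx, ?_⟩
    intro A R B he
    have hCk : Check p H A R := hAdm.2 [] A R B (by simpa using he)
    rcases List.append_eq_append_iff.1 he with ⟨a', h1, h2⟩ | ⟨c', h1, h2⟩
    · -- A = pre ++ a'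
      subst h1
      cases a' with
      | nil =>
        have h3 : Rule.L Q K = R ∧ post = B := by simpa using h2
        obtain ⟨rfl, rfl⟩ := h3
        simp only [List.append_nil]
        exact Or.inr hTail
      | cons R' a'' =>
        have h3 : Rule.L Q K = R' ∧ post = a'' ++ R :: B := by simpa using h2
        obtain ⟨rfl, -⟩ := h3
        have hmem : ρ ∈ items (pre ++ Rule.L Q K :: a'') := mem_items pre (Rule.L Q K) a'' Q rfl
        cases R with
        | T => trivial
        | L Q' K' => exact Or.inl (hCk.2.1 ρ hmem).1
        | R U K' b =>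
          cases b with
          | false => exact hCk
          | true => exact hCk ρ hmem
    · -- pre = A ++ c', with R :: B = c' ++ L :: post
      subst h1
      cases c' with
      | nil =>
        have h3 : R = Rule.L Q K ∧ B = post := by simpa using h2
        obtain ⟨rfl, rfl⟩ := h3
        simp only [List.append_nil] at hTail hρdef ⊢
        exact Or.inr hTail
      | cons R' c'' =>
        have h3 : R = R' ∧ B = c'' ++ Rule.L Q K :: post := by simpa using h2
        obtain ⟨rfl, -⟩ := h3
        have hz : ∀ Q', special R = some Q' → ¬ PCong (ex A Q') ρ := by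
          intro Q' hQ'
          have hmem : ex A Q' ∈ items (A ++ R :: c'') := mem_items A R c'' Q' hQ'
          have := (hChk.2.1 _ hmem).1
          exact fun h => this h.symm
        cases R with
        | T => trivial
        | L Q' K' => exact Or.inl (hz Q' rfl)
        | R U K' b =>
          cases b with
          | false => exact hCk
          | true => exact hz U rfl
  -- Step 4, 5
  have hCC : Cc p (pre ++ Rule.L Q K :: post).length ≤ Cc p H := Cc_mono p hp hAdm.1
  have hρne : 1 ≤ ρ.length := List.length_pos_iff.2 hρ.1
  have hKB : 2 * Cc p H + 1 ≤ K := hK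
  have hlenX : X.length = (K + 1) * ρ.length := by rw [hXdef, length_pw]
  set C := Cc p (pre ++ Rule.L Q K :: post).length with hC
  have hCmul : (2 * C + 2) * ρ.length ≤ (K + 1) * ρ.length := by
    apply Nat.mul_le_mul_right
    omega
  rcases hst : (runT p (pre ++ Rule.L Q K :: post) s X).2 with _ | ⟨e₁, rest⟩
  · have h1 := window p hρ hp _ hPos s X (K + 1) hinf hWin hst
    nlinarith
  · cases rest with
    | nil =>
      obtain ⟨u, w, hX, hu, hw⟩ := first_emit p _ s X e₁ [] hst
      obtain ⟨u', a, hu', hnoe⟩ := seg_init p _ s u e₁ hu hPos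
      have hWin' : WinHyp p ρ (pre ++ Rule.L Q K :: post) s (u ++ w) := by rw [← hX]; exact hWin
      have hL := hWin'.left
      have hR := hWin'.right
      rw [hu] at hR
      have hL' : WinHyp p ρ (pre ++ Rule.L Q K :: post) s (u' ++ [a]) := by rw [← hu']; exact hL
      have h1 := window p hρ hp _ hPos s u' (K + 1) (by
        rw [← hXdef, hX, hu']
        exact ⟨[], [a] ++ w, by simp⟩) hL'.left hnoe
      have h2 := window p hρ hp _ hPos (root _) w (K + 1) (by
        rw [← hXdef, hX]
        exact ⟨u, [], by simp⟩) hR (by rw [hw])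
      have h3 : X.length = u'.length + 1 + w.length := by
        rw [hX, hu']; simp; omega
      nlinarith
    | cons e₂ rest' =>
      obtain ⟨u₁, w₁, hX, hu₁, hw₁⟩ := first_emit p _ s X e₁ (e₂ :: rest') hst
      have hw₁' : (runT p (pre ++ Rule.L Q K :: post) (root (pre ++ Rule.L Q K :: post)) w₁).2 = e₂ :: rest' := by rw [hw₁]
      obtain ⟨u₂, w₂, hw₂, hu₂, -⟩ := first_emit p _ _ w₁ e₂ rest' hw₁'
      have hey : e₂ = y := hall e₂ (by rw [hst]; simp)
      have hSeg : Seg p (pre ++ Rule.L Q K :: post) u₂ y := by rw [← hey]; exact hu₂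
      have hQ2 := hy u₂ hSeg
      -- lower part of the state after `u₁`
      have hsplit := runT_split p pre (Rule.L Q K :: post) s u₁
      rw [hu₁] at hsplit
      have h1 : (runT p pre s u₁).1 = root pre := by
        have h2 := congrArg Prod.fst hsplit
        simp only [root_append] at h2
        have h3 := List.append_inj h2 (by simp [length_runT])
        exact h3.1.symm
      have hne : (runT p pre s u₁).2 ≠ [] := by
        intro h0
        have h2 := congrArg Prod.snd hsplit
        simp only [h0] at h2
        rw [runT_nil_word_snd] at h2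
        simp at h2
      apply hTail Q ?_ rfl
      rw [hX, hw₂, runT_append]
      simp only
      rw [h1, runT_append]
      simp only
      rcases hd : (runT p pre s u₁).2 with _ | ⟨d₀, d'⟩
      · exact absurd hd hne
      · simp only [List.cons_append, List.tail_cons]
        simp [hQ2]

end

end Vale.Agent.Lib.P329.Tw
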