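import Vale.Agent.Lib.P329.Tw.Rigid

/-! Twist-freeness of the bottom rule. -/

namespace Vale.Agent.Lib.P329.Tw

open Classical

noncomputable section

variable {S : Type} (p : ℕ)

/-- Primitive expansions stay primitive in the upper part of a tower. -/
theorem prim_ex_tail {R : Rule S} {Rs : List (Rule S)} {y : Tok S} (h : Prim (ex (R :: Rs) y)) :
    Prim (ex Rs y) :=
  Prim.of_flatMap kids h

/-- A chain of segments without overrun is the list of expansions. -/
private lemma flatten_exact (spec : List (Rule S)) {us : List (List (Tok S))} {cs : List (Tok S)}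
    (h : List.Forall₂ (fun u t => Seg p spec u t) us cs)
    (hn : NoOver p spec (root spec) us.flatten) :
    us.flatten = cs.flatMap (ex spec) := by
  induction h with
  | nil => simp
  | @cons a b l₁ l₂ hab _ ih =>
    simp only [List.flatten_cons] at hn ⊢
    have h1 := (NoOver_append p spec _ a l₁.flatten).1 hn
    have h2 : (runT p spec (root spec) a).1 = root spec := by
      have : runT p spec (root spec) a = (root spec, [b]) := hab
      rw [this]
    rw [h2] at h1
    rw [ih h1.2, seg_exact p spec a b hab h1.1]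
    simp

/-- A chain of segments runs from root to root. -/
private lemma run_segs (spec : List (Rule S)) {us : List (List (Tok S))} {cs : List (Tok S)}
    (h : List.Forall₂ (fun u t => Seg p spec u t) us cs) :
    runT p spec (root spec) us.flatten = (root spec, cs) := by
  induction h with
  | nil =>
    simp only [List.flatten_nil]
    exact runT_nil_word p spec _ (by simp)
  | @cons a b l₁ l₂ hab _ ih =>
    simp only [List.flatten_cons]
    rw [runT_append, hab]
    simp only [ih]
    simp

private lemma flatMap_replicate_pw {α β : Type} (f : α → List β) (n : ℕ) (a : α) :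
    (List.replicate n a).flatMap f = pw n (f a) := by
  induction n with
  | zero => simp
  | succ n ih => rw [List.replicate_succ, List.flatMap_cons, ih, pw_succ]

private lemma forall2_segs_mem (spec : List (Rule S)) {us : List (List (Tok S))} {cs : List (Tok S)}
    (h : List.Forall₂ (fun u t => Seg p spec u t) us cs) :
    ∀ t ∈ cs, Seg p spec (ex spec t) t := by
  induction h with
  | nil => simp
  | @cons a b l₁ l₂ hab _ ih =>
    intro t ht
    rcases List.mem_cons.1 ht with rfl | h
    · exact (seg_self p spec a t hab).1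
    · exact ih t h

private lemma stream_in_seg (pre post' : List (Rule S)) (Q : Tok S)
    {us : List (List (Tok S))} {E : List (Tok S)}
    (h : List.Forall₂ (fun u t => Seg p (pre ++ post') u t) us E)
    (hQ : Q ∈ (runT p pre (root pre) us.flatten).2) :
    ∃ u e, e ∈ E ∧ Seg p (pre ++ post') u e ∧ Q ∈ (runT p pre (root pre) u).2 := by
  induction h with
  | nil =>
    simp only [List.flatten_nil] at hQ
    rw [runT_nil_word_snd] at hQ
    simp at hQ
  | @cons a b l₁ l₂ hab _ ih =>
    simp only [List.flatten_cons] at hQ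
    obtain ⟨c, hc, -⟩ := (seg_split p pre post' a b).1 hab
    rw [runT_append, hc] at hQ
    simp only [List.mem_append] at hQ
    rcases hQ with hQ | hQ
    · exact ⟨a, b, by simp, hab, by rw [hc]; exact hQ⟩
    · obtain ⟨u, e, he, h1, h2⟩ := ih hQ
      exact ⟨u, e, List.mem_cons_of_mem _ he, h1, h2⟩

/-- The overrun case. -/
private theorem twist_over {H : ℕ} (hp : 1 ≤ p) (pre post : List (Rule S)) (Q : Tok S) (K : ℕ)
    (R : Rule S) (pre' : List (Rule S)) (hpre : pre = R :: pre')
    (hAdm : Adm p H (pre ++ Rule.L Q K :: post)) (y : Tok S) (τ : List (Tok S)) (k : ℕ)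
    (hk : 1 ≤ k) (E : List (Tok S))
    (hrun : runT p (pre ++ Rule.L Q K :: post) (root (pre ++ Rule.L Q K :: post)) (pw k τ) =
      (root (pre ++ Rule.L Q K :: post), E))
    (hall : ∀ e ∈ E, e = y)
    (hnpre : NoOver p pre (root (pre ++ Rule.L Q K :: post)) (pw k τ))
    (hover : ¬ noOverR p (Rule.L Q K) (((root (pre ++ Rule.L Q K :: post)).drop pre.length).headD [])
      (runT p pre (root (pre ++ Rule.L Q K :: post)) (pw k τ)).2) :
    (runR p R [] τ).1 = [] := by
  have hPos : PosK (pre ++ Rule.L Q K :: post) := hAdm.posK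
  have hrs : root (pre ++ Rule.L Q K :: post) = root pre ++ root (Rule.L Q K :: post) := root_append _ _
  have hstate : ∀ l, runT p pre (root (pre ++ Rule.L Q K :: post)) l = runT p pre (root pre) l := by
    intro l
    rw [hrs]
    exact runT_append_state p pre _ _ l (by simp)
  have hNp : NoOver p pre (root pre) (pw k τ) := by
    rw [hrs] at hnpre
    exact (NoOver_append_state p pre _ _ _ (by simp)).1 hnpre
  have hdrop : ((root (pre ++ Rule.L Q K :: post)).drop pre.length).headD [] = [] := by
    rw [hrs]
    have : pre.length = (root pre).length := by simp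
    rw [this, List.drop_left']
    · simp
    · rfl
  rw [hdrop, hstate] at hover
  have hsplit : ∀ l, (runT p (pre ++ Rule.L Q K :: post) (root (pre ++ Rule.L Q K :: post)) l).1 =
      (runT p pre (root pre) l).1 ++ (runT p (Rule.L Q K :: post)
        ((root (pre ++ Rule.L Q K :: post)).drop pre.length)
        (runT p pre (root pre) l).2).1 := by
    intro l
    rw [runT_split, hstate]
  set W := pw k τ with hWdef
  have hrp : runT p pre (root pre) W = (root pre, (runT p pre (root pre) W).2) := by
    have h1 := hsplit W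
    rw [hrun] at h1
    simp only at h1
    rw [hrs] at h1
    have h2 := List.append_inj h1 (by simp [length_runT])
    exact Prod.ext h2.1.symm rfl
  set c := (runT p pre (root pre) W).2 with hc
  obtain ⟨c₁, c₂, hcsplit⟩ := over_split p Q K c hover
  obtain ⟨us, hW, hF⟩ := segments p pre hPos.left W c hrp
  have hex := flatten_exact p pre hF (by rw [← hW]; exact hNp)
  have hTokSeg := forall2_segs_mem p pre hF
  have hQS : Seg p pre (ex pre Q) Q := hTokSeg Q (by rw [hcsplit]; simp)
  set ρ := ex pre Q with hρ
  set A' := c₁.flatMap (ex pre) with hA'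
  set X := pw (K + 1) ρ with hX
  set C' := c₂.flatMap (ex pre) with hC'
  have hWdec : W = A' ++ X ++ C' := by
    rw [hW, hex, hcsplit]
    simp only [List.flatMap_append, flatMap_replicate_pw]
    rfl
  have hA : runT p pre (root pre) A' = (root pre, c₁) :=
    parse_flatMap p pre c₁ (fun t ht => hTokSeg t (by rw [hcsplit]; simp [ht]))
  obtain ⟨k', rfl⟩ : ∃ k', k = k' + 1 := ⟨k - 1, by omega⟩
  set Z := pw k' τ with hZ
  have hZW : W = Z ++ τ := by rw [hWdef, pw_succ']
  have hcomm : Z ++ W = W ++ Z := by
    rw [hZ, hWdef, ← pw_add, ← pw_add]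
    congr 1
    omega
  have hT : W ++ W = (Z ++ A') ++ (X ++ (C' ++ τ)) := by
    calc W ++ W = W ++ (Z ++ τ) := by rw [← hZW]
      _ = (W ++ Z) ++ τ := by simp
      _ = (Z ++ W) ++ τ := by rw [hcomm]
      _ = (Z ++ A') ++ (X ++ (C' ++ τ)) := by rw [hWdec]; simp
  -- second trajectory
  set s₂ := (runT p (pre ++ Rule.L Q K :: post) (root (pre ++ Rule.L Q K :: post)) (Z ++ A')).1 with hs₂
  have hTrun : (runT p (pre ++ Rule.L Q K :: post) (root (pre ++ Rule.L Q K :: post)) (W ++ W)).2 = E ++ E := by
    rw [runT_append, hrun]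
    simp only [hrun]
  have hall₂ : ∀ e ∈ (runT p (pre ++ Rule.L Q K :: post) s₂ X).2, e = y := by
    intro e he
    have h1 : e ∈ E ++ E := by
      rw [← hTrun, hT, runT_append, ← hs₂, runT_append]
      simp only [List.mem_append]
      exact Or.inr (Or.inl he)
    rcases List.mem_append.1 h1 with h | h <;> exact hall e h
  have hNT : NoOver p pre (root pre) (W ++ W) := by
    rw [NoOver_append, hrp]
    exact ⟨hNp, hNp⟩
  have hσ : s₂ = (runT p pre (root pre) (Z ++ A')).1 ++ (runT p (Rule.L Q K :: post)
        ((root (pre ++ Rule.L Q K :: post)).drop pre.length)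
        (runT p pre (root pre) (Z ++ A')).2).1 := hsplit _
  have hn₂ : NoOver p pre s₂ X := by
    rw [hσ, NoOver_append_state p pre _ _ _ (by simp [length_runT])]
    rw [hT, NoOver_append] at hNT
    exact ((NoOver_append p pre _ _ _).1 hNT.2).1
  -- every segment of `y` contains `Q`
  have hy' : ∀ u, Seg p (pre ++ Rule.L Q K :: post) u y → Q ∈ (runT p pre (root pre) u).2 := by
    obtain ⟨us₀, hW₀, hF₀⟩ := segments p (pre ++ Rule.L Q K :: post) hPos W E hrun
    have hQc : Q ∈ (runT p pre (root pre) us₀.flatten).2 := by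
      rw [← hW₀, ← hc, hcsplit]; simp
    obtain ⟨u₀, e₀, he₀, hu₀, hQ₀⟩ := stream_in_seg p pre _ Q hF₀ hQc
    have : e₀ = y := hall e₀ he₀
    subst this
    obtain ⟨c₀, hc₀, hS₀⟩ := (seg_split p pre _ u₀ e₀).1 hu₀
    rw [hc₀] at hQ₀
    have hmem := seg_tokens p (Rule.L Q K :: post) hPos.right c₀ e₀ hS₀ Q hQ₀
    intro u hu
    obtain ⟨cu, hcu, hSu⟩ := (seg_split p pre _ u e₀).1 hu
    rw [hcu]
    exact ex_subset p (Rule.L Q K :: post) cu e₀ hSu Q hmem
  obtain ⟨q, X₂, hX₂, hroot⟩ := rigid p hp hAdm y hy' s₂ hn₂ hQS hall₂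
  rw [hσ, runT_append_state p pre _ _ _ (by simp [length_runT])] at hroot
  have hB1 : (runT p pre (root pre) (A' ++ pw q ρ)).1 = root pre := by
    rw [runT_append, hA]
    have h1 : (runT p pre (root pre) ρ).1 = root pre := by
      have : runT p pre (root pre) ρ = (root pre, [Q]) := hQS
      rw [this]
    simp only
    rw [runT_pw_fixed p pre _ ρ q h1]
  have hWY : W = (A' ++ pw q ρ) ++ (X₂ ++ C') := by
    rw [hWdec, hX, hX₂]; simp [hρ]
  have hYroot : (runT p pre (root pre) (X₂ ++ C')).1 = root pre := by
    have h1 := congrArg Prod.fst hrp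
    rw [hWY, runT_append, hB1] at h1
    simpa using h1
  have hZWroot : (runT p pre (root pre) (Z ++ W)).1 = root pre := by
    have : Z ++ W = (Z ++ A') ++ (pw q ρ ++ (X₂ ++ C')) := by rw [hWY]; simp
    rw [this, runT_append]
    simp only
    rw [runT_append]
    simp only
    rw [hroot]
    exact hYroot
  -- first component
  have hfst : ∀ l, (runT p pre (root pre) l).1 = root pre → (runR p R [] l).1 = [] := by
    intro l hl
    subst hpre
    simp only [runT_cons, root_cons, List.headD_cons, List.cons.injEq] at hl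
    exact hl.1
  have h1 : (runR p R [] W).1 = [] := hfst W (by rw [hrp])
  have h2 : (runR p R [] (W ++ Z)).1 = [] := by
    rw [← hcomm]; exact hfst _ hZWroot
  rw [runR_append] at h2
  simp only [h1] at h2
  rw [hZW, runR_append] at h1
  simp only [h2] at h1
  exact h1

/-- Twist-freeness: in a cycle at the root, the bottom rule of a tower with non-run-limit bottom
is fixed. -/
theorem twist_free {H : ℕ} (hp : 1 ≤ p) (R : Rule S) (hR : ∀ Q K, R ≠ Rule.L Q K) (Rs : List (Rule S))
    (hAdm : Adm p H (R :: Rs)) (y : Tok S) (hy : Prim (ex (R :: Rs) y)) (τ : List (Tok S)) (k : ℕ)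
    (hk : 1 ≤ k) (E : List (Tok S))
    (hrun : runT p (R :: Rs) (root (R :: Rs)) (pw k τ) = (root (R :: Rs), E)) (hE : E ≠ [])
    (hall : ∀ e ∈ E, e = y) : (runR p R [] τ).1 = [] := by
  have hPos : PosK (R :: Rs) := hAdm.posK
  -- the first component of a run from the root
  have hfst : ∀ l, (runT p (R :: Rs) (root (R :: Rs)) l).1.headD [] = (runR p R [] l).1 := by
    intro l; simp [runT_cons]
  obtain ⟨us₀, hW₀, hF₀⟩ := segments p (R :: Rs) hPos (pw k τ) E hrun
  by_cases hno : NoOver p (R :: Rs) (root (R :: Rs)) (pw k τ)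
  · -- exact case
    have hex := flatten_exact p (R :: Rs) hF₀ (by rw [← hW₀]; exact hno)
    have hE' : E = List.replicate E.length y := List.eq_replicate_iff.2 ⟨rfl, hall⟩
    have hW : pw k τ = pw E.length (ex (R :: Rs) y) := by
      rw [hW₀, hex, hE', List.length_replicate, flatMap_replicate_pw]
    obtain ⟨j, hj⟩ := pow_eq_pow_prim hy hk hW
    -- a segment of `y`
    have hSeg : ∃ u, Seg p (R :: Rs) u y := by
      cases hF₀ with
      | nil => exact absurd rfl hE
      | @cons a b l₁ l₂ hab _ =>
        have : b = y := hall b (by simp)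
        exact ⟨a, this ▸ hab⟩
    obtain ⟨u, hu⟩ := hSeg
    have hself := (seg_self p (R :: Rs) u y hu).1
    have hfix : (runT p (R :: Rs) (root (R :: Rs)) (ex (R :: Rs) y)).1 = root (R :: Rs) := by
      have : runT p (R :: Rs) (root (R :: Rs)) (ex (R :: Rs) y) = (root (R :: Rs), [y]) := hself
      rw [this]
    have h5 := runT_pw_fixed p (R :: Rs) (root (R :: Rs)) (ex (R :: Rs) y) j hfix
    have h6 := hfst τ
    rw [hj, h5] at h6
    rw [hj]
    simpa using h6.symm
  · -- overrun
    obtain ⟨pre, Q, K, post, hspec, hnpre, hover⟩ := exists_first_over p (R :: Rs) _ _ hno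
    cases pre with
    | nil =>
      simp only [List.nil_append, List.cons.injEq] at hspec
      exact absurd hspec.1 (hR Q K)
    | cons R' pre' =>
      have hspec' := hspec
      simp only [List.cons_append, List.cons.injEq] at hspec'
      obtain ⟨rfl, rfl⟩ := hspec'
      exact twist_over p hp (R :: pre') post Q K R pre' rfl hAdm y τ k hk E hrun hall hnpre hover

end

end Vale.Agent.Lib.P329.Tw
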