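import Vale.Agent.Lib.P329.Tw.SafeA

/-! Safety of primitive tokens, and validity of admissible towers. -/

namespace Vale.Agent.Lib.P329.Tw

open Classical

noncomputable section

variable {S : Type} (p : ℕ)

/-- A tower with one more rule on top, for a state split accordingly. -/
private lemma runT_snoc' (A : List (Rule S)) (R : Rule S) (x : List (List (Tok S))) (a : List (Tok S))
    (l : List (Tok S)) (hx : x.length = A.length) :
    runT p (A ++ [R]) (x ++ [a]) l =
      ((runT p A x l).1 ++ [(runR p R a (runT p A x l).2).1], (runR p R a (runT p A x l).2).2) := by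
  rw [runT_split, runT_append_state p A x [a] l hx]
  have h : (x ++ [a]).drop A.length = [a] := by rw [← hx]; simp
  rw [h]
  simp [runT_cons]

/-- The lower part of an admissible tower is admissible. -/
private lemma Adm.init {H : ℕ} {A : List (Rule S)} {R : Rule S} (h : Adm p H (A ++ [R])) : Adm p H A := by
  refine ⟨by have := h.1; simp at this; omega, ?_⟩
  intro base pre R' post he
  exact h.2 base pre R' (post ++ [R]) (by simp [he])

/-- A concatenation of segments runs from the root to the root. -/
private lemma run_flatten_segs' (spec : List (Rule S)) {us : List (List (Tok S))} {cs : List (Tok S)}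
    (h : List.Forall₂ (fun u t => Seg p spec u t) us cs) :
    runT p spec (root spec) us.flatten = (root spec, cs) := by
  induction h with
  | nil =>
    simp only [List.flatten_nil]
    exact runT_nil_word p spec _ (by simp)
  | @cons a b l₁ l₂ hab _ ih =>
    simp only [List.flatten_cons]
    rw [runT_append, hab]
    simp only [ih]
    simp

/-- Safety at the root. -/
theorem safe_root {H : ℕ} (hp : 1 ≤ p) (spec : List (Rule S)) (hAdm : Adm p H spec) (y : Tok S)
    (hy : Prim (ex spec y)) (τ : List (Tok S)) (k : ℕ) (hk : 1 ≤ k) (E : List (Tok S))
    (hrun : runT p spec (root spec) (pw k τ) = (root spec, E)) (hE : E ≠ [])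
    (hall : ∀ e ∈ E, e = y) : (runT p spec (root spec) τ).1 = root spec := by
  induction spec generalizing τ E with
  | nil => simp
  | cons R Rs ih =>
    -- the bottom rule is fixed
    have hb : (runR p R [] τ).1 = [] := by
      by_cases hL : ∃ Q K, R = Rule.L Q K
      · obtain ⟨Q, K, rfl⟩ := hL
        have h0 : (runR p (Rule.L Q K) [] (pw k τ)).1 = [] := by
          have h1 := congrArg Prod.fst hrun
          rw [root_cons, runT_cons] at h1
          exact (List.cons.inj h1).1
        exact L_fixed p Q K [] τ k hk h0
      · exact twist_free p hp R (by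
          intro Q K hh
          exact hL ⟨Q, K, hh⟩) Rs hAdm y hy τ k hk E hrun hE hall
    -- the upper part reads a power
    have hpw := runR_pw_fixed p R [] τ k hb
    have hrun' : runT p Rs (root Rs) (pw k (runR p R [] τ).2) = (root Rs, E) := by
      have h1 := hrun
      rw [root_cons, runT_cons] at h1
      simp only [List.headD_cons, List.tail_cons] at h1
      rw [hpw] at h1
      simp only at h1
      have h2 := congrArg Prod.fst h1
      have h3 := congrArg Prod.snd h1
      simp only [List.cons.injEq, true_and] at h2
      exact Prod.ext h2 h3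
    have hup := ih (Adm.tail p hAdm) (prim_ex_tail hy) (runR p R [] τ).2 E hrun' hE hall
    rw [root_cons, runT_cons]
    simp only [List.headD_cons, List.tail_cons]
    rw [hb, hup]

/-- Safety. -/
theorem safe {H : ℕ} (hp : 1 ≤ p) (spec : List (Rule S)) (hAdm : Adm p H spec) (y : Tok S)
    (hy : Prim (ex spec y)) (s : List (List (Tok S))) (τ : List (Tok S)) (k : ℕ) (hk : 1 ≤ k)
    (hs : (runT p spec s (pw k τ)).1 = s) (hne : (runT p spec s (pw k τ)).2 ≠ [])
    (hall : ∀ e ∈ (runT p spec s (pw k τ)).2, e = y) : (runT p spec s τ).1 = s := by
  -- split at the last top output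
  rcases hst : (runT p spec s (pw k τ)).2 with _ | ⟨t, e⟩
  · exact absurd hst hne
  obtain ⟨u, w, hW, hu, hw⟩ := first_emit p spec s (pw k τ) t e hst
  obtain ⟨us, r, hw', hF, hr⟩ := segments_gen p spec w e (by rw [hw])
  have hr' : runT p spec (root spec) r = (s, []) := by
    rw [hr, hw, hs]
  have hA : runT p spec s (u ++ us.flatten) = (root spec, t :: e) := by
    rw [runT_append, hu]
    simp only
    rw [run_flatten_segs' p spec hF]
    simp
  have hWs : pw k τ = (u ++ us.flatten) ++ r := by
    rw [hW, hw']; simp [List.append_assoc]
  obtain ⟨τ', h1, h2⟩ := rot_pw hWs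
  -- the rotated cycle at the root
  have hroot : runT p spec (root spec) (pw k τ') = (root spec, t :: e) := by
    rw [h1, runT_append, hr']
    simp only
    rw [hA]
    simp
  have hfix := safe_root p hp spec hAdm y hy τ' k hk (t :: e) hroot (by simp)
    (by rw [← hst]; exact hall)
  -- transport to `s`
  have h3 : (runT p spec (root spec) (r ++ τ)).1 = (runT p spec s τ).1 := by
    rw [runT_append, hr']
  have h4 : (runT p spec (root spec) (τ' ++ r)).1 = s := by
    rw [runT_append, hfix, hr']
  rw [← h3, h2, h4]

/-- Validity: a cycle without top output is fixed. -/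
theorem valid {H : ℕ} (hp : 1 ≤ p) (spec : List (Rule S)) (hAdm : Adm p H spec)
    (s : List (List (Tok S))) (τ : List (Tok S)) (k : ℕ) (hk : 1 ≤ k)
    (hs : (runT p spec s (pw k τ)).1 = s) (hE : (runT p spec s (pw k τ)).2 = []) :
    (runT p spec s τ).1 = s := by
  induction spec using List.reverseRecOn generalizing s τ k with
  | nil =>
    have h0 : s = [] := by
      rw [← hs]; simp
    rw [h0]; simp
  | append_singleton A R ih =>
    -- the state splits
    have hlen : s.length = A.length + 1 := by
      rw [← hs, length_runT]; simp
    obtain ⟨x, a, rfl⟩ : ∃ x a, s = x ++ [a] := by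
      rcases List.eq_nil_or_concat s with h | ⟨x, a, h⟩
      · subst h; simp at hlen
      · exact ⟨x, a, by simpa using h⟩
    have hx : x.length = A.length := by simpa using hlen
    have hAA : Adm p H A := Adm.init p hAdm
    rw [runT_snoc' p A R x a _ hx] at hs hE
    simp only at hs hE
    have hlen2 : (runT p A x (pw k τ)).1.length = x.length := by rw [length_runT, hx]
    obtain ⟨hx', ha'⟩ := List.append_inj' hs (by simp)
    have ha'' : (runR p R a (runT p A x (pw k τ)).2).1 = a := by simpa using ha'
    -- the goal reduces to `A` fixed with `R` fixed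
    rw [runT_snoc' p A R x a _ hx]
    simp only
    -- stream empty case
    have hempty : (runT p A x (pw k τ)).2 = [] →
        (runT p A x τ).1 ++ [(runR p R a (runT p A x τ).2).1] = x ++ [a] := by
      intro hc
      have hfix := ih hAA x τ k hk hx' hc
      have hsm : (runT p A x τ).2 = [] := by
        obtain ⟨j, rfl⟩ : ∃ j, k = j + 1 := ⟨k - 1, by omega⟩
        have h1 := hc
        rw [pw_succ, runT_append] at h1
        simp only at h1
        exact (List.append_eq_nil_iff.1 h1).1
      rw [hfix, hsm]
      simp
    by_cases hL : ∃ Q K, R = Rule.L Q K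
    · obtain ⟨Q, K, rfl⟩ := hL
      by_cases hc0 : (runT p A x (pw k τ)).2 = []
      · exact hempty hc0
      · -- all outputs are `Q`
        have hall : ∀ e ∈ (runT p A x (pw k τ)).2, e = Q := by
          intro e he
          have h1 := L_no_emit p Q K a _ hE
          rw [h1] at he
          exact List.eq_of_mem_replicate he
        have hChk : Check p H A (Rule.L Q K) := hAdm.2 [] A (Rule.L Q K) [] (by simp)
        have hprim : Prim (ex A Q) := hChk.1
        have hfix := safe p hp A hAA Q hprim x τ k hk hx' hc0 hall
        have hpw := runT_pw_fixed p A x τ k hfix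
        rw [hpw] at ha''
        simp only at ha''
        have hfx := L_fixed p Q K a _ k hk ha''
        rw [hfix, hfx]
    · -- non run-limit rule: progress
      have hc : (runT p A x (pw k τ)).2 = [] :=
        progress p R (by
          intro Q K hh
          exact hL ⟨Q, K, hh⟩) a _ hE ha''
      exact hempty hc

end

end Vale.Agent.Lib.P329.Tw
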