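import Vale.Agent.Lib.P329.Tw.CMC

/-! Shape of tokens created at a flush threshold. -/

namespace Vale.Agent.Lib.P329.Tw

open Classical

noncomputable section

variable {S : Type} (p : ℕ)

/-- The thresholds of a large flush rule. -/
def bigK (L Z : ℕ) : ℕ → ℕ := fun a => (p * L + Z + 3) * 2 ^ a

lemma fs_actives_snoc_eq (U : Tok S) (a : List (Tok S)) : actives U (a ++ [U]) = actives U a := by
  simp [actives, List.countP_append]

lemma fs_actives_snoc_ne (U t : Tok S) (a : List (Tok S)) (h : t ≠ U) :
    actives U (a ++ [t]) = actives U a + 1 := by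
  simp [actives, List.countP_append, h]

lemma fs_actives_replicate (U : Tok S) (k : ℕ) : actives U (List.replicate k U) = 0 := by
  simp [actives, List.countP_replicate]

lemma trail_shape (U l : Tok S) (X : List (Tok S)) (t : ℕ) (hl : l ≠ U) :
    trail U (X ++ [l] ++ List.replicate t U) = t := by
  unfold trail
  simp only [List.reverse_append, List.reverse_replicate]
  rw [List.takeWhile_append_of_pos (by simp)]
  simp [hl]

lemma trail_shape' (U l e : Tok S) (k t : ℕ) (B X : List (Tok S)) (hX : e :: B = X ++ [l]) (hl : l ≠ U) :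
    trail U (List.replicate k U ++ (e :: B) ++ List.replicate t U) = t := by
  have h : List.replicate k U ++ (e :: B) ++ List.replicate t U =
      (List.replicate k U ++ X) ++ [l] ++ List.replicate t U := by
    rw [hX]; simp
  rw [h]
  exact trail_shape U l _ t hl

/-- The invariant along pending lists of a flush rule, without output so far. -/
def FInv (U : Tok S) (K : ℕ → ℕ) (F : Set (Tok S)) (spec : List (Rule S)) (L : ℕ)
    (a : List (Tok S)) : Prop :=
  actives U a + 1 ≤ p ∧
  (actives U a = 0 → ∃ k₀, a = List.replicate k₀ U) ∧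
  (actives U a ≠ 0 → ∃ (k₀ t : ℕ) (e : Tok S) (B X : List (Tok S)) (l : Tok S),
    a = List.replicate k₀ U ++ (e :: B) ++ List.replicate t U ∧ e ≠ U ∧
    e :: B = X ++ [l] ∧ l ≠ U ∧ t ≤ K (actives U a) ∧ e ∈ F ∧ (∀ x ∈ B, x ∈ F) ∧
    ((e :: B).flatMap (ex spec)).length ≤
      actives U a * L + (∑ b ∈ Finset.range (actives U a), K b) * (ex spec U).length)

lemma FInv.nil (hp : 1 ≤ p) (U : Tok S) (K : ℕ → ℕ) (F : Set (Tok S)) (spec : List (Rule S)) (L : ℕ) :
    FInv p U K F spec L [] := by
  refine ⟨by simpa [actives] using hp, fun _ => ⟨0, rfl⟩, fun h => absurd (by simp [actives]) h⟩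

lemma flatMap_replicate_length (U : Tok S) (spec : List (Rule S)) (t : ℕ) :
    ((List.replicate t U).flatMap (ex spec)).length = t * (ex spec U).length := by
  induction t with
  | zero => simp
  | succ t ih =>
    rw [List.replicate_succ, List.flatMap_cons, List.length_append, ih]
    ring

lemma next_R_cases (U : Tok S) (K : ℕ → ℕ) (b : Bool) (a : List (Tok S)) (t : Tok S) :
    next p (Rule.R U K b) a t = ([], some (.node (a ++ [t]))) ∨
      next p (Rule.R U K b) a t = (a ++ [t], none) := by
  unfold next
  by_cases htU : t = U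
  · by_cases h : K (actives U a) ≤ trail U a + 1 <;> simp [htU, h]
  · by_cases h : p ≤ actives U a + 1 <;> simp [htU, h]

/-- An output at the end of a flush run records all the tokens read. -/
lemma emit_kids (U : Tok S) (K : ℕ → ℕ) (b : Bool) (c a : List (Tok S)) (y : Tok S)
    (h : runR p (Rule.R U K b) a c = ([], [y])) : kids y = a ++ c := by
  induction c generalizing a with
  | nil => simp at h
  | cons t l ih =>
    rw [runR_cons] at h
    have h1 : (runR p (Rule.R U K b) (next p (Rule.R U K b) a t).1 l).1 = [] :=
      congrArg Prod.fst h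
    have h2 : (next p (Rule.R U K b) a t).2.toList ++
        (runR p (Rule.R U K b) (next p (Rule.R U K b) a t).1 l).2 = [y] := congrArg Prod.snd h
    rcases next_R_cases p U K b a t with hn | hn
    · rw [hn] at h1 h2
      simp only [Option.toList_some, List.singleton_append, List.cons.injEq] at h2
      obtain ⟨hy, hrest⟩ := h2
      have hl0 : l = [] := progress p (Rule.R U K b) (fun _ _ h => by cases h) [] l hrest h1
      subst hl0
      rw [← hy]
      simp
    · rw [hn] at h1 h2
      have h' : runR p (Rule.R U K b) (a ++ [t]) l = ([], [y]) := by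
        apply Prod.ext h1
        simpa using h2
      rw [ih _ h']
      simp

/-- Reading `U` without output keeps the invariant. -/
lemma FInv.snoc_U {U : Tok S} {K : ℕ → ℕ} {F : Set (Tok S)} {spec : List (Rule S)} {L : ℕ}
    {a : List (Tok S)} (h : FInv p U K F spec L a) (hU : U ∈ F)
    (hK : ¬ K (actives U a) ≤ trail U a + 1) : FInv p U K F spec L (a ++ [U]) := by
  obtain ⟨h1, h2, h3⟩ := h
  have hact := fs_actives_snoc_eq U a
  refine ⟨by rw [hact]; exact h1, ?_, ?_⟩
  · intro h0
    rw [hact] at h0
    obtain ⟨k₀, rfl⟩ := h2 h0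
    exact ⟨k₀ + 1, by rw [List.replicate_succ']⟩
  · intro h0
    rw [hact] at h0 ⊢
    obtain ⟨k₀, t, e, B, X, l, ha, he, hX, hl, ht, heF, hB, hlen⟩ := h3 h0
    have htr : trail U a = t := by
      rw [ha]
      exact trail_shape' U l e k₀ t B X hX hl
    refine ⟨k₀, t + 1, e, B, X, l, ?_, he, hX, hl, ?_, heF, hB, hlen⟩
    · rw [ha, List.replicate_succ']
      simp
    · rw [htr] at hK
      omega

/-- Reading a token different from `U` without output keeps the invariant. -/
lemma FInv.snoc_ne {U t : Tok S} {K : ℕ → ℕ} {F : Set (Tok S)} {spec : List (Rule S)} {L : ℕ}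
    {a : List (Tok S)} (h : FInv p U K F spec L a) (hU : U ∈ F) (htU : t ≠ U) (htF : t ∈ F)
    (htL : (ex spec t).length ≤ L) (hp : ¬ p ≤ actives U a + 1) :
    FInv p U K F spec L (a ++ [t]) := by
  obtain ⟨h1, h2, h3⟩ := h
  have hact := fs_actives_snoc_ne U t a htU
  refine ⟨by rw [hact]; omega, ?_, ?_⟩
  · intro h0
    rw [hact] at h0
    omega
  · intro _
    rw [hact]
    by_cases h0 : actives U a = 0
    · obtain ⟨k₀, rfl⟩ := h2 h0
      refine ⟨k₀, 0, t, [], [], t, by simp, htU, rfl, htU, Nat.zero_le _, htF, by simp, ?_⟩
      rw [fs_actives_replicate]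
      simp only [List.flatMap_cons, List.flatMap_nil, List.append_nil, zero_add, one_mul,
        Finset.sum_range_one]
      exact le_trans htL (Nat.le_add_right _ _)
    · obtain ⟨k₀, r, e, B, X, l, ha, he, hX, hl, hr, heF, hB, hlen⟩ := h3 h0
      refine ⟨k₀, 0, e, B ++ List.replicate r U ++ [t], (e :: B) ++ List.replicate r U, t,
        ?_, he, by simp, htU, Nat.zero_le _, heF, ?_, ?_⟩
      · rw [ha]
        simp
      · intro x hx
        simp only [List.mem_append, List.mem_replicate, List.mem_singleton] at hx
        rcases hx with (hx | hx) | hx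
        · exact hB x hx
        · rw [hx.2]; exact hU
        · rw [hx]; exact htF
      · have e1 : (e :: (B ++ List.replicate r U ++ [t])).flatMap (ex spec) =
            (e :: B).flatMap (ex spec) ++ (List.replicate r U).flatMap (ex spec) ++ ex spec t := by
          simp [List.flatMap_append, List.append_assoc]
        rw [e1, List.length_append, List.length_append, flatMap_replicate_length,
          Finset.sum_range_succ]
        have e2 : r * (ex spec U).length ≤ K (actives U a) * (ex spec U).length :=
          Nat.mul_le_mul_right _ hr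
        calc _ ≤ actives U a * L + (∑ b ∈ Finset.range (actives U a), K b) * (ex spec U).length
                + K (actives U a) * (ex spec U).length + L := by omega
          _ = _ := by ring

/-- The conclusion about a token. -/
def FConcl (U : Tok S) (K : ℕ → ℕ) (F : Set (Tok S)) (spec : List (Rule S)) (L : ℕ)
    (y : Tok S) : Prop :=
  ∃ (k₀ r a : ℕ) (e : Tok S) (B : List (Tok S)),
      kids y = List.replicate k₀ U ++ (e :: B) ++ List.replicate r U ∧ e ≠ U ∧ a + 1 ≤ p ∧ K a ≤ r ∧
      e ∈ F ∧ (∀ t ∈ B, t ∈ F) ∧
      ((e :: B).flatMap (ex spec)).length ≤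
        a * L + (∑ b ∈ Finset.range a, K b) * (ex spec U).length

/-- One emission at the very end of a flush run. -/
lemma flush_aux (U : Tok S) (K : ℕ → ℕ) (b : Bool) (F : Set (Tok S)) (spec : List (Rule S)) (L : ℕ)
    (hU : U ∈ F)
    (c a : List (Tok S)) (y : Tok S) (hF : ∀ t ∈ c, t ∈ F) (hL : ∀ t ∈ c, (ex spec t).length ≤ L)
    (hinv : FInv p U K F spec L a)
    (h : runR p (Rule.R U K b) a c = ([], [y])) :
    kids y = a ++ c ∧ ∀ x ∈ lab p (Rule.R U K b) a c, Jm p U K x ≠ 0 → FConcl p U K F spec L y := by
  induction c generalizing a with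
  | nil => simp at h
  | cons t l ih =>
    have htF : t ∈ F := hF t (by simp)
    have htL : (ex spec t).length ≤ L := hL t (by simp)
    have hF' : ∀ t ∈ l, t ∈ F := fun x hx => hF x (by simp [hx])
    have hL' : ∀ t ∈ l, (ex spec t).length ≤ L := fun x hx => hL x (by simp [hx])
    rw [runR_cons] at h
    have h1 : (runR p (Rule.R U K b) (next p (Rule.R U K b) a t).1 l).1 = [] :=
      congrArg Prod.fst h
    have h2 : (next p (Rule.R U K b) a t).2.toList ++
        (runR p (Rule.R U K b) (next p (Rule.R U K b) a t).1 l).2 = [y] := congrArg Prod.snd h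
    have hlab : lab p (Rule.R U K b) a (t :: l) =
        (a, t) :: lab p (Rule.R U K b) (next p (Rule.R U K b) a t).1 l := rfl
    -- the emission case
    have emit : ∀ (hn : next p (Rule.R U K b) a t = ([], some (.node (a ++ [t])))),
        kids y = a ++ t :: l ∧ ∀ x ∈ lab p (Rule.R U K b) a (t :: l), Jm p U K x ≠ 0 →
          FConcl p U K F spec L y := by
      intro hn
      rw [hn] at h1 h2 hlab
      simp only [Option.toList_some, List.singleton_append, List.cons.injEq] at h2
      obtain ⟨hy, hrest⟩ := h2
      have hl0 : l = [] := progress p (Rule.R U K b) (fun _ _ h => by cases h) [] l hrest h1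
      subst hl0
      refine ⟨by rw [← hy]; simp, ?_⟩
      intro x hx hJ
      rw [hlab] at hx
      simp only [lab, List.mem_singleton] at hx
      subst hx
      -- the threshold event
      unfold Jm at hJ
      by_cases hc : t = U ∧ K (actives U a) ≤ trail U a + 1
      · obtain ⟨htU, hK⟩ := hc
        have hact : actives U a ≠ 0 := by
          intro h0
          apply hJ
          simp [htU, hK, h0]
        obtain ⟨k₀, r, e, B, X, l', ha, he, hX, hl', hr, heF, hB, hlen⟩ := hinv.2.2 hact
        have htr : trail U a = r := by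
          rw [ha]
          exact trail_shape' U l' e k₀ r B X hX hl'
        refine ⟨k₀, r + 1, actives U a, e, B, ?_, he, hinv.1, ?_, heF, hB, hlen⟩
        · rw [← hy, kids_node, ha, htU, List.replicate_succ']
          simp
        · rw [htr] at hK
          exact hK
      · exfalso
        apply hJ
        simp only [hc, if_false]
    by_cases htU : t = U
    · subst htU
      by_cases hK : K (actives t a) ≤ trail t a + 1
      · have hn : next p (Rule.R t K b) a t = ([], some (.node (a ++ [t]))) := by
          simp [next, hK]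
        exact emit hn
      · have hn : next p (Rule.R t K b) a t = (a ++ [t], none) := by
          simp [next, hK]
        rw [hn] at h1 h2 hlab
        have h' : runR p (Rule.R t K b) (a ++ [t]) l = ([], [y]) := by
          apply Prod.ext h1
          simpa using h2
        obtain ⟨i1, i2⟩ := ih (a ++ [t]) hF' hL' (FInv.snoc_U p hinv hU hK) h'
        refine ⟨by rw [i1]; simp, ?_⟩
        intro x hx hJ
        rw [hlab] at hx
        rcases List.mem_cons.1 hx with rfl | hx
        · exfalso
          apply hJ
          simp [Jm, hK]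
        · exact i2 x hx hJ
    · by_cases hp : p ≤ actives U a + 1
      · have hn : next p (Rule.R U K b) a t = ([], some (.node (a ++ [t]))) := by
          simp [next, htU, hp]
        exact emit hn
      · have hn : next p (Rule.R U K b) a t = (a ++ [t], none) := by
          simp [next, htU, hp]
        rw [hn] at h1 h2 hlab
        have h' : runR p (Rule.R U K b) (a ++ [t]) l = ([], [y]) := by
          apply Prod.ext h1
          simpa using h2
        obtain ⟨i1, i2⟩ := ih (a ++ [t]) hF' hL' (FInv.snoc_ne p hinv hU htU htF htL hp) h'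
        refine ⟨by rw [i1]; simp, ?_⟩
        intro x hx hJ
        rw [hlab] at hx
        rcases List.mem_cons.1 hx with rfl | hx
        · exfalso
          apply hJ
          simp [Jm, htU]
        · exact i2 x hx hJ

/-- Tokens on which the summed threshold mark does not vanish: their shape. The part `e :: B` starts
with a token different from `U`, all tokens come from the lower tower, and the part `e :: B` is bounded
in terms of the lengths `L` of the lower expansions and the thresholds. -/
theorem flush_shape (U : Tok S) (K : ℕ → ℕ) (b : Bool) (spec : List (Rule S)) (L : ℕ)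
    (hp : 1 ≤ p) (hL : ∀ t ∈ Fset p spec, (ex spec t).length ≤ L) (y : Tok S)
    (hy : y ∈ Fset p (spec ++ [Rule.R U K b]))
    (hJ : FF (segL p (Rule.R U K b)) (Jm p U K) y ≠ 0) :
    ∃ (k₀ r a : ℕ) (e : Tok S) (B : List (Tok S)),
      kids y = List.replicate k₀ U ++ (e :: B) ++ List.replicate r U ∧ e ≠ U ∧ a + 1 ≤ p ∧ K a ≤ r ∧
      e ∈ Fset p spec ∧ (∀ t ∈ B, t ∈ Fset p spec) ∧
      ((e :: B).flatMap (ex spec)).length ≤
        a * L + (∑ b ∈ Finset.range a, K b) * (ex spec U).length := by
  obtain ⟨w, hw⟩ := hy
  obtain ⟨c, hc1, hc2⟩ := (seg_split p spec [Rule.R U K b] (w.map Tok.leaf) y).1 hw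
  have hcF : ∀ t ∈ c, t ∈ Fset p spec := by
    intro t ht
    apply mem_Fset_of_tk p spec w t
    unfold tk
    rw [hc1]
    exact ht
  have hrun : runR p (Rule.R U K b) [] c = ([], [y]) := by
    have := hc2
    unfold Seg at this
    rw [runT_cons] at this
    simp only [root_cons, root_nil, List.headD_cons, List.tail_cons, runT_nil_spec] at this
    have h1 := congrArg Prod.fst this
    have h2 := congrArg Prod.snd this
    simp only [List.cons.injEq, and_true] at h1
    exact Prod.ext h1 h2
  have hk : kids y = c := by simpa using emit_kids p U K b c [] y hrun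
  -- a position with a nonzero mark
  have hx : ∃ x ∈ lab p (Rule.R U K b) [] c, Jm p U K x ≠ 0 := by
    by_contra hcon
    push Not at hcon
    apply hJ
    unfold FF segL
    rw [hk]
    apply List.sum_eq_zero
    intro z hz
    obtain ⟨x, hx, rfl⟩ := List.mem_map.1 hz
    exact hcon x hx
  obtain ⟨x, hx, hJx⟩ := hx
  have hU : U ∈ c := by
    have hxU : x.2 = U := by
      by_contra hne
      apply hJx
      simp [Jm, hne]
    have : x.2 ∈ (lab p (Rule.R U K b) [] c).map Prod.snd := List.mem_map_of_mem hx
    rw [lab_snd, hxU] at this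
    exact this
  have hcL : ∀ t ∈ c, (ex spec t).length ≤ L := fun t ht => hL t (hcF t ht)
  exact (flush_aux p U K b (Fset p spec) spec L (hcF U hU) c [] y hcF hcL
    (FInv.nil p hp U K _ spec L) hrun).2 x hx hJx

end

end Vale.Agent.Lib.P329.Tw
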