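import Vale.Agent.Lib.P329.Tw.TokenA

/-! Roots of tokens created at a flush threshold. -/

namespace Vale.Agent.Lib.P329.Tw

open Classical

noncomputable section

variable {S : Type} (p : ℕ)

lemma flatMap_replicate_pw {α β : Type} (n : ℕ) (a : α) (f : α → List β) :
    (List.replicate n a).flatMap f = pw n (f a) := by
  induction n with
  | zero => simp
  | succ n ih => rw [List.replicate_succ, List.flatMap_cons, ih, pw_succ]

lemma ex_of_shape (spec : List (Rule S)) (R : Rule S) (y U e : Tok S) (B : List (Tok S))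
    (k₀ r : ℕ) (h : kids y = List.replicate k₀ U ++ (e :: B) ++ List.replicate r U) :
    ex (spec ++ [R]) y =
      pw k₀ (ex spec U) ++ (ex spec e ++ B.flatMap (ex spec)) ++ pw r (ex spec U) := by
  rw [ex_snoc, h]
  simp only [List.flatMap_append, flatMap_replicate_pw, List.flatMap_cons]

variable {p} in
lemma ex_ne_nil_of_mem {spec : List (Rule S)} {t : Tok S} (h : t ∈ Fset p spec) : ex spec t ≠ [] := by
  obtain ⟨w, hw⟩ := h
  exact Seg.ne_nil p (seg_self p spec _ t hw).1

variable {p} in
lemma ex_not_prefix {spec : List (Rule S)} {t t' : Tok S} (ht : t ∈ Fset p spec)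
    (ht' : t' ∈ Fset p spec) (hne : t ≠ t') : ¬ ex spec t <+: ex spec t' := by
  intro hpre
  obtain ⟨w, hw⟩ := ht
  obtain ⟨w', hw'⟩ := ht'
  exact hne (prefix_free p spec _ _ t t' hw hw' hpre)

lemma sum_bigK (L Z a : ℕ) :
    (∑ b ∈ Finset.range a, bigK p L Z b) + (p * L + Z + 3) = bigK p L Z a := by
  induction a with
  | zero => simp [bigK]
  | succ a ih =>
    rw [Finset.sum_range_succ]
    have h2 : bigK p L Z (a + 1) = bigK p L Z a + bigK p L Z a := by
      simp only [bigK, pow_succ]; ring
    omega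

lemma rootLen_le_length {α : Type} {z : List α} (hz : z ≠ []) : rootLen z ≤ z.length := by
  obtain ⟨x, n, -, hn, hzx, hlen⟩ := exists_root_rootLen hz
  have : z.length = n * x.length := by rw [hzx, length_pw]
  rw [← hlen, this]
  exact Nat.le_mul_of_pos_left _ hn

lemma rootLen_prim {α : Type} {x : List α} (hx : Prim x) : rootLen x = x.length := by
  have := rootLen_pw (n := 1) hx le_rfl
  simpa using this

lemma ne_nil_of_pcong {α : Type} {x z : List α} (hx : x ≠ []) (h : PCong x z) : z ≠ [] := by
  rintro rfl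
  obtain ⟨n, m, hn, -, hrot⟩ := h
  have h1 := hrot.perm.length_eq
  simp only [length_pw, List.length_nil, Nat.mul_zero] at h1
  have h2 : 0 < x.length := List.length_pos_iff.mpr hx
  have h3 : 0 < n * x.length := Nat.mul_pos (by omega) h2
  omega

/-- Tokens from a large flush rule are primitive, and not conjugate to items. -/
theorem flush_token_large (U : Tok S) (spec : List (Rule S)) (L Z : ℕ) (hp : 1 ≤ p)
    (hU : U ∈ Fset p spec) (hL : ∀ t ∈ Fset p spec, (ex spec t).length ≤ L)
    (hZ : ∀ z ∈ items spec, z.length ≤ Z) (y : Tok S)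
    (hy : y ∈ Fset p (spec ++ [Rule.R U (bigK p L Z) true]))
    (hJ : FF (segL p (Rule.R U (bigK p L Z) true)) (Jm p U (bigK p L Z)) y ≠ 0) :
    Prim (ex (spec ++ [Rule.R U (bigK p L Z) true]) y) ∧
      ∀ z ∈ items (spec ++ [Rule.R U (bigK p L Z) true]),
        ¬ PCong (ex (spec ++ [Rule.R U (bigK p L Z) true]) y) z := by
  obtain ⟨k₀, r, a, e, B, hk, hne, ha, hKa, he, hB, hbd⟩ :=
    flush_shape p U (bigK p L Z) true spec L hp hL y hy hJ
  have hY := ex_of_shape spec (Rule.R U (bigK p L Z) true) y U e B k₀ r hk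
  set v := ex spec U with hv
  set ee := ex spec e with hee
  set BB := B.flatMap (ex spec) with hBB
  have hv0 : v ≠ [] := ex_ne_nil_of_mem hU
  have hee0 : ee ≠ [] := ex_ne_nil_of_mem he
  have hvl : 1 ≤ v.length := List.length_pos_iff.mpr hv0
  have heel : 1 ≤ ee.length := List.length_pos_iff.mpr hee0
  have h1 : ¬ ee <+: v := ex_not_prefix he hU hne
  have h2 : ¬ v <+: ee := ex_not_prefix hU he (Ne.symm hne)
  have hbd' : (ee ++ BB).length ≤
      a * L + (∑ b ∈ Finset.range a, bigK p L Z b) * v.length := by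
    have : (e :: B).flatMap (ex spec) = ee ++ BB := by simp [hee, hBB]
    rw [← this]
    exact hbd
  have hsum := sum_bigK p L Z a
  set S0 := ∑ b ∈ Finset.range a, bigK p L Z b with hS0
  have hrK : (S0 + (p * L + Z + 3)) * v.length ≤ r * v.length := by
    apply Nat.mul_le_mul_right
    omega
  have haL : a * L ≤ p * L * v.length := by
    have h3 : a * L ≤ p * L := Nat.mul_le_mul_right _ (by omega)
    exact h3.trans (Nat.le_mul_of_pos_right _ hvl)
  have hK : (ee ++ BB).length + 2 * v.length ≤ r * v.length := by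
    have h4 : (S0 + (p * L + Z + 3)) * v.length
        = S0 * v.length + p * L * v.length + Z * v.length + 3 * v.length := by ring
    rw [h4] at hrK
    omega
  have hYprim : Prim (pw k₀ v ++ (ee ++ BB) ++ pw r v) := prim_of_flush hv0 hee0 h1 h2 hK
  refine ⟨by rw [hY]; exact hYprim, ?_⟩
  intro z hz hcong
  rw [hY] at hcong
  set Y := pw k₀ v ++ (ee ++ BB) ++ pw r v with hYdef
  have hYlen : r * v.length + ee.length ≤ Y.length := by
    simp only [hYdef, List.length_append, length_pw]
    omega
  have hz0 : z ≠ [] := ne_nil_of_pcong hYprim.1 hcong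
  have hroot : Y.length = rootLen z := by
    rw [← rootLen_prim hYprim]
    exact hcong.rootLen_eq hYprim.1 hz0
  have hrz := rootLen_le_length hz0
  have hZ3 : (p * L + Z + 3) * v.length ≤ r * v.length := by
    refine le_trans ?_ hrK
    apply Nat.mul_le_mul_right
    omega
  rw [items_snoc] at hz
  rcases List.mem_append.mp hz with hz1 | hz1
  · have h5 := hZ z hz1
    have h6 : (p * L + Z + 3) ≤ (p * L + Z + 3) * v.length := Nat.le_mul_of_pos_right _ hvl
    omega
  · have hzv : z = v := by
      simpa [special] using hz1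
    have h7 : v.length ≤ r * v.length := by
      have h8 : 1 * v.length ≤ (p * L + Z + 3) * v.length := Nat.mul_le_mul_right _ (by omega)
      omega
    rw [hzv] at hroot hrz
    omega

/-- Tokens from a small flush rule have a strictly longer root. -/
theorem flush_token_small [Finite S] (U : Tok S) (spec : List (Rule S)) (hp : 1 ≤ p)
    (hU : U ∈ Fset p spec)
    (y : Tok S) (hy : y ∈ Fset p (spec ++ [Rule.R U (fun _ => 2) false]))
    (hJ : FF (segL p (Rule.R U (fun _ => 2) false)) (Jm p U (fun _ => 2)) y ≠ 0) :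
    rootLen (ex spec U) < rootLen (ex (spec ++ [Rule.R U (fun _ => 2) false]) y) := by
  obtain ⟨L, hL⟩ : ∃ L, ∀ t ∈ Fset p spec, (ex spec t).length ≤ L := by
    have hfin := (Fset_finite p spec hp).image (fun t => (ex spec t).length)
    obtain ⟨L, hL⟩ := hfin.bddAbove
    exact ⟨L, fun t ht => hL ⟨t, ht, rfl⟩⟩
  obtain ⟨k₀, r, a, e, B, hk, hne, ha, hKa, he, hB, hbd⟩ :=
    flush_shape p U (fun _ => 2) false spec L hp hL y hy hJ
  rw [ex_of_shape spec (Rule.R U (fun _ => 2) false) y U e B k₀ r hk]
  exact rootLen_flush (ex_ne_nil_of_mem hU) (ex_ne_nil_of_mem he)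
    (ex_not_prefix he hU hne) (ex_not_prefix hU he (Ne.symm hne)) hKa

end

end Vale.Agent.Lib.P329.Tw
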