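import Vale.Agent.Lib.P329.Tw.TokenB

/-! Extensions of admissible towers. -/

namespace Vale.Agent.Lib.P329.Tw

open Classical

noncomputable section

variable {S : Type} (p : ℕ)

/-- Items are unchanged by a small flush rule. -/
theorem items_small (U : Tok S) (spec : List (Rule S)) :
    items (spec ++ [Rule.R U (fun _ => 2) false]) = items spec := by
  rw [items_snoc]
  simp [special]

/-- The number of items is at most the height. -/
theorem length_items_le (spec : List (Rule S)) : (items spec).length ≤ spec.length := by
  induction spec with
  | nil => simp [items]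
  | cons R Rs ih =>
    simp only [items, List.length_append, List.length_map, List.length_cons]
    have h : ((special R).toList).length ≤ 1 := by
      cases special R <;> simp
    omega

/-- Rotations pass through `flatMap`. -/
private lemma isRotated_flatMap {α β : Type} (f : α → List β) {x y : List α} (h : x ~r y) :
    x.flatMap f ~r y.flatMap f := by
  obtain ⟨n, rfl⟩ := h
  have hx : x = x.take n ++ x.drop n := (List.take_append_drop n x).symm
  rw [List.rotate_eq_drop_append_take_mod]
  have hx2 : x = x.take (n % x.length) ++ x.drop (n % x.length) :=
    (List.take_append_drop _ x).symm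
  conv_lhs => rw [hx2]
  rw [List.flatMap_append, List.flatMap_append]
  exact List.isRotated_append

/-- Power conjugacy passes through `flatMap`. -/
private lemma pcong_flatMap {α β : Type} (f : α → List β) {x y : List α} (h : PCong x y) :
    PCong (x.flatMap f) (y.flatMap f) := by
  obtain ⟨n, m, hn, hm, h⟩ := h
  refine ⟨n, m, hn, hm, ?_⟩
  rw [← pw_flatMap, ← pw_flatMap]
  exact isRotated_flatMap f h

/-- Primitive words stay primitive when pulled back through `flatMap`. -/
private lemma prim_of_flatMap {α β : Type} (f : α → List β) {x : List α}
    (h : Prim (x.flatMap f)) : Prim x := by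
  refine ⟨?_, ?_⟩
  · rintro rfl
    exact h.1 (by simp)
  · intro y n hy
    apply h.2 (y.flatMap f) n
    rw [hy, pw_flatMap]

/-- Items of a suffix of a tower reappear in the full tower, expanded. -/
private lemma items_append_image (base pre : List (Rule S)) (z : List (Tok S))
    (hz : z ∈ items pre) : z.flatMap (fun t => ex base t) ∈ items (base ++ pre) := by
  induction base with
  | nil =>
    simpa [ex] using hz
  | cons R Rs ih =>
    simp only [List.cons_append, items, List.mem_append, List.mem_map]
    right
    refine ⟨_, ih, ?_⟩
    rw [List.flatMap_assoc]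
    rfl

/-- Splits of a tower with one more rule on top. -/
private lemma split_snoc {spec base pre post : List (Rule S)} {R R' : Rule S}
    (h : spec ++ [R'] = base ++ pre ++ R :: post) :
    (post = [] ∧ R = R' ∧ spec = base ++ pre) ∨
      ∃ post', spec = base ++ pre ++ R :: post' := by
  rcases List.eq_nil_or_concat post with rfl | ⟨post', x, rfl⟩
  · left
    have h' : spec ++ [R'] = (base ++ pre) ++ [R] := h
    have := List.append_inj' h' (by simp)
    simp only [List.cons.injEq, and_true] at this
    exact ⟨rfl, this.2.symm, this.1⟩
  · right
    refine ⟨post', ?_⟩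
    have h' : spec ++ [R'] = (base ++ pre ++ R :: post') ++ [x] := by
      rw [h]; simp
    exact (List.append_inj' h' (by simp)).1

/-- The general extension step. -/
private lemma adm_snoc_of {H : ℕ} {spec : List (Rule S)} (h : Adm p H spec)
    (hl : spec.length + 1 ≤ H) (R' : Rule S)
    (hc : ∀ base pre, spec = base ++ pre → Check p H pre R') : Adm p H (spec ++ [R']) := by
  refine ⟨by simpa using hl, ?_⟩
  intro base pre R post hsp
  rcases split_snoc hsp with ⟨_, rfl, h2⟩ | ⟨post', h2⟩
  · exact hc base pre h2
  · exact h.2 base pre R post' h2

/-- Extension by a tuple rule. -/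
theorem adm_snoc_T {H : ℕ} {spec : List (Rule S)} (h : Adm p H spec) (hl : spec.length + 1 ≤ H) :
    Adm p H (spec ++ [Rule.T]) := by
  apply adm_snoc_of p h hl
  intro base pre _
  simp [Check]

/-- Extension by a small flush rule. -/
theorem adm_snoc_small {H : ℕ} {spec : List (Rule S)} (h : Adm p H spec) (hl : spec.length + 1 ≤ H)
    (U : Tok S) : Adm p H (spec ++ [Rule.R U (fun _ => 2) false]) := by
  apply adm_snoc_of p h hl
  intro base pre _
  simp [Check]

/-- Non-congruence to items passes to suffixes of a tower. -/
private lemma not_pcong_suffix {spec base pre : List (Rule S)} (hsp : spec = base ++ pre)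
    (U : Tok S) (hU : ∀ z ∈ items spec, ¬ PCong (ex spec U) z) (z : List (Tok S))
    (hz : z ∈ items pre) : ¬ PCong (ex pre U) z := by
  intro hc
  subst hsp
  apply hU _ (items_append_image base pre z hz)
  rw [ex_append]
  exact pcong_flatMap _ hc

/-- Extension by a large flush rule. -/
theorem adm_snoc_large {H : ℕ} {spec : List (Rule S)} (h : Adm p H spec) (hl : spec.length + 1 ≤ H)
    (U : Tok S) (hU : ∀ z ∈ items spec, ¬ PCong (ex spec U) z) (K : ℕ → ℕ) :
    Adm p H (spec ++ [Rule.R U K true]) := by
  apply adm_snoc_of p h hl
  intro base pre hsp
  simp only [Check]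
  intro z hz
  exact not_pcong_suffix hsp U hU z hz

/-- Finite bound on all item lengths over all suffixes. -/
private lemma exists_item_bound (spec : List (Rule S)) :
    ∃ B : ℕ, ∀ base pre, spec = base ++ pre → ∀ z ∈ items pre, z.length ≤ B := by
  induction spec with
  | nil =>
    refine ⟨0, ?_⟩
    intro base pre h z hz
    have : pre = [] := by
      have := congrArg List.length h
      simp at this
      exact List.length_eq_zero_iff.1 (by omega)
    subst this
    simp [items] at hz
  | cons R Rs ih =>
    obtain ⟨B, hB⟩ := ih
    refine ⟨B + ((items (R :: Rs)).map List.length).sum, ?_⟩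
    intro base pre h z hz
    cases base with
    | nil =>
      have : pre = R :: Rs := by simpa using h.symm
      subst this
      have h1 : z.length ≤ ((items (R :: Rs)).map List.length).sum :=
        List.single_le_sum (by simp) _ (List.mem_map_of_mem hz)
      omega
    | cons R' base' =>
      have h' : Rs = base' ++ pre := by simpa using (List.cons.inj h).2
      have := hB base' pre h' z hz
      omega

/-- Extension by a run-limit rule, with a suitable cap. -/
theorem adm_snoc_L {H : ℕ} {spec : List (Rule S)} (h : Adm p H spec) (hl : spec.length + 1 ≤ H)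
    (U : Tok S) (hp : Prim (ex spec U)) (hU : ∀ z ∈ items spec, ¬ PCong (ex spec U) z) :
    ∃ K, Adm p H (spec ++ [Rule.L U K]) := by
  obtain ⟨B, hB⟩ := exists_item_bound spec
  refine ⟨KB p H + B + 1, ?_⟩
  apply adm_snoc_of p h hl
  intro base pre hsp
  simp only [Check]
  refine ⟨?_, ?_, by omega⟩
  · subst hsp
    rw [ex_append] at hp
    exact prim_of_flatMap _ hp
  · intro z hz
    refine ⟨not_pcong_suffix hsp U hU z hz, ?_⟩
    have := hB base pre hsp z hz
    omega

end

end Vale.Agent.Lib.P329.Tw
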