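import Vale.Agent.Lib.P329.Tw.ParseC

/-! Window lemma: hypotheses, their inheritance, and pieces. -/

namespace Vale.Agent.Lib.P329.Tw

open Classical

noncomputable section

variable {S : Type} (p : ℕ)

/-- Every token read entirely inside `v` (from the root of `A`) is exact. -/
def InExact (A : List (Rule S)) (s : List (List (Tok S))) (v : List (Tok S)) : Prop :=
  ∀ w₁ u w₂ c, v = w₁ ++ u ++ w₂ → (runT p A s w₁).1 = root A → Seg p A u c → u = ex A c

/-- After its first token, the stream of `A` on `v` avoids `Q`. -/
def TailNo (A : List (Rule S)) (Q : Tok S) (s : List (List (Tok S))) (v : List (Tok S)) : Prop :=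
  ∀ t ∈ ((runT p A s v).2).tail, t ≠ Q

/-- The hypotheses of the window lemma. -/
def WinHyp (ρ : List (Tok S)) (P : List (Rule S)) (s : List (List (Tok S))) (v : List (Tok S)) : Prop :=
  (∀ A B, P = A ++ B → InExact p A s v) ∧
  (∀ A R B, P = A ++ R :: B →
    match R with
    | .T => True
    | .L Q _ => ¬ PCong (ex A Q) ρ ∨ TailNo p A Q s v
    | .R _ K false => K = fun _ => 2
    | .R U _ true => ¬ PCong (ex A U) ρ)

private lemma mem_tail_append_left {α : Type} {l₁ l₂ : List α} {t : α} (h : t ∈ l₁.tail) :
    t ∈ (l₁ ++ l₂).tail := by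
  cases l₁ with
  | nil => simp at h
  | cons a l =>
    simp only [List.tail_cons] at h
    simp only [List.cons_append, List.tail_cons, List.mem_append]
    exact Or.inl h

private lemma mem_tail_append_right {α : Type} {l₁ l₂ : List α} {t : α} (h : t ∈ l₂.tail) :
    t ∈ (l₁ ++ l₂).tail := by
  cases l₁ with
  | nil => simpa using h
  | cons a l =>
    simp only [List.cons_append, List.tail_cons, List.mem_append]
    exact Or.inr (List.mem_of_mem_tail h)

private lemma TailNo.left {A : List (Rule S)} {Q : Tok S} {s : List (List (Tok S))}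
    {v₁ v₂ : List (Tok S)} (h : TailNo p A Q s (v₁ ++ v₂)) : TailNo p A Q s v₁ := by
  intro t ht
  apply h t
  rw [runT_append]
  exact mem_tail_append_left ht

private lemma TailNo.right {A : List (Rule S)} {Q : Tok S} {s : List (List (Tok S))}
    {v₁ v₂ : List (Tok S)} (h : TailNo p A Q s (v₁ ++ v₂)) :
    TailNo p A Q (runT p A s v₁).1 v₂ := by
  intro t ht
  apply h t
  rw [runT_append]
  exact mem_tail_append_right ht

/-- The run of a lower tower from the state reached by the whole tower. -/
private lemma runT_lower_state (A B : List (Rule S)) (s : List (List (Tok S))) (v₁ v₂ : List (Tok S)) :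
    runT p A (runT p (A ++ B) s v₁).1 v₂ = runT p A (runT p A s v₁).1 v₂ := by
  rw [runT_split]
  exact runT_append_state p A _ _ v₂ (length_runT p A s v₁)

/-- The hypotheses pass to an initial part of the word. -/
theorem WinHyp.left {ρ : List (Tok S)} {P : List (Rule S)} {s : List (List (Tok S))}
    {v₁ v₂ : List (Tok S)} (h : WinHyp p ρ P s (v₁ ++ v₂)) : WinHyp p ρ P s v₁ := by
  refine ⟨fun A B hP => ?_, fun A R B hP => ?_⟩
  · intro w₁ u w₂ c hv hst hseg
    exact h.1 A B hP w₁ u (w₂ ++ v₂) c (by rw [hv]; simp [List.append_assoc]) hst hseg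
  · have h2 := h.2 A R B hP
    cases R with
    | T => trivial
    | L Q K =>
      rcases h2 with h2 | h2
      · exact Or.inl h2
      · exact Or.inr (TailNo.left p h2)
    | R U K large =>
      cases large
      · exact h2
      · exact h2

/-- The hypotheses pass to a final part of the word. -/
theorem WinHyp.right {ρ : List (Tok S)} {P : List (Rule S)} {s : List (List (Tok S))}
    {v₁ v₂ : List (Tok S)} (h : WinHyp p ρ P s (v₁ ++ v₂)) :
    WinHyp p ρ P (runT p P s v₁).1 v₂ := by
  refine ⟨fun A B hP => ?_, fun A R B hP => ?_⟩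
  · intro w₁ u w₂ c hv hst hseg
    subst hP
    rw [runT_lower_state] at hst
    refine h.1 A B rfl (v₁ ++ w₁) u w₂ c (by rw [hv]; simp [List.append_assoc]) ?_ hseg
    rw [runT_append]
    exact hst
  · have h2 := h.2 A R B hP
    subst hP
    cases R with
    | T => trivial
    | L Q K =>
      rcases h2 with h2 | h2
      · exact Or.inl h2
      · refine Or.inr ?_
        have h3 := TailNo.right p h2
        intro t ht
        apply h3 t
        rw [runT_lower_state] at ht
        exact ht
    | R U K large =>
      cases large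
      · exact h2
      · exact h2

/-- The hypotheses pass to a lower tower. -/
theorem WinHyp.lower {ρ : List (Tok S)} {A B : List (Rule S)} {s : List (List (Tok S))}
    {v : List (Tok S)} (h : WinHyp p ρ (A ++ B) s v) : WinHyp p ρ A s v := by
  refine ⟨fun A' B' hP => ?_, fun A' R B' hP => ?_⟩
  · exact h.1 A' (B' ++ B) (by rw [hP, List.append_assoc])
  · have h2 := h.2 A' R (B' ++ B) (by rw [hP, List.append_assoc, List.cons_append])
    exact h2

/-- The inner bound along a list of segments. -/
private lemma pieces_aux {A : List (Rule S)} (hA : PosK A) {s : List (List (Tok S))} {v : List (Tok S)}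
    (L : ℕ) (ρ : List (Tok S))
    (hIH : ∀ s' v', WinHyp p ρ A s' v' → v' <:+: v → (runT p A s' v').2 = [] → v'.length ≤ L)
    (hW : WinHyp p ρ A s v) {us : List (List (Tok S))} {cs : List (Tok S)}
    (hseg : List.Forall₂ (fun u t => Seg p A u t) us cs) :
    ∀ w₁ w₂, v = w₁ ++ us.flatten ++ w₂ → (runT p A s w₁).1 = root A →
      us.flatten = cs.flatMap (ex A) ∧ ∀ c' ∈ cs, (ex A c').length ≤ L + 1 := by
  induction hseg with
  | nil =>
    intro _ _ _ _
    simp
  | @cons u t us cs hut _ ih =>
    intro w₁ w₂ hv hst
    have hv' : v = w₁ ++ u ++ (us.flatten ++ w₂) := by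
      rw [hv]; simp [List.append_assoc]
    have hex : u = ex A t := hW.1 A [] (by simp) w₁ u (us.flatten ++ w₂) t hv' hst hut
    have hst' : (runT p A s (w₁ ++ u)).1 = root A := by
      rw [runT_append, hst]
      have : runT p A (root A) u = (root A, [t]) := hut
      rw [this]
    have hv'' : v = (w₁ ++ u) ++ us.flatten ++ w₂ := by
      rw [hv]; simp [List.append_assoc]
    obtain ⟨h1, h2⟩ := ih (w₁ ++ u) w₂ hv'' hst'
    refine ⟨?_, ?_⟩
    · simp only [List.flatten_cons, List.flatMap_cons]
      rw [h1, ← hex]
    · intro c' hc'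
      rcases List.mem_cons.1 hc' with rfl | hc'
      · obtain ⟨u', a, hu', hne⟩ := seg_init p A (root A) u c' hut hA
        have hvw : v = w₁ ++ (u' ++ ([a] ++ (us.flatten ++ w₂))) := by
          rw [hv, hu']; simp [List.append_assoc]
        have hW1 : WinHyp p ρ A (runT p A s w₁).1 (u' ++ ([a] ++ (us.flatten ++ w₂))) :=
          WinHyp.right p (hvw ▸ hW)
        rw [hst] at hW1
        have hW2 : WinHyp p ρ A (root A) u' := WinHyp.left p hW1
        have hinf : u' <:+: v := ⟨w₁, [a] ++ (us.flatten ++ w₂), by rw [hvw]; simp [List.append_assoc]⟩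
        have hlen := hIH (root A) u' hW2 hinf hne
        rw [← hex, hu']
        simp only [List.length_append, List.length_singleton]
        omega
      · exact h2 c' hc'

/-- Pieces: a run with stream `c :: cs` cuts `v` into a first piece, exact tokens, a last piece. -/
theorem pieces {A : List (Rule S)} (hA : PosK A) {s : List (List (Tok S))} {v : List (Tok S)}
    {c : Tok S} {cs : List (Tok S)} (L : ℕ) (ρ : List (Tok S))
    (hIH : ∀ s' v', WinHyp p ρ A s' v' → v' <:+: v → (runT p A s' v').2 = [] → v'.length ≤ L)
    (hW : WinHyp p ρ A s v) (hs : (runT p A s v).2 = c :: cs) :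
    ∃ v₁ vₑ, v = v₁ ++ cs.flatMap (ex A) ++ vₑ ∧ v₁.length ≤ L + 1 ∧ vₑ.length ≤ L ∧
      ∀ c' ∈ cs, (ex A c').length ≤ L + 1 := by
  obtain ⟨u, w, hv, hu, hw⟩ := first_emit p A s v c cs hs
  -- the first piece
  obtain ⟨u', a, hu', hne⟩ := seg_init p A s u c hu hA
  have hvu : v = u' ++ ([a] ++ w) := by rw [hv, hu']; simp [List.append_assoc]
  have hW1 : WinHyp p ρ A s u' := WinHyp.left p (hvu ▸ hW)
  have hu1 : u'.length ≤ L := hIH s u' hW1 ⟨[], [a] ++ w, by rw [hvu]; simp⟩ hne
  have hulen : u.length ≤ L + 1 := by
    rw [hu']; simp only [List.length_append, List.length_singleton]; omega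
  -- segments of the rest
  obtain ⟨us, r, hw', hseg, hr⟩ := segments_gen p A w cs (by rw [hw])
  have hvr : v = u ++ us.flatten ++ r := by rw [hv, hw']; simp [List.append_assoc]
  have hstu : (runT p A s u).1 = root A := by rw [hu]
  obtain ⟨h1, h2⟩ := pieces_aux p hA L ρ hIH hW hseg u r hvr hstu
  -- the last piece
  have hstall : (runT p A s (u ++ us.flatten)).1 = root A := by
    rw [runT_append, hstu]
    have hwst : ∀ {us' : List (List (Tok S))} {cs' : List (Tok S)},
        List.Forall₂ (fun u t => Seg p A u t) us' cs' → (runT p A (root A) us'.flatten).1 = root A := by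
      intro us' cs' h
      induction h with
      | nil =>
        simp only [List.flatten_nil]
        rw [runT_nil_word p A (root A) (length_root A)]
      | @cons u t us cs hut _ ih =>
        simp only [List.flatten_cons]
        rw [runT_append]
        have : runT p A (root A) u = (root A, [t]) := hut
        rw [this]
        exact ih
    exact hwst hseg
  have hvr' : v = (u ++ us.flatten) ++ r := by rw [hvr]
  have hWr : WinHyp p ρ A (runT p A s (u ++ us.flatten)).1 r := WinHyp.right p (hvr' ▸ hW)
  rw [hstall] at hWr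
  have hrlen : r.length ≤ L := by
    apply hIH (root A) r hWr ⟨u ++ us.flatten, [], by rw [hvr']; simp⟩
    rw [hr]
  refine ⟨u, r, ?_, hulen, hrlen, h2⟩
  rw [hvr, h1]

end

end Vale.Agent.Lib.P329.Tw
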