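import Vale.Agent.Lib.P329.Tw.WindowA

/-! Window lemma: counting tokens without output. -/

namespace Vale.Agent.Lib.P329.Tw

open Classical

noncomputable section

variable {S : Type} (p : ℕ)

/-- Count for a tuple or flush rule: no output bounds the stream. -/
theorem T_no_emit_length (a c : List (Tok S)) (h : (runR p Rule.T a c).2 = []) :
    c.length + 1 ≤ p ∨ c = [] := by
  have key : ∀ (c a : List (Tok S)), (runR p Rule.T a c).2 = [] →
      a.length + c.length + 1 ≤ p ∨ c = [] := by
    intro c
    induction c with
    | nil => intro a _; exact Or.inr rfl
    | cons t l ih =>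
      intro a h
      rw [runR_cons] at h
      by_cases hp : p ≤ a.length + 1
      · simp [next, hp] at h
      · have h1 : (next p Rule.T a t).2 = none := by simp [next, hp]
        have h2 : (next p Rule.T a t).1 = a ++ [t] := by simp [next, hp]
        rw [h1, h2] at h
        have h3 : (runR p Rule.T (a ++ [t]) l).2 = [] := by simpa using h
        left
        rcases ih _ h3 with h4 | h4
        · simp only [List.length_append, List.length_cons, List.length_nil] at h4 ⊢
          omega
        · subst h4
          simp only [List.length_cons, List.length_nil]
          omega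
  rcases key c a h with h1 | h1
  · left; omega
  · exact Or.inr h1

lemma actives_snoc_self (U : Tok S) (a : List (Tok S)) : actives U (a ++ [U]) = actives U a := by
  simp [actives, List.countP_append]

lemma actives_snoc_ne {U t : Tok S} (ht : t ≠ U) (a : List (Tok S)) :
    actives U (a ++ [t]) = actives U a + 1 := by
  simp [actives, List.countP_append, ht]

lemma actives_cons_self (U : Tok S) (l : List (Tok S)) : actives U (U :: l) = actives U l := by
  simp [actives]

lemma actives_cons_ne {U t : Tok S} (ht : t ≠ U) (l : List (Tok S)) :
    actives U (t :: l) = actives U l + 1 := by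
  simp [actives, ht]

lemma trail_snoc_self (U : Tok S) (a : List (Tok S)) : trail U (a ++ [U]) = trail U a + 1 := by
  simp [trail]

/-- Count of the non-`U` tokens of a flush rule without output. -/
theorem R_no_emit_actives (hp : 1 ≤ p) (U : Tok S) (K : ℕ → ℕ) (b : Bool) (a c : List (Tok S))
    (h : (runR p (Rule.R U K b) a c).2 = []) : actives U c + 1 ≤ p ∨ c = [] := by
  have key : ∀ (c a : List (Tok S)), (runR p (Rule.R U K b) a c).2 = [] →
      actives U c = 0 ∨ actives U a + actives U c + 1 ≤ p := by
    intro c
    induction c with
    | nil => intro a _; left; simp [actives]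
    | cons t l ih =>
      intro a h
      rw [runR_cons] at h
      by_cases ht : t = U
      · subst ht
        by_cases h0 : K (actives t a) ≤ trail t a + 1
        · simp [next, h0] at h
        · have h1 : (next p (Rule.R t K b) a t).2 = none := by simp [next, h0]
          have h2 : (next p (Rule.R t K b) a t).1 = a ++ [t] := by simp [next, h0]
          rw [h1, h2] at h
          have h3 : (runR p (Rule.R t K b) (a ++ [t]) l).2 = [] := by simpa using h
          rw [actives_cons_self]
          have := ih _ h3
          rwa [actives_snoc_self] at this
      · by_cases h0 : p ≤ actives U a + 1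
        · simp [next, h0, ht] at h
        · have h1 : (next p (Rule.R U K b) a t).2 = none := by simp [next, h0, ht]
          have h2 : (next p (Rule.R U K b) a t).1 = a ++ [t] := by simp [next, h0, ht]
          rw [h1, h2] at h
          have h3 : (runR p (Rule.R U K b) (a ++ [t]) l).2 = [] := by simpa using h
          rw [actives_cons_ne ht]
          right
          have := ih _ h3
          rw [actives_snoc_ne ht] at this
          omega
  rcases key c a h with h1 | h1
  · left; omega
  · left; omega

/-- A small flush rule without output has no two adjacent `U`. -/
theorem R_small_no_emit (U : Tok S) (b : Bool) (a c₁ c₂ : List (Tok S))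
    (h : (runR p (Rule.R U (fun _ => 2) b) a (c₁ ++ U :: U :: c₂)).2 = []) : False := by
  rw [runR_append] at h
  have h' := h
  simp only [List.append_eq_nil_iff] at h'
  have h2 := h'.2
  set a' := (runR p (Rule.R U (fun _ => 2) b) a c₁).1 with ha'
  rw [runR_cons] at h2
  by_cases h0 : 2 ≤ trail U a' + 1
  · simp [next, h0] at h2
  · have h1 : (next p (Rule.R U (fun _ => 2) b) a' U).2 = none := by simp [next, h0]
    have h3 : (next p (Rule.R U (fun _ => 2) b) a' U).1 = a' ++ [U] := by simp [next, h0]
    rw [h1, h3] at h2
    have h4 : (runR p (Rule.R U (fun _ => 2) b) (a' ++ [U]) (U :: c₂)).2 = [] := by simpa using h2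
    rw [runR_cons] at h4
    have h5 : 2 ≤ trail U (a' ++ [U]) + 1 := by
      rw [trail_snoc_self]; omega
    simp [next, h5] at h4

/-- Bounding a list by its non-`U` entries and `U`-runs. -/
theorem flatMap_runs_bound (f : Tok S → List (Tok S)) (U : Tok S) (B₁ B₂ : ℕ) (cs : List (Tok S))
    (hB₁ : ∀ r c₁ c₂, cs = c₁ ++ List.replicate r U ++ c₂ → (pw r (f U)).length ≤ B₁)
    (hB₂ : ∀ c ∈ cs, (f c).length ≤ B₂) :
    (cs.flatMap f).length ≤ (actives U cs + 1) * B₁ + actives U cs * B₂ := by
  have key : ∀ (l pre : List (Tok S)) (r : ℕ), cs = pre ++ List.replicate r U ++ l →
      r * (f U).length + (l.flatMap f).length ≤ (actives U l + 1) * B₁ + actives U l * B₂ := by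
    intro l
    induction l with
    | nil =>
      intro pre r h
      have := hB₁ r pre [] (by simpa using h)
      simp only [length_pw] at this
      simp [actives]
      exact this
    | cons t l ih =>
      intro pre r h
      by_cases ht : t = U
      · subst ht
        have h1 := ih pre (r + 1) (by
          rw [h, List.replicate_succ', List.append_assoc, List.append_assoc]
          simp)
        rw [actives_cons_self]
        simp only [List.flatMap_cons, List.length_append]
        have h2 : (r + 1) * (f t).length = r * (f t).length + (f t).length := by ring
        omega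
      · have h1 := hB₁ r pre (t :: l) h
        simp only [length_pw] at h1
        have h2 := hB₂ t (by rw [h]; simp)
        have h3 := ih (pre ++ List.replicate r U ++ [t]) 0 (by
          rw [h]; simp)
        rw [actives_cons_ne ht]
        simp only [List.flatMap_cons, List.length_append]
        simp only [zero_mul, zero_add] at h3
        nlinarith
  have := key cs [] 0 (by simp)
  simpa using this

end

end Vale.Agent.Lib.P329.Tw
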