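import Vale.Agent.Lib.P329.Tw.WindowB

/-! The window lemma. -/

namespace Vale.Agent.Lib.P329.Tw

open Classical

noncomputable section

variable {S : Type} (p : ℕ)

lemma replicate_flatMap_pw {α β : Type} (f : α → List β) (r : ℕ) (x : α) :
    (List.replicate r x).flatMap f = pw r (f x) := by
  induction r with
  | zero => simp
  | succ r ih => rw [List.replicate_succ, List.flatMap_cons, ih, pw_succ]

/-- A run of copies inside the word cannot be long unless the copy is rotation-conjugate to `ρ`. -/
private lemma run_bound {ρ u : List (Tok S)} {r N X : ℕ} (hρ : Prim ρ)
    (hu : ¬ PCong u ρ) (hinf : pw r u <:+: pw N ρ) (hX : u.length + ρ.length ≤ X) :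
    (pw r u).length ≤ X := by
  by_cases h0 : u = []
  · subst h0
    simp [length_pw]
  · have h1 : ¬ (u.length + ρ.length ≤ r * u.length) := fun h2 => hu (fw_pcong hρ h0 hinf h2)
    rw [length_pw]
    omega

/-- The window lemma. -/
theorem window {ρ : List (Tok S)} (hρ : Prim ρ) (hp : 1 ≤ p) (P : List (Rule S)) (hP : PosK P)
    (s : List (List (Tok S))) (v : List (Tok S)) (N : ℕ) (hv : v <:+: pw N ρ)
    (hW : WinHyp p ρ P s v) (hE : (runT p P s v).2 = []) :
    v.length ≤ Cc p P.length * ρ.length := by
  have hρ0 : 1 ≤ ρ.length := List.length_pos_iff.mpr hρ.1
  induction P using List.reverseRecOn generalizing s v with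
  | nil =>
    have h0 : v = [] := by simpa using hE
    subst h0
    simp
  | append_singleton A R ih =>
    have hA : PosK A := hP.left
    have hWA : WinHyp p ρ A s v := hW.lower
    set L := Cc p A.length * ρ.length with hL
    set X := L + 1 + 2 * ρ.length with hXdef
    have hcc : Cc p (A ++ [R]).length = (2 * p + 2) * (Cc p A.length + 3) := by
      simp [Cc]
    have hX : X ≤ (Cc p A.length + 3) * ρ.length := by
      rw [hXdef, hL, add_mul]
      have : 3 * ρ.length = 2 * ρ.length + ρ.length := by ring
      omega
    have hfinal : (2 * p + 2) * X ≤ Cc p (A ++ [R]).length * ρ.length := by
      rw [hcc, mul_assoc]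
      exact Nat.mul_le_mul_left _ hX
    have hLX : L + 1 ≤ X := by omega
    have hE' : (runR p R ((s.drop A.length).headD []) (runT p A s v).2).2 = [] := by
      have h1 := congrArg Prod.snd (runT_split p A [R] s v)
      rw [hE] at h1
      simpa [runT_cons] using h1.symm
    -- the stream of `A`
    cases hst : (runT p A s v).2 with
    | nil =>
      have h1 := ih hA s v hv hWA hst
      have h2 : L ≤ X := by omega
      have h3 : 1 * X ≤ (2 * p + 2) * X := Nat.mul_le_mul_right _ (by omega)
      omega
    | cons c cs =>
      rw [hst] at hE'
      have hIH : ∀ s' v', WinHyp p ρ A s' v' → v' <:+: v → (runT p A s' v').2 = [] →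
          v'.length ≤ L := by
        intro s' v' h1 h2 h3
        exact ih hA s' v' (h2.trans hv) h1 h3
      obtain ⟨v₁, vₑ, hvsplit, hv₁, hvₑ, hcs⟩ := pieces p hA L ρ hIH hWA hst
      -- the middle part is inside a power of `ρ`
      have hmid : cs.flatMap (ex A) <:+: pw N ρ := by
        refine List.IsInfix.trans ?_ hv
        rw [hvsplit]
        exact ⟨v₁, vₑ, by simp [List.append_assoc]⟩
      have hrule := hW.2 A R [] rfl
      have hflat : (cs.flatMap (ex A)).length ≤ 2 * p * X := by
        cases R with
        | T =>
          have h1 := T_no_emit_length p _ (c :: cs) hE'
          have h2 : cs.length + 2 ≤ p := by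
            rcases h1 with h1 | h1
            · simpa [add_assoc] using h1
            · simp at h1
          have h3 : (cs.flatMap (ex A)).length ≤ cs.length * (L + 1) := by
            rw [List.length_flatMap]
            have : ∀ c' ∈ cs, (ex A c').length ≤ L + 1 := hcs
            calc (cs.map (fun c' => (ex A c').length)).sum
                ≤ (cs.map (fun _ => L + 1)).sum := List.sum_le_sum (fun c' hc' => this c' hc')
              _ = cs.length * (L + 1) := by simp
          have h4 : cs.length * (L + 1) ≤ p * X :=
            Nat.mul_le_mul (by omega) hLX
          have h5 : p * X ≤ 2 * p * X := by
            rw [mul_comm 2 p, mul_assoc]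
            exact Nat.mul_le_mul_left _ (by omega)
          omega
        | L Q K =>
          have h1 := L_no_emit p Q K _ (c :: cs) hE'
          have h2 : cs = List.replicate cs.length Q := by
            simp only [List.length_cons, List.replicate_succ, List.cons.injEq] at h1
            exact h1.2
          have hbound : (cs.flatMap (ex A)).length ≤ X := by
            rcases hrule with h3 | h3
            · by_cases h4 : cs = []
              · subst h4; simp
              · have hQ : Q ∈ cs := by
                  rw [h2]
                  exact List.mem_replicate.2 ⟨by
                    have := List.length_pos_iff.mpr h4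
                    simpa using this.ne', rfl⟩
                have hQl := hcs Q hQ
                rw [h2, replicate_flatMap_pw]
                rw [h2, replicate_flatMap_pw] at hmid
                exact run_bound hρ h3 hmid (by omega)
            · have h4 : cs = [] := by
                cases hcs' : cs with
                | nil => rfl
                | cons d ds =>
                  exfalso
                  have h5 : d ∈ cs := by rw [hcs']; simp
                  have h6 : d = Q := by
                    rw [h2] at h5
                    exact (List.mem_replicate.1 h5).2
                  refine h3 d ?_ h6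
                  rw [hst]
                  simpa [hcs'] using h5
              subst h4
              simp
          have h5 : 1 * X ≤ 2 * p * X := Nat.mul_le_mul_right _ (by omega)
          omega
        | R U K b =>
          have h1 := R_no_emit_actives p hp U K b _ (c :: cs) hE'
          have h2 : actives U cs + 1 ≤ p := by
            rcases h1 with h1 | h1
            · have h3 : actives U cs ≤ actives U (c :: cs) := by
                by_cases hc : c = U
                · subst hc; rw [actives_cons_self]
                · rw [actives_cons_ne hc]; omega
              omega
            · simp at h1
          have hB₁ : ∀ r c₁ c₂, cs = c₁ ++ List.replicate r U ++ c₂ →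
              (pw r (ex A U)).length ≤ X := by
            intro r c₁ c₂ hsp
            by_cases hr : r = 0
            · subst hr; simp
            have hU : U ∈ cs := by
              rw [hsp]
              simp [List.mem_replicate, hr]
            have hUl := hcs U hU
            have hinf : pw r (ex A U) <:+: cs.flatMap (ex A) := by
              rw [hsp, List.flatMap_append, List.flatMap_append, replicate_flatMap_pw]
              exact ⟨c₁.flatMap (ex A), c₂.flatMap (ex A), by simp [List.append_assoc]⟩
            cases b with
            | false =>
              have hK : K = fun _ => 2 := hrule
              subst hK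
              have hr1 : r = 1 := by
                by_contra hr1
                obtain ⟨r', rfl⟩ : ∃ r', r = r' + 2 := ⟨r - 2, by omega⟩
                refine R_small_no_emit p U false ((s.drop A.length).headD []) (c :: c₁) (List.replicate r' U ++ c₂) ?_
                have : c :: c₁ ++ U :: U :: (List.replicate r' U ++ c₂) = c :: cs := by
                  rw [hsp, List.replicate_succ, List.replicate_succ]
                  simp [List.append_assoc]
                rw [this]
                exact hE'
              subst hr1
              simp only [pw_one]
              omega
            | true =>
              have hu : ¬ PCong (ex A U) ρ := hrule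
              exact run_bound hρ hu (hinf.trans hmid) (by omega)
          have h3 := flatMap_runs_bound (ex A) U X (L + 1) cs hB₁ hcs
          have h4 : (actives U cs + 1) * X + actives U cs * (L + 1) ≤ p * X + p * X := by
            refine Nat.add_le_add (Nat.mul_le_mul_right _ h2) ?_
            exact Nat.mul_le_mul (by omega) hLX
          have h5 : 2 * p * X = p * X + p * X := by ring
          omega
      have hlen : v.length = v₁.length + (cs.flatMap (ex A)).length + vₑ.length := by
        rw [hvsplit]
        simp only [List.length_append]
      have h6 : (2 * p + 2) * X = 2 * p * X + 2 * X := by ring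
      omega

end

end Vale.Agent.Lib.P329.Tw
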