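import Vale.Agent.Lib.P329.Tw.WindowC

/-! Exactness of tokens read inside a window. -/

namespace Vale.Agent.Lib.P329.Tw

open Classical

noncomputable section

variable {S : Type} (p : ℕ)

/-- No overrun gives exactness of all tokens read inside. -/
theorem NoOver.inExact {A : List (Rule S)} {s : List (List (Tok S))} {v : List (Tok S)}
    (h : NoOver p A s v) : InExact p A s v := by
  intro w₁ u w₂ c hv hst hseg
  subst hv
  have h1 := ((NoOver_append p A s (w₁ ++ u) w₂).1 h).1
  have h2 := ((NoOver_append p A s w₁ u).1 h1).2
  rw [hst] at h2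
  exact seg_exact p A u c hseg h2

/-- Segments read inside a window are exact. -/
private lemma seg_list_exact {A : List (Rule S)} {s : List (List (Tok S))} {v : List (Tok S)}
    (hex : InExact p A s v) {us : List (List (Tok S))} {cs : List (Tok S)}
    (hF : List.Forall₂ (fun u t => Seg p A u t) us cs) :
    ∀ (w₁ w₂ : List (Tok S)), v = w₁ ++ us.flatten ++ w₂ → (runT p A s w₁).1 = root A →
      us.flatten = cs.flatMap (ex A) ∧ ∀ c ∈ cs, ex A c ≠ [] := by
  induction hF with
  | nil => intro _ _ _ _; simp
  | @cons u c us cs hu _ ih =>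
    intro w₁ w₂ hv hst
    have h1 : u = ex A c := hex w₁ u (us.flatten ++ w₂) c
      (by rw [hv]; simp [List.append_assoc]) hst hu
    have hst2 : (runT p A s (w₁ ++ u)).1 = root A := by
      rw [runT_append, hst]
      have hu' : runT p A (root A) u = (root A, [c]) := hu
      rw [hu']
    obtain ⟨h2, h3⟩ := ih (w₁ ++ u) w₂ (by rw [hv]; simp [List.append_assoc]) hst2
    refine ⟨by simp [h2, ← h1], ?_⟩
    intro c' hc'
    rcases List.mem_cons.1 hc' with rfl | hc'
    · rw [← h1]; exact Seg.ne_nil p hu
    · exact h3 c' hc'

private lemma noOverR_of_not_L (R : Rule S) (hR : ∀ Q K, R ≠ Rule.L Q K) (a l : List (Tok S)) :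
    noOverR p R a l := by
  induction l generalizing a with
  | nil => simp [noOverR]
  | cons t l ih =>
    refine ⟨?_, ih _⟩
    cases R with
    | T => trivial
    | R U K b => trivial
    | L Q K => exact absurd rfl (hR Q K)

/-- Exactness lifts through one more rule. -/
theorem inExact_snoc {ρ : List (Tok S)} (hρ : Prim ρ) (A : List (Rule S)) (hA : PosK A)
    (R : Rule S) (s : List (List (Tok S))) (v : List (Tok S)) (N : ℕ) (hv : v <:+: pw N ρ)
    (hex : InExact p A s v)
    (hR : match R with
      | .L Q K => (¬ PCong (ex A Q) ρ ∧ ρ.length < K) ∨ (1 ≤ K ∧ TailNo p A Q s v)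
      | _ => True) :
    InExact p (A ++ [R]) s v := by
  intro w₁ u w₂ c hvs hst hseg
  obtain ⟨cs, hAs, hRs⟩ := (seg_split p A [R] u c).1 hseg
  have hst' : (runT p A s w₁).1 = root A := by
    rw [runT_split, root_append] at hst
    exact (List.append_inj hst (by simp [length_runT])).1
  obtain ⟨us, hu, hF⟩ := segments p A hA u cs hAs
  obtain ⟨h1, h2⟩ := seg_list_exact p hex hF w₁ w₂ (by rw [← hu]; exact hvs) hst'
  have hucs : u = cs.flatMap (ex A) := by rw [hu, h1]
  suffices hno : NoOver p [R] (root [R]) cs by
    have h3 := seg_exact p [R] cs c hRs hno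
    rw [ex_snoc, hucs]
    simp [ex] at h3
    rw [h3]
  have hnoR : noOverR p R [] cs := by
    cases R with
    | T => exact noOverR_of_not_L p _ (by simp) _ _
    | R U K b => exact noOverR_of_not_L p _ (by simp) _ _
    | L Q K =>
      by_contra hcon
      obtain ⟨c₁, c₂, hcs⟩ := over_split p Q K cs hcon
      rcases hR with ⟨hP, hK⟩ | ⟨hK, hT⟩
      · -- the factor of a power
        have hQmem : Q ∈ cs := by
          rw [hcs]
          simp
        have hz : ex A Q ≠ [] := h2 Q hQmem
        have hzl : 0 < (ex A Q).length := List.length_pos_iff.2 hz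
        apply hP
        have hfac : pw (K + 1) (ex A Q) <:+: pw N ρ := by
          refine List.IsInfix.trans ?_ hv
          rw [hvs]
          have e : (List.replicate (K + 1) Q).flatMap (ex A) = pw (K + 1) (ex A Q) := by
            simp [pw, List.flatMap_def, List.map_replicate]
          refine ⟨w₁ ++ c₁.flatMap (ex A), c₂.flatMap (ex A) ++ w₂, ?_⟩
          rw [hucs, hcs]
          simp only [List.flatMap_append, e, List.append_assoc]
        refine fw_pcong hρ hz hfac ?_
        have : (K + 1) * (ex A Q).length = K * (ex A Q).length + (ex A Q).length := by ring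
        have h4 : K ≤ K * (ex A Q).length := Nat.le_mul_of_pos_right _ hzl
        omega
      · -- a second copy in the tail
        obtain ⟨K', rfl⟩ : ∃ K', K = K' + 1 := ⟨K - 1, by omega⟩
        have hstream : (runT p A s v).2 =
            ((runT p A s w₁).2 ++ c₁) ++ Q :: Q :: (List.replicate K' Q ++ c₂ ++ (runT p A (root A) w₂).2) := by
          rw [hvs, runT_append, runT_append, hst', hAs, hcs]
          simp [List.replicate_succ, List.append_assoc]
        have hmem : ∀ X Y : List (Tok S), Q ∈ (X ++ Q :: Q :: Y).tail := by
          intro X Y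
          cases X with
          | nil => simp
          | cons x X => simp
        exact hT Q (by rw [hstream]; exact hmem _ _) rfl
  simpa [NoOver, root] using hnoR

end

end Vale.Agent.Lib.P329.Tw
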