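import Vale.Agent.Lib.P329.Tw.Basic
import Mathlib.Data.List.PeriodicityLemma

/-! Word combinatorics: Fine-Wilf consequences for powers, primitive roots, rotations. -/

namespace Vale.Agent.Lib.P329.Tw

open Classical

noncomputable section

variable {α : Type}

/-- A factor of a word has the periods of the word. -/
theorem hasPeriod_of_factor {u w : List α} {q : ℕ} (per : List.HasPeriod w q) (h : u <:+: w) :
    List.HasPeriod u q := by
  obtain ⟨s, t, rfl⟩ := h
  exact per.factor

/-- Every nonempty word has a primitive root. -/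
theorem exists_prim_root {w : List α} (h : w ≠ []) : ∃ (x : List α) (n : ℕ), Prim x ∧ 1 ≤ n ∧ w = pw n x := by
  induction hm : w.length using Nat.strong_induction_on generalizing w with
  | _ m ih =>
    by_cases hp : Prim w
    · exact ⟨w, 1, hp, le_refl _, by simp⟩
    · have : ∃ (x : List α) (n : ℕ), w = pw n x ∧ n ≠ 1 := by
        by_contra hcon
        push Not at hcon
        exact hp ⟨h, fun x n hx => hcon x n hx⟩
      obtain ⟨x, n, hx, hn⟩ := this
      have hn0 : n ≠ 0 := by
        rintro rfl
        exact h (by simpa using hx)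
      have hx0 : x ≠ [] := by
        rintro rfl
        apply h
        rw [hx]
        simp [pw]
      have hxlen : 0 < x.length := List.length_pos_iff.2 hx0
      have hn2 : 2 ≤ n := by omega
      have hlen : w.length = n * x.length := by rw [hx, length_pw]
      have hlt : x.length < m := by
        rw [← hm, hlen]
        nlinarith
      obtain ⟨y, k, hy, hk, hxy⟩ := ih _ hlt hx0 rfl
      refine ⟨y, n * k, hy, Nat.mul_pos (by omega) hk, ?_⟩
      rw [pw_mul, ← hxy, hx]

/-- Length of the primitive root (zero for the empty word). -/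
def rootLen (w : List α) : ℕ :=
  if h : w ≠ [] then (Classical.choose (exists_prim_root h)).length else 0

lemma hasPeriod_pw (n : ℕ) (x : List α) : List.HasPeriod (pw n x) x.length := by
  cases n with
  | zero => simp
  | succ n =>
    rw [List.HasPeriod]
    have h1 : List.take x.length (pw (n + 1) x) = x := by
      rw [pw_succ]; simp
    rw [h1, ← pw_comm_append]
    exact List.prefix_append _ _

lemma eq_pw_of_hasPeriod {w : List α} {d : ℕ} (k : ℕ) (per : List.HasPeriod w d)
    (hlen : w.length = k * d) : w = pw k (w.take d) := by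
  induction k generalizing w with
  | zero =>
    have : w = [] := List.length_eq_zero_iff.1 (by simpa using hlen)
    simp [this]
  | succ k ih =>
    have hd : d ≤ w.length := by rw [hlen]; nlinarith
    have hper' : List.HasPeriod (w.drop d) d := by
      apply @List.HasPeriod.factor _ (w.take d) (w.drop d) [] d
      simpa using per
    have hlen' : (w.drop d).length = k * d := by
      rw [List.length_drop, hlen]
      have : (k + 1) * d = k * d + d := by ring
      omega
    have h2 := ih hper' hlen'
    rw [pw_succ]
    cases k with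
    | zero =>
      have h3 : w.drop d = [] := List.length_eq_zero_iff.1 (by simpa using hlen')
      have h4 := List.take_append_drop d w
      rw [h3] at h4
      simpa using h4.symm
    | succ k =>
      have h5 : (w.drop d).take d = w.take d := by
        obtain ⟨z, hz⟩ := per.drop_prefix
        have hdl : d ≤ (w.drop d).length := by rw [hlen']; nlinarith
        have h6 : List.take d (w.drop d ++ z) = List.take d (w.drop d) :=
          List.take_append_of_le_length hdl
        rw [hz] at h6
        exact h6.symm
      rw [h5] at h2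
      have h4 := List.take_append_drop d w
      rw [h2] at h4
      exact h4.symm

lemma Prim.eq_of_hasPeriod {v : List α} {g : ℕ} (hv : Prim v) (per : List.HasPeriod v g)
    (hg : g ∣ v.length) : g = v.length := by
  obtain ⟨k, hk⟩ := hg
  have h1 := eq_pw_of_hasPeriod k per (by rw [hk]; ring)
  have h2 := hv.2 _ _ h1
  rw [hk, h2]; ring

/-- A primitive word does not commute nontrivially. -/
lemma Prim.comm_split {ρ a b : List α} (hρ : Prim ρ) (h1 : ρ = a ++ b) (h2 : ρ = b ++ a) :
    a = [] ∨ b = [] := by
  by_contra hcon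
  push Not at hcon
  obtain ⟨ha, hb⟩ := hcon
  have hla : 0 < a.length := List.length_pos_iff.2 ha
  have hlb : 0 < b.length := List.length_pos_iff.2 hb
  have hlen : ρ.length = a.length + b.length := by rw [h1]; simp
  have pa : List.HasPeriod ρ a.length := by
    rw [List.HasPeriod]
    have : List.take a.length ρ = a := by rw [h1]; simp
    rw [this]
    refine ⟨a, ?_⟩
    conv_lhs => rw [h1]
    conv_rhs => rw [h2]
    simp
  have pb : List.HasPeriod ρ b.length := by
    rw [List.HasPeriod]
    have : List.take b.length ρ = b := by rw [h2]; simp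
    rw [this]
    refine ⟨b, ?_⟩
    conv_lhs => rw [h2]
    conv_rhs => rw [h1]
    simp
  have hg := pa.gcd pb (by omega)
  have hgpos : 0 < a.length.gcd b.length := Nat.gcd_pos_of_pos_left _ hla
  have hdvd : a.length.gcd b.length ∣ ρ.length := by
    rw [hlen]
    exact Dvd.dvd.add (Nat.gcd_dvd_left _ _) (Nat.gcd_dvd_right _ _)
  have heq := hρ.eq_of_hasPeriod hg hdvd
  have hle : a.length.gcd b.length ≤ a.length := Nat.gcd_le_left _ hla
  omega

/-- A factor of a power with the length of the base is a rotation, with the explicit position. -/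
lemma factor_of_pw {ρ ρ' s t : List α} {N : ℕ} (h : pw N ρ = s ++ ρ' ++ t)
    (hlen : ρ'.length = ρ.length) :
    ∃ (q : ℕ) (a b : List α), ρ = a ++ b ∧ s = pw q ρ ++ a ∧ ρ' = b ++ a := by
  induction N generalizing s with
  | zero =>
    have h0 : s ++ ρ' ++ t = [] := by simpa using h.symm
    simp only [List.append_eq_nil_iff] at h0
    obtain ⟨⟨hs, hρ'⟩, -⟩ := h0
    have hρ0 : ρ = [] := List.length_eq_zero_iff.1 (by rw [← hlen, hρ']; rfl)
    exact ⟨0, [], [], by simp [hρ0], by simp [hs], by simp [hρ']⟩
  | succ N ih =>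
    rw [pw_succ] at h
    by_cases hs : ρ.length ≤ s.length
    · have h2 : ρ ++ pw N ρ = s ++ (ρ' ++ t) := by simpa [List.append_assoc] using h
      obtain ⟨s', hs', hrest⟩ : ∃ s', s = ρ ++ s' ∧ pw N ρ = s' ++ (ρ' ++ t) := by
        rcases List.append_eq_append_iff.1 h2 with ⟨a', h3, h4⟩ | ⟨c', h3, h4⟩
        · exact ⟨a', by rw [h3], by rw [h4]⟩
        · have : c' = [] := by
            have hl := congrArg List.length h3
            simp only [List.length_append] at hl
            exact List.length_eq_zero_iff.1 (by omega)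
          subst this
          exact ⟨[], by simpa using h3.symm, by simpa using h4.symm⟩
      obtain ⟨q, a, b, h1, h3, h4⟩ := ih (s := s') (by simpa [List.append_assoc] using hrest)
      refine ⟨q + 1, a, b, h1, ?_, h4⟩
      rw [hs', h3, pw_succ, List.append_assoc]
    · have h2 : ρ ++ pw N ρ = s ++ (ρ' ++ t) := by simpa [List.append_assoc] using h
      obtain ⟨b, hb, hrest⟩ : ∃ b, ρ = s ++ b ∧ b ++ pw N ρ = ρ' ++ t := by
        rcases List.append_eq_append_iff.1 h2 with ⟨a', h3, h4⟩ | ⟨c', h3, h4⟩
        · exfalso
          have hl := congrArg List.length h3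
          simp only [List.length_append] at hl
          omega
        · exact ⟨c', h3, by rw [h4]⟩
      refine ⟨0, s, b, hb, by simp, ?_⟩
      by_cases hs0 : s = []
      · subst hs0
        have hbρ : b = ρ := by simpa using hb.symm
        subst hbρ
        have hlen2 : ρ'.length ≤ b.length := by omega
        rcases List.append_eq_append_iff.1 hrest with ⟨a', h3, h4⟩ | ⟨c', h3, h4⟩
        · have : a' = [] := by
            have hl := congrArg List.length h3
            simp only [List.length_append] at hl
            exact List.length_eq_zero_iff.1 (by omega)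
          subst this
          simpa using h3
        · have : c' = [] := by
            have hl := congrArg List.length h3
            simp only [List.length_append] at hl
            exact List.length_eq_zero_iff.1 (by omega)
          subst this
          simpa using h3.symm
      · have hN : N ≠ 0 := by
          rintro rfl
          have hl := congrArg List.length h
          have hs1 : 0 < s.length := List.length_pos_iff.2 hs0
          simp only [pw_zero, List.append_nil, List.length_append] at hl
          omega
        obtain ⟨N', rfl⟩ := Nat.exists_eq_succ_of_ne_zero hN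
        rw [Nat.succ_eq_add_one, pw_succ] at hrest
        have h5 : b ++ s ++ (b ++ pw N' ρ) = ρ' ++ t := by
          rw [← hrest, show ρ ++ pw N' ρ = s ++ b ++ pw N' ρ from congrArg (· ++ pw N' ρ) hb]
          simp [List.append_assoc]
        have h6 : (b ++ s).length = ρ'.length := by
          rw [hlen, hb]; simp [Nat.add_comm]
        exact (List.append_inj h5 h6).1.symm

/-- W2. Equal powers of a word and a primitive word. -/
theorem pow_eq_pow_prim {τ v : List α} {c M : ℕ} (hv : Prim v) (hc : 1 ≤ c)
    (h : pw c τ = pw M v) : ∃ j, τ = pw j v := by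
  by_cases hτ : τ = []
  · exact ⟨0, by simp [hτ]⟩
  have hlτ : 0 < τ.length := List.length_pos_iff.2 hτ
  have hlv : 0 < v.length := List.length_pos_iff.2 hv.1
  have hlen : c * τ.length = M * v.length := by
    have := congrArg List.length h
    simpa using this
  have hM : 1 ≤ M := by
    rcases Nat.eq_zero_or_pos M with rfl | h0
    · have : 0 < c * τ.length := Nat.mul_pos hc hlτ
      omega
    · exact h0
  by_cases hc1 : c = 1
  · subst hc1
    exact ⟨M, by simpa using h⟩
  by_cases hM1 : M = 1
  · subst hM1
    have h2 : v = pw c τ := by simpa using h.symm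
    exact absurd (hv.2 _ _ h2) hc1
  have hc2 : 2 ≤ c := by omega
  have hM2 : 2 ≤ M := by omega
  have p1 : List.HasPeriod (pw c τ) τ.length := hasPeriod_pw _ _
  have p2 : List.HasPeriod (pw c τ) v.length := by rw [h]; exact hasPeriod_pw _ _
  have hzlen : (pw c τ).length = c * τ.length := length_pw _ _
  have hle : τ.length + v.length ≤ (pw c τ).length := by
    rw [hzlen]
    have h1 : 2 * τ.length ≤ c * τ.length := Nat.mul_le_mul_right _ hc2
    have h2 : 2 * v.length ≤ M * v.length := Nat.mul_le_mul_right _ hM2
    omega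
  have pg := p1.gcd p2 (by
    have := hle
    exact le_trans (Nat.sub_le _ _) hle)
  have hvfac : v <:+: pw c τ := by
    rw [h]
    obtain ⟨M', rfl⟩ : ∃ M', M = M' + 1 := ⟨M - 1, by omega⟩
    rw [pw_succ]
    exact (List.prefix_append _ _).isInfix
  have pgv := hasPeriod_of_factor pg hvfac
  have hgpos : 0 < τ.length.gcd v.length := Nat.gcd_pos_of_pos_left _ hlτ
  have heq := hv.eq_of_hasPeriod pgv (Nat.gcd_dvd_right _ _)
  have hdvd : v.length ∣ τ.length := by
    have := Nat.gcd_dvd_left τ.length v.length
    rwa [heq] at this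
  obtain ⟨j, hj⟩ := hdvd
  refine ⟨j, ?_⟩
  have hτv : List.HasPeriod τ v.length := by
    apply hasPeriod_of_factor p2
    obtain ⟨c', rfl⟩ : ∃ c', c = c' + 1 := ⟨c - 1, by omega⟩
    rw [pw_succ]
    exact (List.prefix_append _ _).isInfix
  have h3 := eq_pw_of_hasPeriod j hτv (by rw [hj]; ring)
  have h4 : τ.take v.length = v := by
    have hjpos : 1 ≤ j := by
      rcases Nat.eq_zero_or_pos j with rfl | h0
      · exfalso
        rw [Nat.mul_zero] at hj
        omega
      · exact h0
    obtain ⟨c', rfl⟩ : ∃ c', c = c' + 1 := ⟨c - 1, by omega⟩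
    obtain ⟨M', rfl⟩ : ∃ M', M = M' + 1 := ⟨M - 1, by omega⟩
    rw [pw_succ, pw_succ] at h
    have hle2 : v.length ≤ τ.length := by rw [hj]; nlinarith
    have h5 := congrArg (List.take v.length) h
    rw [List.take_append_of_le_length hle2] at h5
    simpa using h5
  rw [h4] at h3
  exact h3

/-- W3. Occurrences of a primitive word in its powers are aligned. -/
theorem prim_align {ρ X₁ X₂ : List α} {N : ℕ} (hρ : Prim ρ) (h : pw N ρ = X₁ ++ ρ ++ X₂) :
    ∃ q, X₁ = pw q ρ := by
  obtain ⟨q, a, b, h1, h2, h3⟩ := factor_of_pw h rfl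
  rcases hρ.comm_split h1 (h1.symm ▸ h3) with ha | hb
  · subst ha
    exact ⟨q, by simpa using h2⟩
  · subst hb
    refine ⟨q + 1, ?_⟩
    have : ρ = a := by simpa using h1
    rw [h2, pw_succ', this]

/-- Rotation calculus: a rotation is a swap of the two parts of a split. -/
lemma isRotated_iff_split {x y : List α} : x ~r y ↔ ∃ A B, x = A ++ B ∧ y = B ++ A := by
  constructor
  · rintro ⟨n, rfl⟩
    refine ⟨x.take (n % x.length), x.drop (n % x.length), (List.take_append_drop _ _).symm, ?_⟩
    exact List.rotate_eq_drop_append_take_mod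
  · rintro ⟨A, B, rfl, rfl⟩
    refine ⟨A.length, ?_⟩
    exact List.rotate_append_length_eq A B

lemma rot_pw_aux {τ A B : List α} {k : ℕ} (h : pw k τ = A ++ B) :
    ∃ τ', τ' ~r τ ∧ pw k τ' = B ++ A ∧ B ++ τ = τ' ++ B := by
  induction A generalizing τ B with
  | nil =>
    have hB : B = pw k τ := by simpa using h.symm
    exact ⟨τ, List.IsRotated.refl _, by simpa using h, by rw [hB, pw_comm_append]⟩
  | cons a A' ih =>
    have hk : k ≠ 0 := by
      rintro rfl
      simp at h
    obtain ⟨k', rfl⟩ := Nat.exists_eq_succ_of_ne_zero hk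
    cases τ with
    | nil =>
      exfalso
      have : pw (k' + 1) ([] : List α) = [] := by simp [pw]
      rw [Nat.succ_eq_add_one, this] at h
      simp at h
    | cons a0 t₁ =>
      rw [Nat.succ_eq_add_one, pw_succ] at h
      have ha : a0 = a := by simpa using congrArg List.head? h
      subst ha
      have conj : ∀ m : ℕ, pw m (a0 :: t₁) ++ [a0] = a0 :: pw m (t₁ ++ [a0]) := by
        intro m
        induction m with
        | zero => simp
        | succ m ihm =>
          rw [pw_succ, pw_succ]
          have e1 : (a0 :: t₁ ++ pw m (a0 :: t₁)) ++ [a0] = a0 :: t₁ ++ (pw m (a0 :: t₁) ++ [a0]) := by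
            simp [List.append_assoc]
          rw [e1, ihm]
          simp [List.append_assoc]
      have h1 : pw (k' + 1) (t₁ ++ [a0]) = A' ++ (B ++ [a0]) := by
        have h2 := conj (k' + 1)
        rw [pw_succ] at h2
        rw [h] at h2
        simpa [List.append_assoc] using h2.symm
      obtain ⟨τ', hrot, hp, hc⟩ := ih h1
      refine ⟨τ', ?_, ?_, ?_⟩
      · refine hrot.trans ?_
        rw [isRotated_iff_split]
        exact ⟨t₁, [a0], rfl, rfl⟩
      · rw [Nat.succ_eq_add_one, hp]
        simp [List.append_assoc]
      · have h2 : (B ++ a0 :: t₁) ++ [a0] = (τ' ++ B) ++ [a0] := by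
          simpa [List.append_assoc] using hc
        exact List.append_cancel_right h2

/-- Primitive is invariant under rotation. -/
theorem Prim.of_isRotated {x y : List α} (h : x ~r y) (hx : Prim x) : Prim y := by
  refine ⟨?_, ?_⟩
  · intro hy
    subst hy
    have : x = [] := List.isRotated_nil_iff.1 h
    exact hx.1 this
  · intro z n hz
    obtain ⟨A, B, hy, hxe⟩ := isRotated_iff_split.1 h.symm
    have h1 : pw n z = A ++ B := by rw [← hz, hy]
    obtain ⟨τ', -, h2, -⟩ := rot_pw_aux h1
    exact hx.2 τ' n (by rw [hxe, h2])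

/-- W1. Fine-Wilf for a power inside powers of a primitive word. -/
theorem fw_pcong {u ρ : List α} {r N : ℕ} (hρ : Prim ρ) (hu : u ≠ [])
    (h : pw r u <:+: pw N ρ) (hlen : u.length + ρ.length ≤ r * u.length) : PCong u ρ := by
  have hlu : 0 < u.length := List.length_pos_iff.2 hu
  have hlρ : 0 < ρ.length := List.length_pos_iff.2 hρ.1
  have p1 : List.HasPeriod (pw r u) u.length := hasPeriod_pw _ _
  have p2 : List.HasPeriod (pw r u) ρ.length := hasPeriod_of_factor (hasPeriod_pw N ρ) h
  have hzlen : (pw r u).length = r * u.length := length_pw _ _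
  have pg := p1.gcd p2 (by
    rw [hzlen]
    exact le_trans (Nat.sub_le _ _) hlen)
  obtain ⟨s, t, hst⟩ := h
  -- the prefix of the length of rho of z
  set z := pw r u with hz
  have hρle : ρ.length ≤ z.length := by
    rw [hzlen]
    omega
  set ρ' := z.take ρ.length with hρ'
  have hρ'len : ρ'.length = ρ.length := by
    rw [hρ', List.length_take]; omega
  have hfac : pw N ρ = s ++ ρ' ++ (z.drop ρ.length ++ t) := by
    rw [← hst, hρ', List.append_assoc, List.append_assoc, ← List.append_assoc (List.take ρ.length z),
      List.take_append_drop]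
  obtain ⟨q, a, b, h1, h2, h3⟩ := factor_of_pw hfac hρ'len
  have hrot : ρ ~r ρ' := by
    rw [isRotated_iff_split]
    exact ⟨a, b, h1, h3⟩
  have hρ'prim : Prim ρ' := Prim.of_isRotated hrot hρ
  have pgρ' : List.HasPeriod ρ' (u.length.gcd ρ.length) :=
    hasPeriod_of_factor pg (List.take_prefix _ _).isInfix
  have hgpos : 0 < u.length.gcd ρ.length := Nat.gcd_pos_of_pos_left _ hlu
  have heq := hρ'prim.eq_of_hasPeriod pgρ' (by rw [hρ'len]; exact Nat.gcd_dvd_right _ _)
  rw [hρ'len] at heq
  have hdvd : ρ.length ∣ u.length := by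
    have := Nat.gcd_dvd_left u.length ρ.length
    rwa [heq] at this
  obtain ⟨c, hc⟩ := hdvd
  have hcpos : 1 ≤ c := by
    rcases Nat.eq_zero_or_pos c with rfl | h0
    · exfalso
      rw [Nat.mul_zero] at hc
      omega
    · exact h0
  have hr : 1 ≤ r := by
    rcases Nat.eq_zero_or_pos r with rfl | h0
    · exfalso
      rw [Nat.zero_mul] at hlen
      omega
    · exact h0
  obtain ⟨r', rfl⟩ : ∃ r', r = r' + 1 := ⟨r - 1, by omega⟩
  have hupref : u <+: z := by
    rw [hz, pw_succ]
    exact List.prefix_append _ _
  have puρ : List.HasPeriod u ρ.length := hasPeriod_of_factor p2 hupref.isInfix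
  have h4 := eq_pw_of_hasPeriod c puρ (by rw [hc]; ring)
  have h5 : u.take ρ.length = ρ' := by
    have hle3 : ρ.length ≤ u.length := by rw [hc]; nlinarith
    rw [hρ', hz, pw_succ, List.take_append_of_le_length hle3]
  rw [h5] at h4
  -- pw c rho' is a rotation of pw c rho
  have h6 : (pw c ρ') ~r (pw c ρ) := by
    obtain ⟨c', rfl⟩ : ∃ c', c = c' + 1 := ⟨c - 1, by omega⟩
    have hconj : ∀ m : ℕ, pw m (a ++ b) ++ a = a ++ pw m (b ++ a) := by
      intro m
      induction m with
      | zero => simp
      | succ m ihm =>
        rw [pw_succ, pw_succ, List.append_assoc, ihm]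
        simp [List.append_assoc]
    rw [isRotated_iff_split]
    have hb : pw (c' + 1) ρ' = b ++ (a ++ pw c' ρ') := by
      rw [pw_succ, h3, List.append_assoc]
    refine ⟨b, a ++ pw c' ρ', hb, ?_⟩
    have e3 := hconj c'
    rw [← h1, ← h3] at e3
    rw [pw_succ', ← e3, List.append_assoc, ← h1]
  exact ⟨1, c, le_refl _, hcpos, by rw [pw_one]; rw [← h4] at h6; exact h6⟩

/-- A word and its root length. -/
theorem exists_root_rootLen {w : List α} (h : w ≠ []) :
    ∃ (x : List α) (n : ℕ), Prim x ∧ 1 ≤ n ∧ w = pw n x ∧ x.length = rootLen w := by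
  obtain ⟨n, hx, hn, hw⟩ := Classical.choose_spec (exists_prim_root h)
  refine ⟨_, n, hx, hn, hw, ?_⟩
  unfold rootLen
  rw [dif_pos h]

/-- The root length of `pw n x` for primitive `x`. -/
theorem rootLen_pw {x : List α} {n : ℕ} (hx : Prim x) (hn : 1 ≤ n) : rootLen (pw n x) = x.length := by
  have hne : pw n x ≠ [] := by
    intro h0
    have := congrArg List.length h0
    have hlx : 0 < x.length := List.length_pos_iff.2 hx.1
    have h1 : 0 < n * x.length := Nat.mul_pos hn hlx
    rw [length_pw] at this
    simp only [List.length_nil] at this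
    omega
  obtain ⟨y, m, hy, hm, hyw, hlen⟩ := exists_root_rootLen hne
  rw [← hlen]
  obtain ⟨j, hj⟩ := pow_eq_pow_prim hx hm hyw.symm
  have hj1 := hy.2 _ _ hj
  subst hj1
  rw [hj, pw_one]

/-- Rotation-conjugate powers have the same root length. -/
theorem PCong.rootLen_eq {x y : List α} (hx : x ≠ []) (hy : y ≠ []) (h : PCong x y) :
    rootLen x = rootLen y := by
  obtain ⟨n, m, hn, hm, h⟩ := h
  obtain ⟨x0, a, hx0, ha, hxe, hxl⟩ := exists_root_rootLen hx
  obtain ⟨y0, b, hy0, hb, hye, hyl⟩ := exists_root_rootLen hy
  rw [← hxl, ← hyl]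
  rw [hxe, hye, ← pw_mul, ← pw_mul] at h
  obtain ⟨A, B, h1, h2⟩ := isRotated_iff_split.1 h
  obtain ⟨τ', hrot, h3, -⟩ := rot_pw_aux h1
  have hτ' : Prim τ' := Prim.of_isRotated hrot.symm hx0
  rw [← h2] at h3
  obtain ⟨j, hj⟩ := pow_eq_pow_prim hy0 (Nat.mul_pos hn ha) h3
  have hj1 := hτ'.2 _ _ hj
  subst hj1
  rw [pw_one] at hj
  rw [← hrot.perm.length_eq, hj]

/-- Lifting: a morphism image of rotation-conjugate powers stays so. -/
theorem PCong.flatMap {β : Type} (f : α → List β) {x y : List α} (h : PCong x y) :
    PCong (x.flatMap f) (y.flatMap f) := by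
  obtain ⟨n, m, hn, hm, h⟩ := h
  refine ⟨n, m, hn, hm, ?_⟩
  rw [← pw_flatMap, ← pw_flatMap]
  obtain ⟨A, B, h1, h2⟩ := isRotated_iff_split.1 h
  rw [h1, h2, List.flatMap_append, List.flatMap_append]
  exact isRotated_iff_split.2 ⟨_, _, rfl, rfl⟩

/-- Lifting: the preimage of a primitive word is primitive. -/
theorem Prim.of_flatMap {β : Type} (f : α → List β) {x : List α} (h : Prim (x.flatMap f)) : Prim x := by
  refine ⟨?_, ?_⟩
  · rintro rfl
    exact h.1 (by simp)
  · intro y n hy
    exact h.2 (y.flatMap f) n (by rw [hy, pw_flatMap])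

/-- The rotation lemma: rotating a power gives a power of a rotation. -/
theorem rot_pw {τ A B : List α} {k : ℕ} (h : pw k τ = A ++ B) :
    ∃ τ', pw k τ' = B ++ A ∧ B ++ τ = τ' ++ B := by
  obtain ⟨τ', -, h1, h2⟩ := rot_pw_aux h
  exact ⟨τ', h1, h2⟩

end

end Vale.Agent.Lib.P329.Tw
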