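import Vale.Agent.Lib.P329.Tw.WordsA

/-! Word combinatorics: words with a long periodic tail. -/

namespace Vale.Agent.Lib.P329.Tw

open Classical

noncomputable section

variable {α : Type}

/-- A primitive word with a long periodic suffix: the root is the period. -/
private lemma root_eq_of_suffix {x y P : List α} {r N : ℕ} (hx : Prim x) (hy : Prim y)
    (h : P ++ pw r x = pw N y) (hlen : x.length + y.length ≤ r * x.length) : y = x := by
  have hx0 : x ≠ [] := hx.1
  have hxl : 0 < x.length := List.length_pos_iff.mpr hx0
  have hyl : 0 < y.length := List.length_pos_iff.mpr hy.1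
  have hsuf : pw r x <:+: pw N y := by
    rw [← h]
    exact (List.suffix_append P (pw r x)).isInfix
  have hp : PCong x y := fw_pcong hy hx0 hsuf hlen
  have hroot := hp.rootLen_eq hx0 hy.1
  have h1 : rootLen x = x.length := by
    have := rootLen_pw (n := 1) hx le_rfl
    simpa using this
  have h2 : rootLen y = y.length := by
    have := rootLen_pw (n := 1) hy le_rfl
    simpa using this
  have hlen2 : x.length = y.length := by omega
  have hr : 1 ≤ r := by
    by_contra hr
    have : r = 0 := by omega
    subst this
    rw [Nat.zero_mul] at hlen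
    omega
  have hN : 1 ≤ N := by
    by_contra hN
    have : N = 0 := by omega
    subst this
    have h3 := congrArg List.length h
    simp only [List.length_append, length_pw, pw_zero, List.length_nil] at h3
    have h4 := Nat.le_mul_of_pos_left x.length hr
    omega
  obtain ⟨r', rfl⟩ : ∃ r', r = r' + 1 := ⟨r - 1, by omega⟩
  obtain ⟨N', rfl⟩ : ∃ N', N = N' + 1 := ⟨N - 1, by omega⟩
  rw [pw_succ', pw_succ', ← List.append_assoc] at h
  exact ((List.append_inj' h hlen2).2).symm

/-- A word with a periodic tail that starts with `e` is not a power of the root of `v`. -/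
private lemma no_power {x v e B' : List α} {j K N : ℕ} (hx : x ≠ []) (hv : v = pw j x)
    (h1 : ¬ e <+: v) (h2 : ¬ v <+: e) (hK : 1 ≤ K)
    (h : (e ++ B') ++ pw K v = pw N x) : False := by
  have hxl : 0 < x.length := List.length_pos_iff.mpr hx
  have hlen := congrArg List.length h
  simp only [List.length_append, length_pw] at hlen
  have hvl : v.length = j * x.length := by rw [hv, length_pw]
  obtain ⟨K', rfl⟩ : ∃ K', K = K' + 1 := ⟨K - 1, by omega⟩
  have hjN : j ≤ N := by
    have h3 : v.length ≤ N * x.length := by
      have : (K' + 1) * v.length = K' * v.length + v.length := by ring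
      omega
    rw [hvl] at h3
    exact Nat.le_of_mul_le_mul_right h3 hxl
  have hpre1 : v <+: pw N x := by
    rw [hv, show N = j + (N - j) by omega, pw_add]
    exact List.prefix_append _ _
  have hpre2 : e <+: pw N x := by
    rw [← h, List.append_assoc]
    exact List.prefix_append _ _
  rcases List.prefix_or_prefix_of_prefix hpre2 hpre1 with h3 | h3
  · exact h1 h3
  · exact h2 h3

/-- W4. A word with a long periodic tail and a non-comparable start is primitive. -/
theorem prim_of_flush {v e B' : List α} {k₀ K : ℕ} (hv : v ≠ []) (he : e ≠ [])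
    (h1 : ¬ e <+: v) (h2 : ¬ v <+: e)
    (hK : (e ++ B').length + 2 * v.length ≤ K * v.length) :
    Prim (pw k₀ v ++ (e ++ B') ++ pw K v) := by
  have hvl : 0 < v.length := List.length_pos_iff.mpr hv
  have hel : 0 < e.length := List.length_pos_iff.mpr he
  have hK1 : 1 ≤ K := by
    by_contra hK1
    have : K = 0 := by omega
    subst this
    rw [Nat.zero_mul] at hK
    omega
  -- the rotated word
  suffices hY : Prim ((e ++ B') ++ pw (K + k₀) v) by
    refine Prim.of_isRotated ?_ hY
    rw [pw_add]
    have : (e ++ B') ++ (pw K v ++ pw k₀ v) = ((e ++ B') ++ pw K v) ++ pw k₀ v := by simp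
    rw [this]
    have h3 : pw k₀ v ++ (e ++ B') ++ pw K v = pw k₀ v ++ ((e ++ B') ++ pw K v) := by simp
    rw [h3]
    exact List.isRotated_append
  refine ⟨?_, ?_⟩
  · intro h0
    have := congrArg List.length h0
    simp only [List.length_append, List.length_nil] at this
    omega
  intro z n hz
  obtain ⟨x, j, hx, hj, hvx⟩ := exists_prim_root hv
  have hYlen : ((e ++ B') ++ pw (K + k₀) v).length
      = (e ++ B').length + (K + k₀) * v.length := by
    simp only [List.length_append, length_pw]
  have hA : e.length ≤ (e ++ B').length := by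
    simp only [List.length_append]; omega
  have hz0 : z ≠ [] := by
    rintro rfl
    have h3 := congrArg List.length hz
    rw [hYlen, length_pw] at h3
    simp only [List.length_nil, Nat.mul_zero] at h3
    omega
  have hn1 : n ≠ 0 := by
    rintro rfl
    have h3 := congrArg List.length hz
    rw [hYlen, length_pw, Nat.zero_mul] at h3
    omega
  by_contra hne
  have hn2 : 2 ≤ n := by omega
  obtain ⟨y, m, hy, hm, hzy⟩ := exists_prim_root hz0
  have hxl : 0 < x.length := List.length_pos_iff.mpr hx.1
  have hyl : 0 < y.length := List.length_pos_iff.mpr hy.1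
  have hY2 : (e ++ B') ++ pw ((K + k₀) * j) x = pw (n * m) y := by
    rw [pw_mul, ← hvx, hz, hzy, pw_mul]
  have hvl2 : v.length = j * x.length := by rw [hvx, length_pw]
  have hzl : z.length = m * y.length := by rw [hzy, length_pw]
  have hzn : (e ++ B').length + (K + k₀) * v.length = n * z.length := by
    rw [← hYlen, hz, length_pw]
  have hxv : x.length ≤ v.length := by
    rw [hvl2]
    exact Nat.le_mul_of_pos_left _ hj
  have hyz : y.length ≤ z.length := by
    rw [hzl]
    exact Nat.le_mul_of_pos_left _ hm
  have h2z : 2 * z.length ≤ n * z.length := Nat.mul_le_mul_right _ hn2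
  have hKk : K * v.length ≤ (K + k₀) * v.length := by
    apply Nat.mul_le_mul_right; omega
  have hcond : x.length + y.length ≤ ((K + k₀) * j) * x.length := by
    have h3 : ((K + k₀) * j) * x.length = (K + k₀) * v.length := by rw [hvl2]; ring
    rw [h3]
    omega
  have hyx : y = x := root_eq_of_suffix hx hy hY2 hcond
  subst hyx
  exact no_power (K := K + k₀) (B' := B') (N := n * m) hx.1 hvx h1 h2 (by omega)
    (by rw [hz, hzy, pw_mul])

/-- W5. The root of such a word is strictly longer than the root of `v`. -/
theorem rootLen_flush {v e B' : List α} {k₀ K : ℕ} (hv : v ≠ []) (he : e ≠ [])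
    (h1 : ¬ e <+: v) (h2 : ¬ v <+: e) (hK : 2 ≤ K) :
    rootLen v < rootLen (pw k₀ v ++ (e ++ B') ++ pw K v) := by
  have hvl : 0 < v.length := List.length_pos_iff.mpr hv
  have hel : 0 < e.length := List.length_pos_iff.mpr he
  have hY0 : pw k₀ v ++ (e ++ B') ++ pw K v ≠ [] := by
    intro h0
    have := congrArg List.length h0
    simp only [List.length_append, List.length_nil] at this
    omega
  obtain ⟨x, j, hx, hj, hvx, hxr⟩ := exists_root_rootLen hv
  obtain ⟨w, n, hw, hn, hYw, hwr⟩ := exists_root_rootLen hY0
  rw [← hxr, ← hwr]
  by_contra hle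
  rw [not_lt] at hle
  have hxl : 0 < x.length := List.length_pos_iff.mpr hx.1
  have hcond : x.length + w.length ≤ (K * j) * x.length := by
    have h3 : 2 * x.length ≤ (K * j) * x.length := by
      apply Nat.mul_le_mul_right
      calc 2 ≤ K := hK
        _ ≤ K * j := Nat.le_mul_of_pos_right _ hj
    omega
  have hY2 : (pw k₀ v ++ (e ++ B')) ++ pw (K * j) x = pw n w := by
    rw [pw_mul, ← hvx, ← hYw]
  have hwx : w = x := root_eq_of_suffix hx hw hY2 hcond
  subst hwx
  -- cancel the head
  have hY3 : pw (k₀ * j) w ++ ((e ++ B') ++ pw K v) = pw n w := by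
    rw [pw_mul, ← hvx, ← hYw]
    simp only [List.append_assoc]
  have hk : k₀ * j ≤ n := by
    have h3 := congrArg List.length hY3
    simp only [List.length_append, length_pw] at h3
    have h4 : (k₀ * j) * w.length ≤ n * w.length := by omega
    exact Nat.le_of_mul_le_mul_right h4 hxl
  rw [show n = k₀ * j + (n - k₀ * j) by omega, pw_add] at hY3
  have hY4 := List.append_cancel_left hY3
  exact no_power hx.1 hvx h1 h2 (by omega) hY4

end

end Vale.Agent.Lib.P329.Tw
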